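import Crest.Agent.R121.AmpA

/-!
# Row 121: amplification in a properly infinite summand
-/

set_option autoImplicit false

namespace Crest.Agent.R121

open scoped InnerProductSpace ComplexOrder BigOperators _root_.Topology
open Finset Filter
open Crest.Agent.R124 (Op)

universe u

namespace Amp

variable {H : Type*} [NormedAddCommGroup H] [InnerProductSpace ℂ H] [CompleteSpace H]
  {M : VonNeumannAlgebra H} {o : Alg M}

lemma iso_norm_le (ho : IsStarProjection o) {x : Alg M} (h : star x * x = o) : ‖x‖ ≤ 1 := by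
  have h1 : ‖x‖ * ‖x‖ ≤ 1 := by rw [← CStarRing.norm_star_mul_self, h]; exact ho.norm_le
  nlinarith [norm_nonneg x]

/-- rows of orthogonal isometries are contractions -/
lemma row_le (ho : IsStarProjection o) {I : Type} [Fintype I] {m : I → Alg M} (hm : Iso o m)
    (ζ : I → H) : ‖∑ a, (m a : Op H) (ζ a)‖ ^ 2 ≤ ∑ a, ‖ζ a‖ ^ 2 := by
  have e : ∀ a, ⟪(m a : Op H) (ζ a), ∑ b, (m b : Op H) (ζ b)⟫_ℂ =
      ((‖(m a : Op H) (ζ a)‖ ^ 2 : ℝ) : ℂ) := by
    intro a
    rw [inner_sum, sum_eq_single a, inner_self_eq_norm_sq_to_K]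
    · norm_cast
    · intro b _ hb
      rw [← inner_star_r, ← mul_app, hm.ne a b hb.symm, zero_app, inner_zero_right]
    · simp
  have e2 : ((‖∑ a, (m a : Op H) (ζ a)‖ ^ 2 : ℝ) : ℂ) =
      ((∑ a, ‖(m a : Op H) (ζ a)‖ ^ 2 : ℝ) : ℂ) := by
    have := inner_self_eq_norm_sq_to_K (𝕜 := ℂ) (∑ a, (m a : Op H) (ζ a))
    rw [sum_inner] at this
    simp only [e] at this
    push_cast at this ⊢
    exact this.symm
  rw [Complex.ofReal_injective e2]
  refine sum_le_sum fun a _ => pow_le_pow_left₀ (norm_nonneg _) ((norm_app_le _ _).trans ?_) 2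
  exact mul_le_of_le_one_left (norm_nonneg _) (iso_norm_le ho (hm.eq a))

/-- and so are the adjoint columns -/
lemma col_le (ho : IsStarProjection o) {I : Type} [Fintype I] {m : I → Alg M} (hm : Iso o m)
    (ξ : H) : ∑ a, ‖((star (m a) : Alg M) : Op H) ξ‖ ^ 2 ≤ ‖ξ‖ ^ 2 := by
  set t := ∑ a, ‖((star (m a) : Alg M) : Op H) ξ‖ ^ 2 with ht
  set v := ∑ a, (m a : Op H) (((star (m a) : Alg M) : Op H) ξ) with hv
  have h1 : ‖v‖ ^ 2 ≤ t := row_le ho hm _
  have h2 : (t : ℂ) = ⟪ξ, v⟫_ℂ := by
    rw [ht, hv, inner_sum]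
    push_cast
    refine sum_congr rfl fun a _ => ?_
    rw [← inner_star_l, inner_self_eq_norm_sq_to_K]; rfl
  have h3 : t ≤ ‖ξ‖ * ‖v‖ := by
    have := norm_inner_le_norm (𝕜 := ℂ) ξ v
    rw [← h2, Complex.norm_real] at this
    exact (le_abs_self t).trans this
  nlinarith [sq_nonneg (‖ξ‖ - ‖v‖)]

lemma norm_amp_le (ho : IsStarProjection o) {I J : Type} [Fintype I] [Fintype J]
    {m : I → Alg M} {n : J → Alg M} (hm : Iso o m) (hn : Iso o n) {y : I → J → Alg M} {r : ℝ}
    (hr : 0 ≤ r) (hy : MatB y r) : ‖∑ d, ∑ c, m c * y c d * star (n d)‖ ≤ r := by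
  refine norm_le_of_app hr fun ξ => ?_
  refine (pow_le_pow_iff_left₀ (norm_nonneg _) (by positivity) two_ne_zero).1 ?_
  have e : ((∑ d, ∑ c, m c * y c d * star (n d) : Alg M) : Op H) ξ =
      ∑ c, (m c : Op H) (∑ d, (y c d : Op H) (((star (n d) : Alg M) : Op H) ξ)) := by
    rw [sum_comm]
    simp only [sum_app, mul_app, map_sum]
  rw [e, mul_pow]
  refine (row_le ho hm _).trans ((hy _).trans ?_)
  gcongr
  exact col_le ho hn ξ

lemma norm_diag_le (ho : IsStarProjection o) {I : Type} [Fintype I]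
    {m n : I → Alg M} (hm : Iso o m) (hn : Iso o n) (x : Alg M) :
    ‖∑ c, m c * x * star (n c)‖ ≤ ‖x‖ := by
  refine norm_le_of_app (norm_nonneg _) fun ξ => ?_
  refine (pow_le_pow_iff_left₀ (norm_nonneg _) (by positivity) two_ne_zero).1 ?_
  simp only [sum_app, mul_app]
  rw [mul_pow]
  refine (row_le ho hm _).trans ?_
  calc ∑ c, ‖(x : Op H) (((star (n c) : Alg M) : Op H) ξ)‖ ^ 2
      ≤ ∑ c, ‖x‖ ^ 2 * ‖((star (n c) : Alg M) : Op H) ξ‖ ^ 2 := sum_le_sum fun c _ => by
        rw [← mul_pow]; exact pow_le_pow_left₀ (norm_nonneg _) (norm_app_le _ _) 2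
    _ ≤ _ := by
        rw [← mul_sum]; gcongr; exact col_le ho hn ξ

/-- matrix bounds are convex -/
lemma matB_avg {Ω I J : Type} [Fintype Ω] [Nonempty Ω] [Fintype I] [Fintype J]
    {x : Ω → I → J → Alg M} {r : ℝ} (h : ∀ ω, MatB (x ω) r) :
    MatB (fun a b => avg fun ω => x ω a b) r := fun α => by
  have hc : (0 : ℝ) < Fintype.card Ω := by exact_mod_cast Fintype.card_pos
  have e : ∀ a, ‖∑ b, ((avg fun ω => x ω a b : Alg M) : Op H) (α b)‖ ^ 2 ≤
      (Fintype.card Ω : ℝ)⁻¹ * ∑ ω, ‖∑ b, (x ω a b : Op H) (α b)‖ ^ 2 := by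
    intro a
    have e1 : ∑ b, ((avg fun ω => x ω a b : Alg M) : Op H) (α b) =
        ((Fintype.card Ω : ℂ)⁻¹) • ∑ ω, ∑ b, (x ω a b : Op H) (α b) := by
      simp only [avg, smul_app, sum_app, ← smul_sum]
      rw [sum_comm]
    rw [e1, norm_smul, norm_inv, Complex.norm_natCast, mul_pow]
    have e2 : ‖∑ ω, ∑ b, (x ω a b : Op H) (α b)‖ ^ 2 ≤
        Fintype.card Ω * ∑ ω, ‖∑ b, (x ω a b : Op H) (α b)‖ ^ 2 :=
      (pow_le_pow_left₀ (norm_nonneg _) (norm_sum_le _ _) 2).trans sq_sum_le_card_mul_sum_sq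
    calc _ ≤ (Fintype.card Ω : ℝ)⁻¹ ^ 2 *
          (Fintype.card Ω * ∑ ω, ‖∑ b, (x ω a b : Op H) (α b)‖ ^ 2) := by gcongr
      _ = _ := by field_simp
  refine (sum_le_sum fun a _ => e a).trans ?_
  rw [← mul_sum, sum_comm]
  calc (Fintype.card Ω : ℝ)⁻¹ * ∑ ω, ∑ a, ‖∑ b, (x ω a b : Op H) (α b)‖ ^ 2
      ≤ (Fintype.card Ω : ℝ)⁻¹ * ∑ _ω : Ω, r ^ 2 * ∑ b, ‖α b‖ ^ 2 := by
        gcongr with ω; exact h ω α
    _ = _ := by rw [sum_const, card_univ, nsmul_eq_mul]; field_simp

lemma matB_row (ho : IsStarProjection o) {J : Type} [Fintype J] {n : J → Alg M} (hn : Iso o n)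
    (F : Alg M) {ρ : ℝ} (hF : ‖F‖ ≤ ρ) : MatB (fun (_ : Unit) b => F * n b) ρ := fun α => by
  simp only [univ_unique, sum_singleton, mul_app, ← map_sum]
  calc ‖(F : Op H) (∑ b, (n b : Op H) (α b))‖ ^ 2 ≤ (ρ * ‖∑ b, (n b : Op H) (α b)‖) ^ 2 :=
        pow_le_pow_left₀ (norm_nonneg _) ((norm_app_le _ _).trans (by gcongr)) 2
    _ ≤ _ := by rw [mul_pow]; gcongr; exact row_le ho hn α

lemma matB_col (ho : IsStarProjection o) {I J : Type} [Fintype I] [Fintype J] {n : I → Alg M}
    (hn : Iso o n) {z : J → Alg M} {ρ : ℝ} (hz : MatB (fun (_ : Unit) b => z b) ρ) :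
    MatB (fun a b => star (n a) * z b) ρ := fun α => by
  have := hz α
  simp only [univ_unique, sum_singleton] at this
  simp only [mul_app, ← map_sum]
  exact (col_le ho hn _).trans this

variable {G : Type} [Fintype G] {w : G → Alg M}

/-- the row estimate -/
lemma matB_R (ho : IsStarProjection o) {I J : Type} [Fintype I] [Fintype J] (hI : Design o w I)
    (hJ : Design o w J) {y : I → J → Alg M} {r : ℝ} (hr : 0 ≤ r) (hy : MatB y r)
    (l : List (Alg M)) : ∀ {C : ℝ} {f : List (Alg M) → Alg M} {m : I → Alg M}, 0 ≤ C →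
      BML (l.length + 1) C f → Iso o m →
      MatB (fun (_ : Unit) b => ∑ a, R w (l ++ [y a b]) (m a) f) (C * nprod l * r) := by
  induction l with
  | nil =>
    intro C f m hC hf hm
    obtain ⟨Ω, _, _, n, hn, hΦ⟩ := hJ
    have hl : IsLinearMap ℂ (fun a => f [a]) := hf.1 [] rfl
    have e : (fun (_ : Unit) b => ∑ a, R w ([] ++ [y a b]) (m a) f) =
        fun (_ : Unit) b => avg fun ω => f [∑ d, ∑ c, m c * y c d * star (n ω d)] * n ω b := by
      funext _ b
      have := avg_design hΦ (fun d u v => f [∑ c, m c * y c d * star u] * v)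
        (fun d u v => by
          simp only [star_neg, mul_neg, sum_neg_distrib]
          rw [show f [-∑ c, m c * y c d * star u] = -f [∑ c, m c * y c d * star u] from
            hl.map_neg _, neg_mul])
        (fun d u v => mul_neg _ _) b
      have e2 : ∀ ω, f [∑ d, ∑ c, m c * y c d * star (n ω d)] * n ω b =
          ∑ d, f [∑ c, m c * y c d * star (n ω d)] * n ω b := fun ω => by
        rw [← sum_mul]; exact congrArg (· * n ω b) (lin_sum hl _ _)
      have e3 : ∀ i, f [∑ c, m c * y c b * star (w i)] * w i =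
          ∑ c, f [m c * y c b * star (w i)] * w i := fun i => by
        rw [← sum_mul univ (fun c => f [m c * y c b * star (w i)])]
        exact congrArg (· * w i) (lin_sum hl _ _)
      refine Eq.trans ?_ (this.symm.trans (congrArg avg (funext fun ω => (e2 ω).symm)))
      refine Eq.trans ?_ (congrArg avg (funext fun i => (e3 i).symm))
      rw [avg_sum]
      rfl
    rw [e]
    refine matB_avg fun ω => matB_row ho (hn ω) _ ?_
    have h1 : ‖f [∑ d, ∑ c, m c * y c d * star (n ω d)]‖ ≤ C * _ := hf.2 _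
    refine h1.trans ?_
    rw [nprod_nil, mul_one]
    gcongr
    exact norm_amp_le ho hm (hn ω) hr hy
  | cons x l ih =>
    intro C f m hC hf hm
    obtain ⟨Ω, _, _, n, hn, hΦ⟩ := hI
    have e : (fun (_ : Unit) b => ∑ a, R w (x :: l ++ [y a b]) (m a) f) =
        fun (_ : Unit) b => avg fun ω => ∑ a, R w (l ++ [y a b]) (n ω a)
          (fun l' => f ((∑ c, m c * x * star (n ω c)) :: l')) := by
      funext _ b
      have e2 : ∀ ω a, R w (l ++ [y a b]) (n ω a)
          (fun l' => f ((∑ c, m c * x * star (n ω c)) :: l')) =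
          ∑ c, R w (l ++ [y a b]) (n ω a) (fun l' => f (m c * x * star (n ω c) :: l')) := by
        intro ω a
        rw [← R_sum]
        exact R_congr w _ _ fun l' hl' => lin_sum (hf.1 l' (by simpa using hl')) _ _
      simp only [e2, avg_sum (s := univ) (α := I) (x := fun a ω => ∑ c, R w (l ++ [y a b]) (n ω a)
        (fun l' => f (m c * x * star (n ω c) :: l')))]
      refine sum_congr rfl fun a _ => ?_
      rw [List.cons_append, R_cons]
      refine (avg_design hΦ (fun c u v => R w (l ++ [y a b]) v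
        (fun l' => f (m c * x * star u :: l'))) (fun c u v => ?_) (fun c u v => ?_) a).symm
      · rw [← R_neg]
        refine R_congr w _ _ fun l' hl' => ?_
        rw [star_neg, mul_neg]
        exact (hf.1 l' (by simpa using hl')).map_neg _
      · exact R_neg_left w (C := C * ‖m c * x * star u‖) _ _
          (by rw [List.length_append]; exact hf.2 _)
    rw [e]
    refine matB_avg fun ω => ?_
    have h1 : BML (l.length + 1) (C * ‖x‖) (fun l' => f ((∑ c, m c * x * star (n ω c)) :: l')) :=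
      (hf.2 _).mono (by gcongr; exact norm_diag_le ho hm (hn ω) x)
    have := ih (by positivity) h1 (hn ω)
    rwa [nprod_cons, ← mul_assoc]

lemma matB_phi (ho : IsStarProjection o) {I J : Type} [Fintype I] [Fintype J] (hI : Design o w I)
    (hJ : Design o w J) {y : I → J → Alg M} {r : ℝ} (hr : 0 ≤ r) (hy : MatB y r)
    (l : List (Alg M)) {C : ℝ} {f : List (Alg M) → Alg M} (hC : 0 ≤ C)
    (hf : BML (l.length + 1) C f) :
    MatB (fun a b => phi w f (l ++ [y a b])) (C * nprod l * r) := by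
  obtain ⟨Ω, _, _, n, hn, hΦ⟩ := id hI
  have e : (fun a b => phi w f (l ++ [y a b])) =
      fun a b => avg fun ω => star (n ω a) * ∑ c, R w (l ++ [y c b]) (n ω c) f := by
    funext a b
    simp only [mul_sum]
    refine (avg_design hΦ (fun c u v => star v * R w (l ++ [y c b]) u f) (fun c u v => ?_)
      (fun c u v => ?_) a).symm
    · rw [R_neg_left w (C := C) _ _ (by simpa using hf), mul_neg]
    · rw [star_neg, neg_mul]
  rw [e]
  exact matB_avg fun ω => matB_col ho (hn ω) (matB_R ho hI hJ hr hy l hC hf (hn ω))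

/-! ### weak limits of cochains -/

variable {T : Type*}

lemma wlim_spec_BML (𝒰 : Ultrafilter T) {C : ℝ} {F : T → List (Alg M) → Alg M}
    (l : List (Alg M)) (h : ∀ i, BML l.length C (F i)) :
    WLim (𝒰 : Filter T) (fun i => F i l) (wlim 𝒰 fun i => F i l) :=
  wlim_spec 𝒰 _ (Eventually.of_forall fun i => (h i).norm_le l)

lemma BML_wlim (𝒰 : Ultrafilter T) : ∀ (k : ℕ) {C : ℝ} {F : T → List (Alg M) → Alg M},
    (∀ i, BML k C (F i)) → BML k C (fun l => wlim 𝒰 fun i => F i l)
  | 0, C, F, h => (wlim_spec_BML 𝒰 [] h).norm_le (Eventually.of_forall fun i => h i)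
  | k + 1, C, F, h => by
    refine ⟨fun l hl => ?_, fun a => BML_wlim 𝒰 k fun i => (h i).2 a⟩
    have sp : ∀ a, WLim (𝒰 : Filter T) (fun i => F i (a :: l)) (wlim 𝒰 fun i => F i (a :: l)) :=
      fun a => wlim_spec_BML 𝒰 (a :: l) (by simpa [hl] using h)
    refine ⟨fun x y => ?_, fun c x => ?_⟩
    · have e : (fun i => F i ((x + y) :: l)) = fun i => F i (x :: l) + F i (y :: l) :=
        funext fun i => ((h i).1 l hl).map_add x y
      beta_reduce
      rw [e]
      exact ((sp x).add (sp y)).wlim_eq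
    · have e : (fun i => F i ((c • x) :: l)) = fun i => c • F i (x :: l) :=
        funext fun i => ((h i).1 l hl).map_smul c x
      beta_reduce
      rw [e]
      exact ((sp x).smul c).wlim_eq

lemma WLim_D0 {L : Filter T} (l : List (Alg M)) : ∀ (a : Alg M) {F : T → List (Alg M) → Alg M}
    {f : List (Alg M) → Alg M},
    (∀ l' : List (Alg M), l'.length = l.length → WLim L (fun i => F i l') (f l')) →
    WLim L (fun i => D0 (a :: l) (F i)) (D0 (a :: l) f) := by
  induction l with
  | nil =>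
    intro a F f h
    simp only [D0_one]
    exact ((h [] rfl).mul_right a).neg
  | cons b l ih =>
    intro a F f h
    simp only [D0_two]
    exact (h _ (by simp)).neg.sub (ih b fun l' hl' => h (a :: l') (by simp [hl']))

lemma WLim_dd {L : Filter T} (l : List (Alg M)) {F : T → List (Alg M) → Alg M}
    {f : List (Alg M) → Alg M}
    (h : ∀ l' : List (Alg M), l'.length + 1 = l.length → WLim L (fun i => F i l') (f l')) :
    WLim L (fun i => dd (F i) l) (dd f l) := by
  cases l with
  | nil => exact WLim.const _ _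
  | cons a l =>
    simp only [dd_cons]
    exact ((h l rfl).mul_left a).add (WLim_D0 l a fun l' hl' => h l' (by simp [hl']))

end Amp

open Amp in
theorem ampStmt : AmpStmt.{u} := by
  intro H _ _ _ M o w₁ w₂ ho h1 h2 h12 k C f hC hf hcoc
  have hw1 : w₁ * o = w₁ := by
    have := pi_of_proj (w := w₁) (by rw [h1]; exact ho.proj)
    rwa [mul_assoc, h1] at this
  have hW := iso_pow ho.comm h1 h2 h12 (by rw [ho.comm, hw1])
  let w : (h : ℕ) → ZMod (h + 1) → Alg M := fun h i => w₂ ^ i.val * w₁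
  have hw : ∀ h, Iso o (w h) := fun h =>
    ⟨fun i => hW.eq _, fun i j hij => hW.ne _ _ fun e => hij (ZMod.val_injective _ e)⟩
  have hwo : ∀ h i, w h i * o = w h i := fun h i => by
    simp only [w]; rw [mul_assoc, hw1]
  have how : ∀ h i, o * star (w h i) = star (w h i) := fun h i => by
    have := congrArg star (hwo h i)
    rwa [star_mul, ho.proj.isSelfAdjoint.star_eq] at this
  have hn : ∀ h i, ‖w h i‖ ≤ 1 := fun h i => iso_norm_le ho.proj ((hw h).eq i)
  have hn' : ∀ h i, ‖star (w h i)‖ ≤ 1 := fun h i => by rw [norm_star]; exact hn h i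
  have bψ : ∀ h, BML k ((k + 1) * C) (psi (w h) f) := fun h => BML_psi (hn h) (hn' h) hC hf
  have bφ : ∀ h, BML (k + 1) C (phi (w h) f) := fun h => BML_phi (hn h) (hn' h) hC hf
  have bf' := BML_wlim (hyperfilter ℕ) (k + 1) bφ
  refine ⟨fun l => wlim (hyperfilter ℕ) fun h => psi (w h) f l,
    fun l => wlim (hyperfilter ℕ) fun h => phi (w h) f l, (k + 1) * C,
    BML_wlim (hyperfilter ℕ) k bψ, bf', fun l hl => ?_, fun l hl => ?_⟩
  · have e1 : WLim (hyperfilter ℕ : Filter ℕ) (fun h => dd (psi (w h) f) l)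
        (dd (fun l => wlim (hyperfilter ℕ) fun h => psi (w h) f l) l) :=
      WLim_dd l fun l' hl' => wlim_spec_BML _ l' (by
        rw [show l'.length = k by omega]; exact bψ)
    have e2 : WLim (hyperfilter ℕ : Filter ℕ) (fun h => o * f l - phi (w h) f l)
        (o * f l - wlim (hyperfilter ℕ) fun h => phi (w h) f l) :=
      (WLim.const _ _).sub (wlim_spec_BML _ l (by rw [hl]; exact bφ))
    simp only [fun h => dd_psi ho.comm (hw h).eq (hwo h) (how h) hcoc l hl] at e1
    exact e1.unique e2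
  · subst hl
    have hb := BML.bl_last l hC bf'
    refine ⟨hb.lin, hb.nonneg, fun I J _ _ y r hr hy => ?_⟩
    refine MatB.of_wlim (l := (hyperfilter ℕ : Filter ℕ))
      (x := fun h a b => phi (w h) f (l ++ [y a b]))
      (fun a b => wlim_spec_BML _ _ (by simpa using bφ)) ?_
    refine Nat.hyperfilter_le_atTop ?_
    filter_upwards [eventually_ge_atTop (Fintype.card I), eventually_ge_atTop (Fintype.card J)]
      with h hI hJ
    exact matB_phi ho.proj (exists_design (hw h) I (by rw [ZMod.card]; omega))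
      (exists_design (hw h) J (by rw [ZMod.card]; omega)) hr hy l hC hf

end Crest.Agent.R121
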