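import Crest.Agent.R121.Lists

/-!
# Row 121: the homotopy between a cochain and its average over a family of isometries
-/

set_option autoImplicit false

namespace Crest.Agent.R121.Amp

open Finset

set_option linter.unusedSectionVars false

variable {A : Type*} [NormedRing A] [NormedAlgebra ℂ A]

/-- uniform average -/
noncomputable def avg {Ω : Type} [Fintype Ω] (x : Ω → A) : A :=
  ((Fintype.card Ω : ℂ)⁻¹) • ∑ ω, x ω

section avg
variable {Ω : Type} [Fintype Ω]

lemma avg_add (x y : Ω → A) : avg (fun ω => x ω + y ω) = avg x + avg y := by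
  simp only [avg, sum_add_distrib, smul_add]

lemma avg_neg (x : Ω → A) : avg (fun ω => -x ω) = -avg x := by
  simp only [avg, sum_neg_distrib, smul_neg]

lemma avg_sub (x y : Ω → A) : avg (fun ω => x ω - y ω) = avg x - avg y := by
  simp only [avg, sum_sub_distrib, smul_sub]

lemma avg_left (c : A) (x : Ω → A) : avg (fun ω => c * x ω) = c * avg x := by
  simp only [avg, ← mul_sum, mul_smul_comm]

lemma avg_smul (c : ℂ) (x : Ω → A) : avg (fun ω => c • x ω) = c • avg x := by
  simp only [avg, ← smul_sum]; rw [smul_comm]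

lemma avg_const [Nonempty Ω] (c : A) : avg (fun _ : Ω => c) = c := by
  have hc : (Fintype.card Ω : ℂ) ≠ 0 := by exact_mod_cast Fintype.card_ne_zero
  rw [avg, sum_const, card_univ, ← Nat.cast_smul_eq_nsmul ℂ, smul_smul, inv_mul_cancel₀ hc,
    one_smul]

lemma avg_sum {α : Type*} (s : Finset α) (x : α → Ω → A) :
    avg (fun ω => ∑ a ∈ s, x a ω) = ∑ a ∈ s, avg (x a) := by
  simp only [avg, ← smul_sum]; rw [sum_comm]

lemma D0_avg (l : List A) (f : Ω → List A → A) :
    D0 l (fun l' => avg fun ω => f ω l') = avg fun ω => D0 l (f ω) := by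
  simp only [avg]; rw [D0_smul, D0_sum]

lemma BML_avg [Nonempty Ω] {k : ℕ} {C : ℝ} {f : Ω → List A → A} (h : ∀ ω, BML k C (f ω)) :
    BML k C (fun l => avg fun ω => f ω l) := by
  have hc : (Fintype.card Ω : ℝ) ≠ 0 := by exact_mod_cast Fintype.card_ne_zero
  refine ((BML.sum univ fun ω _ => h ω).smul ((Fintype.card Ω : ℂ)⁻¹)).mono (le_of_eq ?_)
  simp only [norm_inv, Complex.norm_natCast, sum_const, card_univ, nsmul_eq_mul]
  field_simp

end avg

variable [StarRing A] {G : Type} [Fintype G]

/-- the averaged cochain, with first isometry `m` -/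
noncomputable def R (w : G → A) : List A → A → (List A → A) → A
  | [], m, f => f [] * m
  | x :: l, m, f => avg fun i => R w l (w i) (fun l' => f (m * x * star (w i) :: l'))

/-- the homotopy -/
noncomputable def Hm (w : G → A) : List A → A → (List A → A) → A
  | [], m, f => f [m]
  | x :: l, m, f =>
      f (m :: x :: l) - avg fun i => Hm w l (w i) (fun l' => f (m * x * star (w i) :: l'))

variable (w : G → A)

lemma R_nil (m : A) (f : List A → A) : R w [] m f = f [] * m := rfl
lemma R_cons (x : A) (l : List A) (m : A) (f : List A → A) :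
    R w (x :: l) m f = avg fun i => R w l (w i) (fun l' => f (m * x * star (w i) :: l')) := rfl
lemma Hm_nil (m : A) (f : List A → A) : Hm w [] m f = f [m] := rfl
lemma Hm_cons (x : A) (l : List A) (m : A) (f : List A → A) : Hm w (x :: l) m f =
    f (m :: x :: l) - avg fun i => Hm w l (w i) (fun l' => f (m * x * star (w i) :: l')) := rfl

lemma R_congr (l : List A) : ∀ (m : A) {f g : List A → A},
    (∀ l' : List A, l'.length = l.length → f l' = g l') → R w l m f = R w l m g := by
  induction l with
  | nil => intro m f g h; rw [R_nil, R_nil, h [] rfl]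
  | cons x l ih =>
    intro m f g h
    rw [R_cons, R_cons]
    exact congrArg avg (funext fun i => ih _ fun l' hl' => h _ (by simp [hl']))

lemma Hm_congr (l : List A) : ∀ (m : A) {f g : List A → A},
    (∀ l' : List A, l'.length = l.length + 1 → f l' = g l') → Hm w l m f = Hm w l m g := by
  induction l with
  | nil => intro m f g h; rw [Hm_nil, Hm_nil, h [m] rfl]
  | cons x l ih =>
    intro m f g h
    rw [Hm_cons, Hm_cons, h _ (by simp)]
    congr 1
    exact congrArg avg (funext fun i => ih _ fun l' hl' => h _ (by simp [hl']))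

lemma R_add (l : List A) : ∀ (m : A) (f g : List A → A),
    R w l m (fun l' => f l' + g l') = R w l m f + R w l m g := by
  induction l with
  | nil => intro m f g; simp only [R_nil, add_mul]
  | cons x l ih => intro m f g; simp only [R_cons, ih, avg_add]

lemma R_left (c : A) (l : List A) : ∀ (m : A) (f : List A → A),
    R w l m (fun l' => c * f l') = c * R w l m f := by
  induction l with
  | nil => intro m f; simp only [R_nil, mul_assoc]
  | cons x l ih => intro m f; simp only [R_cons, ih, avg_left]

lemma R_smul (c : ℂ) (l : List A) (m : A) (f : List A → A) :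
    R w l m (fun l' => c • f l') = c • R w l m f := by
  simpa only [smul_mul_assoc, one_mul] using R_left w (c • (1 : A)) l m f

lemma R_neg (l : List A) (m : A) (f : List A → A) :
    R w l m (fun l' => -f l') = -R w l m f := by
  simpa only [neg_mul, one_mul] using R_left w (-1 : A) l m f

lemma R_sum {α : Type*} (s : Finset α) (l : List A) (m : A) (f : α → List A → A) :
    R w l m (fun l' => ∑ a ∈ s, f a l') = ∑ a ∈ s, R w l m (f a) := by
  classical
  induction s using Finset.induction_on with
  | empty => simpa only [sum_empty, zero_mul] using R_left w (0 : A) l m fun _ => 0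
  | insert a s ha ih => simp only [Finset.sum_insert ha, R_add, ih]

lemma Hm_add (l : List A) : ∀ (m : A) (f g : List A → A),
    Hm w l m (fun l' => f l' + g l') = Hm w l m f + Hm w l m g := by
  induction l with
  | nil => intro m f g; simp only [Hm_nil]
  | cons x l ih => intro m f g; simp only [Hm_cons, ih, avg_add]; abel

lemma Hm_left (c : A) (l : List A) : ∀ (m : A) (f : List A → A),
    Hm w l m (fun l' => c * f l') = c * Hm w l m f := by
  induction l with
  | nil => intro m f; simp only [Hm_nil]
  | cons x l ih => intro m f; simp only [Hm_cons, ih, avg_left, mul_sub]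

lemma Hm_smul (c : ℂ) (l : List A) (m : A) (f : List A → A) :
    Hm w l m (fun l' => c • f l') = c • Hm w l m f := by
  simpa only [smul_mul_assoc, one_mul] using Hm_left w (c • (1 : A)) l m f

lemma Hm_neg (l : List A) (m : A) (f : List A → A) :
    Hm w l m (fun l' => -f l') = -Hm w l m f := by
  simpa only [neg_mul, one_mul] using Hm_left w (-1 : A) l m f

lemma Hm_sub (l : List A) (m : A) (f g : List A → A) :
    Hm w l m (fun l' => f l' - g l') = Hm w l m f - Hm w l m g := by
  simp only [sub_eq_add_neg, Hm_add, Hm_neg]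

/-- `R` is odd in the first isometry -/
lemma R_neg_left {C : ℝ} (l : List A) (m : A) {f : List A → A} (h : BML l.length C f) :
    R w l (-m) f = -R w l m f := by
  cases l with
  | nil => simp only [R_nil, mul_neg]
  | cons x l =>
    rw [R_cons, R_cons, ← avg_neg]
    refine congrArg avg (funext fun i => ?_)
    rw [← R_neg]
    refine R_congr w l _ fun l' hl' => ?_
    rw [neg_mul, neg_mul]
    exact (h.1 l' hl').map_neg _

/-- multiply the head of a list -/
def Kf (c : A) (f : List A → A) : List A → A
  | [] => 0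
  | d :: l => f (c * d :: l)

/-- the first term of the differential -/
def Lf (f : List A → A) : List A → A
  | [] => 0
  | d :: l => d * f l

variable {w} {o : A}

/-- the homotopy formula -/
lemma homotopy [Nonempty G] (ho : ∀ a, o * a = a * o) (hw : ∀ i, star (w i) * w i = o)
    (hwo : ∀ i, w i * o = w i) (l : List A) : ∀ (m a : A) (f : List A → A), m * o = m →
    D0 (a :: l) (fun l' => Hm w l' m f) + Hm w (a :: l) m (fun l' => D0 l' f) =
      -R w (a :: l) m f := by
  have key : ∀ (m a c : A) (i : G), m * o = m → m * a * star (w i) * (w i * c) = m * a * c := by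
    intro m a c i hm
    rw [mul_assoc (m * a), ← mul_assoc (star (w i)), hw, ← mul_assoc, mul_assoc m, ← ho,
      ← mul_assoc, hm]
  have key' : ∀ (m a : A) (i : G), m * o = m → m * a * star (w i) * w i = m * a := by
    intro m a i hm
    simpa only [mul_one] using key m a 1 i hm
  induction l with
  | nil =>
    intro m a f hm
    simp only [D0_one, D0_two, Hm_nil, Hm_cons, R_cons, R_nil, key' m a _ hm, avg_sub, avg_neg,
      avg_const]
    abel
  | cons b l ih =>
    intro m a f hm
    have e1 : ∀ i, Hm w (b :: l) (w i) (fun l' => D0 (m * a * star (w i) :: l') f) =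
        -(f (m * a :: b :: l) -
            avg fun j => Hm w l (w j) (fun l' => f (m * (a * b) * star (w j) :: l'))) -
          Hm w (b :: l) (w i) (fun l' => D0 l' (fun l'' => f (m * a * star (w i) :: l''))) := by
      intro i
      have e2 : Hm w (b :: l) (w i) (Kf (m * a * star (w i)) f) = f (m * a :: b :: l) -
          avg fun j => Hm w l (w j) (fun l' => f (m * (a * b) * star (w j) :: l')) := by
        rw [Hm_cons]
        simp only [Kf, key' m a i hm]
        congr 1
        refine congrArg avg (funext fun j => ?_)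
        rw [mul_assoc (w i), key m a _ i hm, ← mul_assoc, mul_assoc m a b]
      rw [← e2, ← Hm_neg, ← Hm_sub]
      refine Hm_congr w _ _ fun l' hl' => ?_
      cases l' with
      | nil => simp at hl'
      | cons c l' => rw [D0_two]; rfl
    have e3 : ∀ i, D0 (b :: l) (fun l' => Hm w l' (w i) (fun l'' => f (m * a * star (w i) :: l''))) =
        -R w (b :: l) (w i) (fun l'' => f (m * a * star (w i) :: l'')) -
          Hm w (b :: l) (w i) (fun l' => D0 l' (fun l'' => f (m * a * star (w i) :: l''))) :=
      fun i => eq_sub_of_add_eq (ih (w i) b _ (hwo i))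
    rw [D0_two, Hm_cons w a (b :: l), R_cons w a (b :: l), Hm_cons w (a * b) l]
    simp only [Hm_cons w a]
    rw [D0_sub, D0_avg, D0_two, D0_two]
    simp only [e1, e3, avg_sub, avg_neg, avg_const]
    abel

variable (w) in
/-- the primitive -/
noncomputable def psi (f : List A → A) (l : List A) : A := avg fun i => star (w i) * Hm w l (w i) f

variable (w) in
/-- the averaged cochain -/
noncomputable def phi (f : List A → A) (l : List A) : A := avg fun i => star (w i) * R w l (w i) f

lemma dd_psi [Nonempty G] (ho : ∀ a, o * a = a * o) (hw : ∀ i, star (w i) * w i = o)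
    (hwo : ∀ i, w i * o = w i) (how : ∀ i, o * star (w i) = star (w i)) {k : ℕ} {f : List A → A}
    (hf : ∀ l : List A, l.length = k + 2 → dd f l = 0) (l : List A) (hl : l.length = k + 1) :
    dd (psi w f) l = o * f l - phi w f l := by
  cases l with
  | nil => simp at hl
  | cons a l =>
    have hl' : l.length = k := by simpa using hl
    have e1 : ∀ i, Hm w (a :: l) (w i) (fun l' => D0 l' f) =
        -(w i * f (a :: l) - w i * (a * psi w f l)) := by
      intro i
      have e2 : Hm w (a :: l) (w i) (Lf f) = w i * f (a :: l) - w i * (a * psi w f l) := by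
        rw [Hm_cons]
        simp only [Lf, Hm_left, psi, ← avg_left, mul_assoc]
      rw [← e2, ← Hm_neg]
      refine Hm_congr w _ _ fun l' hl'' => ?_
      cases l' with
      | nil => simp at hl''
      | cons c l' =>
        have := hf (c :: l') (by simp only [List.length_cons] at hl'' ⊢; omega)
        rw [dd_cons] at this
        exact eq_neg_of_add_eq_zero_right this
    have e3 : ∀ i, D0 (a :: l) (fun l' => Hm w l' (w i) f) =
        -R w (a :: l) (w i) f + (w i * f (a :: l) - w i * (a * psi w f l)) := by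
      intro i
      have := homotopy ho hw hwo l (w i) a f (hwo i)
      rw [e1] at this
      rw [← this]; abel
    have e4 : o * psi w f l = psi w f l := by
      simp only [psi, ← avg_left, ← mul_assoc, how]
    have e5 : D0 (a :: l) (psi w f) =
        avg fun i => star (w i) * D0 (a :: l) (fun l' => Hm w l' (w i) f) := by
      simp only [← D0_left, ← D0_avg]; rfl
    rw [dd_cons, e5]
    simp only [e3, mul_add, mul_sub, mul_neg, ← mul_assoc, hw, avg_add, avg_sub, avg_neg,
      avg_const]
    rw [ho a, mul_assoc, e4, phi]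
    abel

lemma norm_mid_le (hw : ∀ i, ‖star (w i)‖ ≤ 1) {m : A} (hm : ‖m‖ ≤ 1) (a : A) (i : G) :
    ‖m * a * star (w i)‖ ≤ ‖a‖ :=
  calc ‖m * a * star (w i)‖ ≤ ‖m‖ * ‖a‖ * ‖star (w i)‖ :=
        (norm_mul_le _ _).trans (by gcongr; exact norm_mul_le _ _)
    _ ≤ 1 * ‖a‖ * 1 := by have := hw i; gcongr
    _ = ‖a‖ := by ring

lemma BML_R [Nonempty G] (hw : ∀ i, ‖w i‖ ≤ 1) (hw' : ∀ i, ‖star (w i)‖ ≤ 1) :
    ∀ (k : ℕ) {C : ℝ} {f : List A → A} {m : A}, 0 ≤ C → BML k C f → ‖m‖ ≤ 1 →
      BML k C (fun l => R w l m f)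
  | 0, C, f, m, hC, h, hm => by
    change ‖f [] * m‖ ≤ C
    have h' : ‖f []‖ ≤ C := h
    calc ‖f [] * m‖ ≤ ‖f []‖ * ‖m‖ := norm_mul_le _ _
      _ ≤ C * 1 := by gcongr
      _ = C := mul_one _
  | k + 1, C, f, m, hC, h, hm => by
    refine ⟨fun l hl => ⟨fun x y => ?_, fun c x => ?_⟩, fun a => ?_⟩
    · simp only [R_cons, ← avg_add, ← R_add]
      refine congrArg avg (funext fun i => R_congr w l _ fun l' hl' => ?_)
      rw [mul_add, add_mul]
      exact (h.1 l' (hl'.trans hl)).map_add _ _
    · simp only [R_cons, ← avg_smul, ← R_smul]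
      refine congrArg avg (funext fun i => R_congr w l _ fun l' hl' => ?_)
      rw [mul_smul_comm, smul_mul_assoc]
      exact (h.1 l' (hl'.trans hl)).map_smul _ _
    · simp only [R_cons]
      refine BML_avg fun i => BML_R hw hw' k (by positivity) ((h.2 _).mono ?_) (hw i)
      gcongr
      exact norm_mid_le hw' hm a i

lemma BML_Hm [Nonempty G] (hw : ∀ i, ‖w i‖ ≤ 1) (hw' : ∀ i, ‖star (w i)‖ ≤ 1) :
    ∀ (k : ℕ) {C : ℝ} {f : List A → A} {m : A}, 0 ≤ C → BML (k + 1) C f → ‖m‖ ≤ 1 →
      BML k ((k + 1) * C) (fun l => Hm w l m f)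
  | 0, C, f, m, hC, h, hm => by
    change ‖f [m]‖ ≤ _
    have h' : ‖f [m]‖ ≤ C * ‖m‖ := h.2 m
    calc ‖f [m]‖ ≤ C * 1 := h'.trans (by gcongr)
      _ = _ := by simp
  | k + 1, C, f, m, hC, h, hm => by
    refine ⟨fun l hl => ⟨fun x y => ?_, fun c x => ?_⟩, fun a => ?_⟩
    · simp only [Hm_cons]
      have e : f (m :: (x + y) :: l) = f (m :: x :: l) + f (m :: y :: l) :=
        ((h.2 m).1 l hl).map_add x y
      rw [e, sub_add_sub_comm, ← avg_add]
      simp only [← Hm_add]
      congr 1
      refine congrArg avg (funext fun i => Hm_congr w l _ fun l' hl' => ?_)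
      rw [mul_add, add_mul]
      exact (h.1 l' (by rw [hl', hl])).map_add _ _
    · simp only [Hm_cons]
      have e : f (m :: (c • x) :: l) = c • f (m :: x :: l) := ((h.2 m).1 l hl).map_smul c x
      rw [e, smul_sub, ← avg_smul]
      simp only [← Hm_smul]
      congr 1
      refine congrArg avg (funext fun i => Hm_congr w l _ fun l' hl' => ?_)
      rw [mul_smul_comm, smul_mul_assoc]
      exact (h.1 l' (by rw [hl', hl])).map_smul _ _
    · simp only [Hm_cons]
      have h1 : BML k (C * ‖a‖) (fun l => f (m :: a :: l)) :=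
        ((h.2 m).2 a).mono (by
          calc C * ‖m‖ * ‖a‖ ≤ C * 1 * ‖a‖ := by gcongr
            _ = _ := by ring)
      have h2 : BML k ((k + 1) * (C * ‖a‖))
          (fun l => avg fun i => Hm w l (w i) (fun l' => f (m * a * star (w i) :: l'))) := by
        refine BML_avg fun i => BML_Hm hw hw' k (by positivity) ((h.2 _).mono ?_) (hw i)
        gcongr
        exact norm_mid_le hw' hm a i
      refine ((h1.add (h2.smul (-1))).mono (le_of_eq ?_)).congr fun l _ => ?_
      · simp only [norm_neg, norm_one]; push_cast; ring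
      · rw [neg_one_smul, sub_eq_add_neg]

lemma BML_psi [Nonempty G] (hw : ∀ i, ‖w i‖ ≤ 1) (hw' : ∀ i, ‖star (w i)‖ ≤ 1) {k : ℕ} {C : ℝ}
    {f : List A → A} (hC : 0 ≤ C) (h : BML (k + 1) C f) : BML k ((k + 1) * C) (psi w f) :=
  BML_avg fun i => ((BML_Hm hw hw' k hC h (hw i)).left (star (w i))).mono
    (mul_le_of_le_one_left (by positivity) (hw' i))

lemma BML_phi [Nonempty G] (hw : ∀ i, ‖w i‖ ≤ 1) (hw' : ∀ i, ‖star (w i)‖ ≤ 1) {k : ℕ} {C : ℝ}
    {f : List A → A} (hC : 0 ≤ C) (h : BML k C f) : BML k C (phi w f) :=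
  BML_avg fun i => ((BML_R hw hw' k hC h (hw i)).left (star (w i))).mono
    (mul_le_of_le_one_left hC (hw' i))

/-! ### random isometries -/

/-- isometries (on `o`) with orthogonal ranges -/
structure Iso (o : A) {I : Type} (m : I → A) : Prop where
  eq : ∀ a, star (m a) * m a = o
  ne : ∀ a b, a ≠ b → star (m a) * m b = 0

/-- random families of isometries that are uncorrelated and distributed like `w` up to sign -/
def Design (o : A) (w : G → A) (I : Type) : Prop :=
  ∃ (Ω : Type) (_ : Fintype Ω) (_ : Nonempty Ω) (n : Ω → I → A), (∀ ω, Iso o (n ω)) ∧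
    ∀ Φ : A → A → A, (∀ u v, Φ (-u) v = -Φ u v) → (∀ u v, Φ u (-v) = -Φ u v) →
      (∀ a, avg (fun ω => Φ (n ω a) (n ω a)) = avg fun i => Φ (w i) (w i)) ∧
      ∀ a b, a ≠ b → avg (fun ω => Φ (n ω a) (n ω b)) = 0

/-- sign -/
def sg (b : Bool) (x : A) : A := if b then -x else x

lemma exists_design [AddGroup G] (hw : Iso o w) (I : Type) [Fintype I]
    (hI : Fintype.card I ≤ Fintype.card G) : Design o w I := by
  classical
  obtain ⟨ι⟩ := Function.Embedding.nonempty_of_card_le hI
  refine ⟨(I → Bool) × G, inferInstance, ⟨(fun _ => true, 0)⟩,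
    fun ω a => sg (ω.1 a) (w (ι a + ω.2)), fun ω => ⟨fun a => ?_, fun a b hab => ?_⟩,
    fun Φ h1 h2 => ⟨fun a => ?_, fun a b hab => ?_⟩⟩
  · beta_reduce
    cases ω.1 a <;> simp [sg, hw.eq]
  · have := hw.ne (ι a + ω.2) (ι b + ω.2) fun h => hab (ι.injective (add_right_cancel h))
    beta_reduce
    cases ω.1 a <;> cases ω.1 b <;> simp [sg, this]
  · have e : ∀ ω : (I → Bool) × G, Φ (sg (ω.1 a) (w (ι a + ω.2))) (sg (ω.1 a) (w (ι a + ω.2))) =
        Φ (w (ι a + ω.2)) (w (ι a + ω.2)) := fun ω => by
      cases ω.1 a <;> simp [sg, h1, h2]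
    have hc : (Fintype.card (I → Bool) : ℂ) ≠ 0 := by exact_mod_cast Fintype.card_ne_zero
    simp only [e, avg, Fintype.sum_prod_type, sum_const, card_univ, Fintype.card_prod]
    have e' : ∑ s, Φ (w (ι a + s)) (w (ι a + s)) = ∑ i, Φ (w i) (w i) :=
      Equiv.sum_comp (Equiv.addLeft (ι a)) (fun i => Φ (w i) (w i))
    rw [e', ← Nat.cast_smul_eq_nsmul ℂ, smul_smul]
    congr 1
    push_cast
    field_simp
  · let σ : (I → Bool) × G → (I → Bool) × G := fun ω => (Function.update ω.1 a (!ω.1 a), ω.2)
    have hσ : Function.Involutive σ := fun ω => by simp [σ]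
    set F : (I → Bool) × G → A :=
      fun ω => Φ (sg (ω.1 a) (w (ι a + ω.2))) (sg (ω.1 b) (w (ι b + ω.2))) with hF
    have e : ∀ ω, F (σ ω) = -F ω := fun ω => by
      simp only [hF, σ, Function.update_self, Function.update_of_ne hab.symm]
      cases ω.1 a <;> simp [sg, h1]
    have e2 : ∑ ω, F ω = -∑ ω, F ω := by
      have := Equiv.sum_comp hσ.toPerm F
      simpa only [Function.Involutive.coe_toPerm, e, sum_neg_distrib] using this.symm
    have e3 : (2 : ℂ) • ∑ ω, F ω = 0 := by
      rw [two_smul]; nth_rewrite 1 [e2]; exact neg_add_cancel _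
    have e4 : ∑ ω, F ω = 0 := (smul_eq_zero.1 e3).resolve_left two_ne_zero
    rw [avg, e4, smul_zero]

/-- the use of a design -/
lemma avg_design {I : Type} [Fintype I] {Ω : Type} [Fintype Ω] {n : Ω → I → A}
    (hn : ∀ Φ : A → A → A, (∀ u v, Φ (-u) v = -Φ u v) → (∀ u v, Φ u (-v) = -Φ u v) →
      (∀ a, avg (fun ω => Φ (n ω a) (n ω a)) = avg fun i => Φ (w i) (w i)) ∧
      ∀ a b, a ≠ b → avg (fun ω => Φ (n ω a) (n ω b)) = 0)
    (Φ : I → A → A → A) (h1 : ∀ c u v, Φ c (-u) v = -Φ c u v)
    (h2 : ∀ c u v, Φ c u (-v) = -Φ c u v) (a : I) :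
    avg (fun ω => ∑ c, Φ c (n ω c) (n ω a)) = avg fun i => Φ a (w i) (w i) := by
  rw [avg_sum, sum_eq_single a, (hn _ (h1 a) (h2 a)).1]
  · exact fun c _ hc => (hn _ (h1 c) (h2 c)).2 c a hc
  · simp

/-- many isometries from two -/
lemma iso_pow {w₁ w₂ : A} (ho : ∀ a, o * a = a * o) (h1 : star w₁ * w₁ = o)
    (h2 : star w₂ * w₂ = o) (h12 : star w₁ * w₂ = 0) (how : o * w₁ = w₁) :
    Iso o (fun i : ℕ => w₂ ^ i * w₁) := by
  have h21 : star w₂ * w₁ = 0 := by
    have := congrArg star h12; rwa [star_mul, star_star, star_zero] at this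
  have hoW : ∀ j : ℕ, o * (w₂ ^ j * w₁) = w₂ ^ j * w₁ := fun j => by
    rw [← mul_assoc, ho, mul_assoc, how]
  have hs : ∀ i j : ℕ, star (w₂ ^ (i + 1) * w₁) * (w₂ ^ (j + 1) * w₁) =
      star (w₂ ^ i * w₁) * (w₂ ^ j * w₁) := fun i j => by
    rw [pow_succ', pow_succ', mul_assoc w₂, mul_assoc w₂, star_mul w₂, mul_assoc,
      ← mul_assoc (star w₂), h2, hoW]
  refine ⟨fun i => ?_, fun i => ?_⟩
  · induction i with
    | zero => simpa using h1
    | succ i ih => rw [hs]; exact ih
  · induction i with
    | zero =>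
      intro j hj
      cases j with
      | zero => exact absurd rfl hj
      | succ j => simp only [pow_zero, one_mul]; rw [pow_succ', ← mul_assoc, ← mul_assoc, h12]; simp
    | succ i ih =>
      intro j hj
      cases j with
      | zero =>
        simp only [pow_zero, one_mul]
        rw [pow_succ', mul_assoc w₂, star_mul w₂, mul_assoc, h21, mul_zero]
      | succ j => rw [hs]; exact ih j fun h => hj (by rw [h])

end Crest.Agent.R121.Amp
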