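import Crest.Agent.R121.Corner

/-!
# Row 121: averaging over abelian corners and over tracial divisible corners
-/

set_option autoImplicit false

namespace Crest.Agent.R121

open scoped InnerProductSpace ComplexOrder BigOperators _root_.Topology
open Finset Filter
open Crest.Agent.R124 (Op)

universe u

namespace Avg

section alg
variable {A : Type*} [CStarAlgebra A]

/-- conjugation by a unitary -/
def Au (u : A) (T : A → A) : A → A := fun y => T (y * star u) * u

lemma adm_Au {u : A} (hu : u ∈ unitary A) : Adm (Au u) := Adm.unitary hu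

/-- the average of a family of operators -/
noncomputable def mean {α : Type*} (s : Finset α) (P : α → (A → A) → (A → A)) (T : A → A) :
    A → A := fun y => ((s.card : ℂ)⁻¹) • ∑ a ∈ s, P a T y

lemma adm_mean {α : Type*} (s : Finset α) (hs : s.Nonempty) {P : α → (A → A) → (A → A)}
    (h : ∀ a ∈ s, Adm (P a)) : Adm (mean s P) := Adm.mean s hs h

/-- a two-sided identity satisfied by `T` -/
def Eqv (a b c d : A) (T : A → A) : Prop := ∀ y, T (y * a) * b = T (y * c) * d

lemma Eqv.au {a b c d u : A} {T : A → A} (h : Eqv a b c d T) (ha : a * star u = star u * a)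
    (hb : u * b = b * u) (hc : c * star u = star u * c) (hd : u * d = d * u) :
    Eqv a b c d (Au u T) := fun y => by
  simp only [Au]
  rw [mul_assoc y, ha, mul_assoc y, hc, mul_assoc _ u, hb, mul_assoc _ u, hd, ← mul_assoc,
    ← mul_assoc, ← mul_assoc, ← mul_assoc, h]

lemma Eqv.mean {a b c d : A} {α : Type*} {s : Finset α} {P : α → (A → A) → (A → A)} {T : A → A}
    (h : ∀ x ∈ s, Eqv a b c d (P x T)) : Eqv a b c d (mean s P T) := fun y => by
  simp only [Avg.mean, smul_mul_assoc, Finset.sum_mul]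
  exact congrArg _ (Finset.sum_congr rfl fun x hx => h x hx y)

lemma eqv_of_inv {e w : A} (he : IsStarProjection e) (hw : Cor e w) (h2 : w * star w = e)
    {S : A → A} (h : Eqv (star (w + (1 - e))) (w + (1 - e)) 1 1 S) : Eqv w e e w S := fun y => by
  have h1 := h (y * w)
  have e1 : w * star (w + (1 - e)) = e := by
    rw [star_add, he.one_sub.isSelfAdjoint.star_eq, mul_add, h2, mul_sub, mul_one, hw.2, sub_self,
      add_zero]
  have e2 : (w + (1 - e)) * e = w := by
    rw [add_mul, hw.2, sub_mul, one_mul, he.isIdempotentElem.eq, sub_self, add_zero]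
  rw [mul_assoc y, e1, mul_one, mul_one] at h1
  rw [← h1, mul_assoc, e2]

lemma eqv_sum {e : A} {S : A → A} {C : ℝ} (hS : BL S C) {α : Type*} (s : Finset α) (c : α → ℂ)
    (u : α → A) (h : ∀ i ∈ s, Eqv (u i) e e (u i) S) :
    Eqv (∑ i ∈ s, c i • u i) e e (∑ i ∈ s, c i • u i) S := fun y => by
  simp only [Finset.mul_sum, mul_smul_comm, hS.map_sum, hS.map_smul, Finset.sum_mul,
    smul_mul_assoc]
  exact Finset.sum_congr rfl fun i hi => by rw [h i hi y]

lemma modular_of_unitaries {e : A} (he : IsStarProjection e) {S : A → A} {C : ℝ} (hS : BL S C)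
    (h : ∀ u, Cor e u → star u * u = e → u * star u = e → Eqv u e e u S) : Modular e S := by
  intro y n hn
  obtain ⟨u, c, hu, hu'⟩ := exists_four_cor he hn ∅ (by simp) (by simp) (by simp)
  rw [hu]
  exact eqv_sum hS univ c u (fun i _ => h _ (hu' i).1 (hu' i).2.1 (hu' i).2.2.1) y

/-! ### matrix units -/

variable {ι : Type} [Fintype ι] [DecidableEq ι] {E : ι → ι → A} {o : A}

lemma mu_cor (h : MU E o) (a b : ι) : Cor o (E a b) := by
  constructor
  · rw [← h.sum, Finset.sum_mul]; simp [h.mul]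
  · rw [← h.sum, Finset.mul_sum]; simp [h.mul]

/-- integer matrices acting through matrix units -/
noncomputable def Φ (E : ι → ι → A) (X : Matrix ι ι ℤ) : A := ∑ a, ∑ b, (X a b : ℂ) • E a b

lemma Φ_mul (h : MU E o) (X Y : Matrix ι ι ℤ) : Φ E (X * Y) = Φ E X * Φ E Y := by
  have h1 : ∀ a b, E a b * Φ E Y = ∑ d, (Y b d : ℂ) • E a d := fun a b => by
    simp only [Φ, Finset.mul_sum, mul_smul_comm, h.mul, smul_ite, smul_zero]
    rw [Finset.sum_comm]
    simp
  conv_rhs => rw [Φ.eq_1 E X]
  simp only [Finset.sum_mul, smul_mul_assoc, h1, Finset.smul_sum, smul_smul]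
  unfold Φ
  refine Finset.sum_congr rfl fun a _ => ?_
  rw [Finset.sum_comm]
  refine Finset.sum_congr rfl fun d _ => ?_
  rw [Matrix.mul_apply, ← Finset.sum_smul]
  push_cast
  rfl

lemma Φ_star (h : MU E o) (X : Matrix ι ι ℤ) : Φ E (star X) = star (Φ E X) := by
  simp only [Φ, star_sum, star_smul, h.star, Matrix.star_apply, star_trivial, star_intCast]
  rw [Finset.sum_comm]

lemma Φ_one (h : MU E o) : Φ E 1 = o := by
  simp [Φ, Matrix.one_apply, ite_smul, h.sum]

lemma Φ_cor (h : MU E o) (X : Matrix ι ι ℤ) : Cor o (Φ E X) :=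
  ⟨by rw [← Φ_one h, ← Φ_mul h, one_mul], by rw [← Φ_one h, ← Φ_mul h, mul_one]⟩

instance : Finite (Matrix.unitaryGroup ι ℤ) := by
  have hb : ∀ (X : Matrix.unitaryGroup ι ℤ) a b, X.1 a b ∈ Set.Icc (-1 : ℤ) 1 := by
    intro X a b
    have h1 := congrFun (congrFun (Matrix.mem_unitaryGroup_iff.1 X.2) a) a
    simp only [Matrix.mul_apply, Matrix.star_apply, star_trivial, Matrix.one_apply_eq] at h1
    have h2 : X.1 a b * X.1 a b ≤ 1 := by
      rw [← h1]
      exact Finset.single_le_sum (f := fun j => X.1 a j * X.1 a j)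
        (fun j _ => mul_self_nonneg _) (mem_univ b)
    constructor <;> nlinarith
  refine Finite.of_injective
    (fun X : Matrix.unitaryGroup ι ℤ => fun a b => (⟨X.1 a b, hb X a b⟩ : Set.Icc (-1 : ℤ) 1)) ?_
  intro X Y hXY
  refine Subtype.ext (Matrix.ext fun a b => ?_)
  exact congrArg Subtype.val (congrFun (congrFun hXY a) b)

/-- signed permutation matrices -/
def sp (π : Equiv.Perm ι) (ε : ι → ℤ) : Matrix ι ι ℤ := fun a b => if a = π b then ε b else 0

lemma sp_mem (π : Equiv.Perm ι) {ε : ι → ℤ} (hε : ∀ b, ε b * ε b = 1) :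
    sp π ε ∈ Matrix.unitaryGroup ι ℤ := by
  rw [Matrix.mem_unitaryGroup_iff']
  ext a b
  simp only [Matrix.mul_apply, Matrix.star_apply, star_trivial, sp, Matrix.one_apply]
  rw [Finset.sum_eq_single (π a)]
  · by_cases hab : a = b
    · subst hab; simp [hε]
    · simp [hab]
  · intro c _ hc; simp [hc]
  · simp

lemma Φ_sp (π : Equiv.Perm ι) (ε : ι → ℤ) : Φ E (sp π ε) = ∑ b, (ε b : ℂ) • E (π b) b := by
  unfold Φ sp
  rw [Finset.sum_comm]
  refine Finset.sum_congr rfl fun b _ => ?_
  rw [Finset.sum_eq_single (π b)]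
  · simp
  · intro c _ hc; simp [hc]
  · simp

/-- averaging over the signed permutation matrices -/
lemma exists_G {e : A} (he : IsStarProjection e) (h : MU E e) :
    ∃ G : (A → A) → (A → A), Adm G ∧ ∀ T C, BL T C → ∀ a b, Eqv (E a b) e e (E a b) (G T) := by
  classical
  have := Fintype.ofFinite (Matrix.unitaryGroup ι ℤ)
  let u : Matrix.unitaryGroup ι ℤ → A := fun g => Φ E g.1 + (1 - e)
  have h1 : ∀ g : Matrix.unitaryGroup ι ℤ, star (Φ E g.1) * Φ E g.1 = e := fun g => by
    rw [← Φ_star h, ← Φ_mul h, Matrix.mem_unitaryGroup_iff'.1 g.2, Φ_one h]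
  have h2 : ∀ g : Matrix.unitaryGroup ι ℤ, Φ E g.1 * star (Φ E g.1) = e := fun g => by
    rw [← Φ_star h, ← Φ_mul h, Matrix.mem_unitaryGroup_iff.1 g.2, Φ_one h]
  have hu : ∀ g, u g ∈ unitary A := fun g => unitary_of_cor he (Φ_cor h _) (h1 g) (h2 g)
  have humul : ∀ g g', u (g * g') = u g * u g' := fun g g' => by
    have e1 := Φ_cor h g.1
    have e2 := Φ_cor h g'.1
    have e3 : Φ E (g * g').1 = Φ E g.1 * Φ E g'.1 := Φ_mul h _ _
    simp only [u, e3, mul_add, add_mul, mul_sub, sub_mul, mul_one, one_mul, e1.2, e2.1,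
      he.isIdempotentElem.eq]
    abel
  have hadm : Adm (mean univ fun g => Au (u g)) :=
    adm_mean _ univ_nonempty fun g _ => adm_Au (hu g)
  refine ⟨_, hadm, fun T C hT a b => ?_⟩
  have h3 : ∀ g : Matrix.unitaryGroup ι ℤ,
      Eqv (Φ E g.1) e e (Φ E g.1) (mean univ (fun g => Au (u g)) T) := fun g => by
    refine eqv_of_inv he (Φ_cor h _) (h2 g) fun y => ?_
    change _ * u g = _
    simp only [Avg.mean, Au, smul_mul_assoc, Finset.sum_mul, mul_one]
    congr 1
    refine Finset.sum_equiv (Equiv.mulRight g) (by simp) fun g' _ => ?_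
    simp only [Equiv.coe_mulRight, humul, star_mul, mul_assoc]
    rfl
  have h4 := eqv_sum (hadm.bl T C hT) (univ : Finset Bool) (fun s => if s then 2⁻¹ else -2⁻¹)
    (fun s => Φ E (sp (Equiv.swap a b) fun c => if s then 1 else if c = b then -1 else 1))
    (fun s _ => h3 ⟨_, sp_mem _ fun c => by split_ifs <;> simp⟩)
  have h5 : ∑ s : Bool, (if s then (2⁻¹ : ℂ) else -2⁻¹) •
      Φ E (sp (Equiv.swap a b) fun c => if s then 1 else if c = b then -1 else 1) = E a b := by
    simp only [Fintype.sum_bool, Φ_sp, Finset.smul_sum, smul_smul, ← Finset.sum_add_distrib,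
      ← add_smul]
    rw [Finset.sum_eq_single b]
    · simp; norm_num
    · intro c _ hc; simp [hc]
    · simp
  rwa [h5] at h4

/-- a symmetric family of unitaries commuting with the units and spanning a finite set -/
lemma exists_gamma (h : MU E 1) (F : Finset A) :
    ∃ (κ : Type) (_ : Fintype κ) (_ : Nonempty κ) (γ : κ → A), (∀ k, γ k ∈ unitary A) ∧
      (∀ k a b, γ k * E a b = E a b * γ k) ∧
      (∃ σ : κ → κ, Function.Involutive σ ∧ ∀ k, γ (σ k) = star (γ k)) ∧
      ∀ U ∈ F, InSpan E γ U ∧ InSpan E γ (star U) := by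
  classical
  let x : A → ι → ι → A := fun U a b => ∑ c, E c a * U * E b c
  have hx : ∀ U a b c d, x U a b * E c d = E c d * x U a b := fun U a b c d => by
    have e1 : x U a b * E c d = E c a * U * E b d := by
      simp only [x, Finset.sum_mul, mul_assoc, h.mul]
      rw [Finset.sum_eq_single c] <;> simp +contextual
    have e2 : E c d * x U a b = E c a * U * E b d := by
      simp only [x, Finset.mul_sum, ← mul_assoc, h.mul]
      rw [Finset.sum_eq_single d]
      · simp
      · intro c' _ hc; simp [Ne.symm hc]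
      · simp
    rw [e1, e2]
  have hU : ∀ U, U = ∑ a, ∑ b, x U a b * E a b := fun U => by
    have e1 : ∀ a b, x U a b * E a b = E a a * U * E b b := fun a b => by
      simp only [x, Finset.sum_mul, mul_assoc, h.mul]
      rw [Finset.sum_eq_single a] <;> simp +contextual
    simp only [e1, ← Finset.mul_sum, ← Finset.sum_mul, h.sum, one_mul, mul_one]
  have h4 : ∀ U a b, ∃ (u : Fin 4 → A) (c : Fin 4 → ℂ), x U a b = ∑ i, c i • u i ∧
      ∀ i, u i ∈ unitary A ∧ ∀ c d, u i * E c d = E c d * u i := fun U a b => by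
    obtain ⟨u, c, h1, h2⟩ := exists_four_cor (IsStarProjection.one A) (x := x U a b)
      ⟨one_mul _, mul_one _⟩ {s | ∃ c d, s = E c d}
      (by rintro _ ⟨c, d, rfl⟩; exact ⟨d, c, h.star c d⟩) (by simp)
      (by rintro _ ⟨c, d, rfl⟩; exact hx U a b c d)
    exact ⟨u, c, h1, fun i => ⟨⟨(h2 i).2.1, (h2 i).2.2.1⟩, fun c d => (h2 i).2.2.2 _ ⟨c, d, rfl⟩⟩⟩
  choose u c hu hu' using h4
  let J := Option (Fin F.card × ι × ι × Fin 4)
  let f : Fin F.card → A := fun i => (F.equivFin.symm i : A)
  let w : J → A := fun j => j.elim 1 fun p => u (f p.1) p.2.1 p.2.2.1 p.2.2.2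
  have hw : ∀ j, w j ∈ unitary A ∧ ∀ c d, w j * E c d = E c d * w j := fun j => by
    cases j with
    | none => exact ⟨one_mem _, fun c d => by simp [w]⟩
    | some p => exact hu' _ _ _ _
  let γ : J × Bool → A := fun k => if k.2 then star (w k.1) else w k.1
  have hcomm : ∀ k a b, γ k * E a b = E a b * γ k := fun k a b => by
    simp only [γ]
    split_ifs
    · rw [← h.star b a, ← star_mul, ← star_mul, (hw k.1).2]
    · exact (hw k.1).2 a b
  have hσ : ∀ k : J × Bool, γ (k.1, !k.2) = star (γ k) := by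
    rintro ⟨j, _ | _⟩ <;> simp [γ]
  have hstar : ∀ V, InSpan E γ V → InSpan E γ (star V) := by
    rintro _ ⟨d, rfl⟩
    refine ⟨fun k a b => star (d (k.1, !k.2) b a), ?_⟩
    simp only [star_sum, star_smul, star_mul, h.star, ← hσ, ← hcomm]
    refine Finset.sum_equiv ((Equiv.refl J).prodCongr Equiv.boolNot) (by simp) fun k _ => ?_
    rw [Finset.sum_comm]
    obtain ⟨j, s⟩ := k
    simp
  refine ⟨J × Bool, inferInstance, ⟨(none, true)⟩, γ, fun k => ?_, hcomm,
    ⟨fun k => (k.1, !k.2), fun k => by simp, hσ⟩, fun U hUF => ?_⟩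
  · simp only [γ]
    split_ifs
    · exact Unitary.star_mem (hw k.1).1
    · exact (hw k.1).1
  have key : InSpan E γ U := by
    let i₀ := F.equivFin ⟨U, hUF⟩
    have hf : f i₀ = U := by simp [f, i₀]
    refine ⟨fun k a b => ∑ i, if k = (some (i₀, a, b, i), false) then c U a b i else 0, ?_⟩
    conv_lhs => rw [hU U]
    conv_rhs => rw [Finset.sum_comm]
    refine Finset.sum_congr rfl fun a _ => ?_
    conv_rhs => rw [Finset.sum_comm]
    refine Finset.sum_congr rfl fun b _ => ?_
    simp only [Finset.sum_smul]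
    rw [Finset.sum_comm, hu, Finset.sum_mul]
    refine Finset.sum_congr rfl fun i _ => ?_
    rw [Finset.sum_eq_single ((some (i₀, a, b, i), false) : J × Bool)]
    · rw [if_pos rfl]
      simp [γ, w, hf]
    · intro k _ hk; rw [if_neg hk, zero_smul]
    · simp
  exact ⟨key, hstar U key⟩

end alg

section vn
variable {H : Type*} [NormedAddCommGroup H] [InnerProductSpace ℂ H] [CompleteSpace H]
  {M : VonNeumannAlgebra H}

lemma Eqv.wlim {I : Type*} (𝒰 : Ultrafilter I) {a b c d : Alg M} {T : I → Alg M → Alg M} {C : ℝ}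
    (hT : ∀ i, BL (T i) C) (h : ∀ᶠ i in (𝒰 : Filter I), Eqv a b c d (T i)) :
    Eqv a b c d (fun y => wlim 𝒰 fun i => T i y) := fun y =>
  (((BL.wlim_spec 𝒰 hT (y * a)).mul_right b).congr' (h.mono fun _ hi => hi y)).unique
    ((BL.wlim_spec 𝒰 hT (y * c)).mul_right d)

/-- `P` commutes with weak limits of sequences -/
def Nrm (P : (Alg M → Alg M) → (Alg M → Alg M)) : Prop :=
  ∀ (l : Filter ℕ) (T : ℕ → Alg M → Alg M) (S : Alg M → Alg M),
    (∀ y, WLim l (fun i => T i y) (S y)) → ∀ y, WLim l (fun i => P (T i) y) (P S y)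

lemma nrm_Au (u : Alg M) : Nrm (Au u) := fun _ _ _ h _ => (h _).mul_right u

lemma nrm_mean {α : Type*} (s : Finset α) {P : α → (Alg M → Alg M) → (Alg M → Alg M)}
    (h : ∀ a ∈ s, Nrm (P a)) : Nrm (mean s P) := fun l T S hT y =>
  (WLim.sum s fun a ha => h a ha l T S hT y).smul _

/-- Cesàro limit of the iterates -/
noncomputable def ces (P : (Alg M → Alg M) → (Alg M → Alg M)) (T : Alg M → Alg M) :
    Alg M → Alg M :=
  fun y => wlim (hyperfilter ℕ) fun N => mean (range (N + 1)) (fun i => P^[i]) T y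

lemma adm_cesN {P : (Alg M → Alg M) → (Alg M → Alg M)} (hP : Adm P) (N : ℕ) :
    Adm (mean (range (N + 1)) fun i => P^[i]) :=
  adm_mean _ nonempty_range_add_one fun i _ => hP.iterate i

lemma adm_ces {P : (Alg M → Alg M) → (Alg M → Alg M)} (hP : Adm P) : Adm (ces P) :=
  Adm.wlim _ (adm_cesN hP)

lemma Eqv.ces {P : (Alg M → Alg M) → (Alg M → Alg M)} (hP : Adm P) {a b c d : Alg M}
    (hstep : ∀ T, Eqv a b c d T → Eqv a b c d (P T)) {T : Alg M → Alg M} {C : ℝ} (hT : BL T C)
    (h : Eqv a b c d T) : Eqv a b c d (ces P T) := by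
  refine Eqv.wlim _ (fun N => (adm_cesN hP N).bl T C hT) (Eventually.of_forall fun N => ?_)
  refine Eqv.mean fun i _ => ?_
  induction i with
  | zero => exact h
  | succ i ih => rw [Function.iterate_succ_apply']; exact hstep _ (ih (by simp_all; omega))

lemma ces_inv {P : (Alg M → Alg M) → (Alg M → Alg M)} (hP : Adm P) (hN : Nrm P)
    {T : Alg M → Alg M} {C : ℝ} (hT : BL T C) : P (ces P T) = ces P T := by
  funext y
  have hbl : ∀ i, BL (P^[i] T) C := fun i => (hP.iterate i).bl T C hT
  have h1 : ∀ y, WLim (hyperfilter ℕ : Filter ℕ)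
      (fun N => mean (range (N + 1)) (fun i => P^[i]) T y) (ces P T y) :=
    BL.wlim_spec _ fun N => (adm_cesN hP N).bl T C hT
  have h2 := hN _ _ _ h1 y
  have h3 : ∀ N, P (mean (range (N + 1)) (fun i => P^[i]) T) y -
      mean (range (N + 1)) (fun i => P^[i]) T y =
      (((N + 1 : ℕ) : ℂ)⁻¹) • (P^[N + 1] T y - T y) := fun N => by
    have e1 : P (mean (range (N + 1)) (fun i => P^[i]) T) =
        fun y => (((range (N + 1)).card : ℂ)⁻¹) • ∑ i ∈ range (N + 1), P (P^[i] T) y := by
      unfold mean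
      rw [hP.smul _ _ _ (BL.sum _ fun i _ => hbl i), hP.map_sum _ fun i _ => hbl i]
    rw [e1]
    simp only [mean, card_range, ← smul_sub, ← Finset.sum_sub_distrib,
      ← Function.iterate_succ_apply' P]
    rw [Finset.sum_range_sub (fun i => P^[i] T y)]
    rfl
  have h4 : WLim (hyperfilter ℕ : Filter ℕ) (fun N => P (mean (range (N + 1)) (fun i => P^[i]) T) y -
      mean (range (N + 1)) (fun i => P^[i]) T y) 0 := by
    refine WLim.mono (WLim.zero_of_norm (l := atTop) ?_) Nat.hyperfilter_le_atTop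
    refine squeeze_zero (fun _ => norm_nonneg _) (g := fun N : ℕ => (2 * (C * ‖y‖)) / ((N : ℝ) + 1))
      (fun N => ?_) (tendsto_const_div_atTop_nhds_zero_nat (2 * (C * ‖y‖)) |>.comp (tendsto_add_atTop_nat 1)
        |>.congr fun N => by simp)
    rw [h3, norm_smul, norm_inv, Complex.norm_natCast, div_eq_inv_mul]
    push_cast
    gcongr
    have := (hbl (N + 1)).bd y
    have := hT.bd y
    have := norm_sub_le (P^[N + 1] T y) (T y)
    linarith
  exact sub_eq_zero.1 ((h2.sub (h1 y)).unique h4)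

lemma eqv_au_iff {u : Alg M} {T : Alg M → Alg M} : Eqv (star u) u 1 1 T ↔ Au u T = T :=
  ⟨fun h => funext fun y => by simpa [Au] using h y, fun h y => by
    simpa [Au] using congrFun h y⟩

/-- invariance under finitely many commuting unitaries -/
lemma exists_inv (S : Set (Alg M)) (hS : ∀ u ∈ S, u ∈ unitary (Alg M))
    (hc : ∀ u ∈ S, ∀ v ∈ S, u * v = v * u ∧ star u * star v = star v * star u)
    (F : Finset (Alg M)) : ∃ P : (Alg M → Alg M) → (Alg M → Alg M), Adm P ∧
      ∀ T C, BL T C → ∀ u ∈ F, u ∈ S → Eqv (star u) u 1 1 (P T) := by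
  classical
  induction F using Finset.induction_on with
  | empty => exact ⟨_, Adm.id, by simp⟩
  | insert v F _ ih =>
    obtain ⟨P, hP, hP'⟩ := ih
    by_cases hv : v ∈ S
    · refine ⟨fun T => ces (Au v) (P T), (adm_ces (adm_Au (hS v hv))).comp hP,
        fun T C hT u hu huS => ?_⟩
      rcases Finset.mem_insert.1 hu with rfl | hu
      · exact eqv_au_iff.2 (ces_inv (adm_Au (hS u hv)) (nrm_Au u) (hP.bl T C hT))
      · exact Eqv.ces (adm_Au (hS v hv)) (fun T' h => h.au (hc u huS v hv).2 (hc v hv u huS).1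
          (by simp) (by simp)) (hP.bl T C hT) (hP' T C hT u hu huS)
    · refine ⟨P, hP, fun T C hT u hu huS => hP' T C hT u ?_ huS⟩
      exact (Finset.mem_insert.1 hu).resolve_left fun h => hv (h ▸ huS)

end vn

end Avg

open Avg in
theorem abelStmt : AbelStmt.{u} := by
  classical
  intro H _ _ _ M e he hab
  let S : Set (Alg M) := {u | ∃ w, Cor e w ∧ star w * w = e ∧ w * star w = e ∧ u = w + (1 - e)}
  have hcomm : ∀ w w', Cor e w → Cor e w' →
      (w + (1 - e)) * (w' + (1 - e)) = (w' + (1 - e)) * (w + (1 - e)) := fun w w' hw hw' => by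
    simp only [mul_add, add_mul, mul_sub, sub_mul, mul_one, one_mul, hw.1, hw.2, hw'.1, hw'.2,
      hab w w' hw hw']
    abel
  choose P hP hP' using exists_inv S
    (by rintro _ ⟨w, h1, h2, h3, rfl⟩; exact unitary_of_cor he h1 h2 h3)
    (by
      rintro _ ⟨w, h1, -, -, rfl⟩ _ ⟨w', h1', -, -, rfl⟩
      exact ⟨hcomm w w' h1 h1', by rw [← star_mul, ← star_mul, hcomm w w' h1 h1']⟩)
  let 𝒰 : Ultrafilter (Finset (Alg M)) := Ultrafilter.of atTop
  have hadm := Adm.wlim 𝒰 hP
  refine ⟨_, hadm, fun T C hT => modular_of_unitaries he (hadm.bl T C hT) fun w h1 h2 h3 => ?_⟩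
  refine eqv_of_inv he h1 h3 (Eqv.wlim 𝒰 (fun F => (hP F).bl T C hT) ?_)
  refine (Ultrafilter.of_le atTop) ?_
  filter_upwards [eventually_ge_atTop {w + (1 - e)}] with F hF
  exact hP' F T C hT _ (hF (mem_singleton_self _)) ⟨w, h1, h2, h3, rfl⟩

namespace Avg

variable {H : Type u} [NormedAddCommGroup H] [InnerProductSpace ℂ H] [CompleteSpace H]
  {M : VonNeumannAlgebra H} {e : Alg M} {ξ v : H}

/-- the trace on the corner -/
noncomputable def trc (he : IsStarProjection e) (ξ v : H) : Corner he →ₗ[ℂ] ℂ where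
  toFun x := ⟪v, ((x.val : Alg M) : Op H) ξ⟫_ℂ
  map_add' x y := by rw [Corner.val_add, add_app, inner_add_right]
  map_smul' c x := by rw [Corner.val_smul, smul_app, inner_smul_right]; rfl

lemma tr_trc (he : IsStarProjection e) (h : Trc e ξ v) : Tr (trc he ξ v) :=
  ⟨h.one, fun x y => h.trace _ _ x.cor y.cor, fun x => h.pos _ x.cor⟩

lemma stage (hcore : CoreStmt.{u}) (he : IsStarProjection e) (htr : Trc e ξ v) (hdiv : Divis e)
    {ε : ℝ} (hε : 0 < ε) (F : Finset (Corner he)) :
    ∃ P : (Alg M → Alg M) → (Alg M → Alg M), Adm P ∧ ∀ T C, BL T C → ∀ U ∈ F,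
      U ∈ unitary (Corner he) → ∀ c y : Alg M,
        ‖⟪v, ((e * c * (P T (y * U.val) * star U.val - P T (y * e) * e) : Alg M) : Op H) ξ⟫_ℂ‖ ≤
          ε * (‖c‖ * C * ‖y‖) := by
  have hee := he.isIdempotentElem.eq
  obtain ⟨n₀, hn₀⟩ := hcore ε hε
  obtain ⟨ι, _, _, E, hcard, hE⟩ := hdiv n₀
  let E' : ι → ι → Corner he := fun a b => Corner.mk he (E a b) (mu_cor hE a b)
  have hE' : MU E' 1 :=
    ⟨fun a b c d => Corner.ext (by simp only [E', Corner.val_mul, Corner.val_mk, hE.mul]; split_ifs <;> rfl),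
      fun a b => Corner.ext (hE.star a b), Corner.ext (by simp [E', hE.sum])⟩
  obtain ⟨κ, _, _, γ, hγu, hγc, hγs, hγF⟩ := exists_gamma hE' F
  obtain ⟨G, hG, hG'⟩ := exists_G he hE
  let w : κ → Alg M := fun k => star (γ k).val + (1 - e)
  have hγ1 : ∀ k, star (γ k).val * (γ k).val = e := fun k =>
    congrArg Corner.val (Unitary.star_mul_self_of_mem (hγu k))
  have hγ2 : ∀ k, (γ k).val * star (γ k).val = e := fun k =>
    congrArg Corner.val (Unitary.mul_star_self_of_mem (hγu k))
  have hw : ∀ k, w k ∈ unitary (Alg M) := fun k =>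
    unitary_of_cor he ((γ k).cor.star he) (by rw [star_star, hγ2]) (by rw [star_star, hγ1])
  have hsw : ∀ k, star (w k) = (γ k).val + (1 - e) := fun k => by
    rw [star_add, star_star, he.one_sub.isSelfAdjoint.star_eq]
  have hext : ∀ x z : Alg M, Cor e x → z * x = x * z → (z + (1 - e)) * x = x * (z + (1 - e)) :=
    fun x z hx hz => by
      rw [add_mul, mul_add, hz, sub_mul, mul_sub, one_mul, mul_one, hx.1, hx.2]
  have hc1 : ∀ k a b, (γ k).val * E a b = E a b * (γ k).val := fun k a b =>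
    congrArg Corner.val (hγc k a b)
  have hc2 : ∀ k a b, star (γ k).val * E a b = E a b * star (γ k).val := fun k a b => by
    rw [← hE.star b a, ← star_mul, ← star_mul, hc1]
  let Aμ := mean univ fun k => Au (w k)
  have hA : Adm Aμ := adm_mean _ univ_nonempty fun k _ => adm_Au (hw k)
  have hAN : Nrm Aμ := nrm_mean _ fun k _ => nrm_Au _
  have hadm : Adm fun T => ces Aμ (G T) := (adm_ces hA).comp hG
  refine ⟨_, hadm, fun T C hT U hUF hU c y => ?_⟩
  set S := ces Aμ (G T) with hS
  have hSbl : BL S C := hadm.bl T C hT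
  have hinv : Aμ S = S := ces_inv hA hAN (hG.bl T C hT)
  have hmod : ∀ a b, Eqv (E a b) e e (E a b) S := fun a b =>
    Eqv.ces hA (fun T' h => Eqv.mean fun k _ => h.au
      (by rw [hsw]; exact (hext _ _ (mu_cor hE a b) (hc1 k a b)).symm)
      (hext _ _ (Cor.self he) (by rw [((γ k).cor.star he).1, ((γ k).cor.star he).2]))
      (by rw [hsw]; exact (hext _ _ (Cor.self he) (by rw [(γ k).cor.1, (γ k).cor.2])).symm)
      (hext _ _ (mu_cor hE a b) (hc2 k a b))) (hG.bl T C hT) (hG' T C hT a b)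
  let T' : Corner he → Corner he := fun x =>
    Corner.mk he (e * c * S (y * x.val) * e) (by rw [mul_assoc e]; exact Cor.compress he _)
  have hsetup : Setup E' γ T' (‖c‖ * C * ‖y‖) := by
    refine ⟨hE', hγu, hγc, hγs, ⟨⟨fun x x' => Corner.ext ?_, fun d x => Corner.ext ?_⟩,
      by have := hT.nonneg; positivity, fun x => ?_⟩, fun x a b => Corner.ext ?_,
      fun x => Corner.ext ?_⟩
    · simp [T', mul_add, add_mul, hSbl.map_add]
    · simp [T', hSbl.map_smul]
    · rw [← Corner.norm_val, ← Corner.norm_val]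
      have h1 := he.norm_le
      have h2 := hT.nonneg
      calc ‖e * c * S (y * x.val) * e‖ ≤ ‖e‖ * ‖c‖ * ‖S (y * x.val)‖ * ‖e‖ :=
            (norm_mul_le _ _).trans (by gcongr; exact norm_mul₃_le)
        _ ≤ 1 * ‖c‖ * (C * (‖y‖ * ‖x.val‖)) * 1 := by
            gcongr
            exact (hSbl.bd _).trans (by gcongr; exact norm_mul_le _ _)
        _ = _ := by ring
    · have h1 := hmod a b (y * x.val)
      simp only [T', E', Corner.val_mul, Corner.val_mk]
      rw [← mul_assoc y, mul_assoc _ _ e, h1, mul_assoc y, x.cor.2, mul_assoc _ e,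
        (mu_cor hE a b).1, mul_assoc]
      simp only [mul_assoc]
    · have h1 := congrFun hinv (y * x.val)
      have hk : (Fintype.card κ : ℂ) ≠ 0 := by exact_mod_cast Fintype.card_ne_zero
      simp only [T', Corner.val_sum, Corner.val_mul, Corner.val_mk, Corner.val_star,
        Corner.val_smul]
      rw [← h1]
      simp only [Aμ, mean, Au, card_univ, mul_smul_comm, smul_mul_assoc, smul_smul,
        mul_inv_cancel₀ hk, one_smul, Finset.mul_sum, Finset.sum_mul, hsw]
      refine Finset.sum_congr rfl fun k _ => ?_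
      have e1 : y * x.val * ((γ k).val + (1 - e)) = y * (x.val * (γ k).val) := by
        rw [mul_assoc, mul_add, mul_sub, mul_one, x.cor.2, sub_self, add_zero]
      have e2 : w k * e = e * star (γ k).val := by
        rw [add_mul, sub_mul, one_mul, hee, sub_self, add_zero, ((γ k).cor.star he).1,
          ((γ k).cor.star he).2]
      rw [e1]
      simp only [mul_assoc, e2]
  have h1 := hn₀ (Corner he) (trc he ξ v) (tr_trc he htr) ι κ E' γ T' _ hcard hsetup U hU
    (hγF U hUF).1 (hγF U hUF).2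
  rw [← map_sub] at h1
  convert h1 using 2
  change _ = ⟪v, ((e * c * S (y * U.val) * e * star U.val - e * c * S (y * e) * e : Alg M) : Op H) ξ⟫_ℂ
  rw [mul_assoc _ e, (U.cor.star he).1, mul_sub]
  simp only [mul_assoc]

end Avg

open Avg in
theorem traceAvgStmt_of (h : CoreStmt.{u}) : TraceAvgStmt.{u} := by
  classical
  intro H _ _ _ M e ξ v he htr hdiv
  choose P hP hP' using fun i : ℕ × Finset (Corner he) =>
    stage h he htr hdiv (ε := 1 / ((i.1 : ℝ) + 1)) (by positivity) i.2
  let 𝒰 : Ultrafilter (ℕ × Finset (Corner he)) := Ultrafilter.of atTop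
  have hadm := Adm.wlim 𝒰 hP
  refine ⟨_, hadm, fun T C hT => modular_of_unitaries he (hadm.bl T C hT) fun w h1 h2 h3 y => ?_⟩
  let U : Corner he := Corner.mk he w h1
  have hU : U ∈ unitary (Corner he) := ⟨Corner.ext h2, Corner.ext h3⟩
  have sp := BL.wlim_spec 𝒰 fun i => (hP i).bl T C hT
  set S : Alg M → Alg M := fun y => wlim 𝒰 fun i => P i T y with hS
  set Δ := S (y * w) * star w - S (y * e) * e with hΔ
  have hz : ∀ c : Alg M, ⟪v, ((e * c * Δ : Alg M) : Op H) ξ⟫_ℂ = 0 := fun c => by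
    have h4 := ((((sp (y * w)).mul_right (star w)).sub ((sp (y * e)).mul_right e)).mul_left
      (e * c)) ξ v
    refine tendsto_nhds_unique h4 (Tendsto.mono_left ?_ (Ultrafilter.of_le atTop))
    have h5 : Tendsto (fun i : ℕ × Finset (Corner he) => 1 / ((i.1 : ℝ) + 1) * (‖c‖ * C * ‖y‖))
        atTop (𝓝 0) := by
      have := (tendsto_one_div_add_atTop_nhds_zero_nat (𝕜 := ℝ)).comp
        (show Tendsto (Prod.fst : ℕ × Finset (Corner he) → ℕ) atTop atTop by
          rw [← prod_atTop_atTop_eq]; exact tendsto_fst)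
      simpa using this.mul_const (‖c‖ * C * ‖y‖)
    refine squeeze_zero_norm' ?_ h5
    filter_upwards [eventually_ge_atTop (0, {U})] with i hi
    exact hP' i T C hT U (hi.2 (mem_singleton_self _)) hU c y
  have hΔe : Δ * e = Δ := by
    rw [hΔ, sub_mul, mul_assoc, mul_assoc, (h1.star he).2, he.isIdempotentElem.eq]
  have heΔ : e * star Δ = star Δ := by
    rw [← he.isSelfAdjoint.star_eq, ← star_mul, hΔe]
  have h6 : star Δ * Δ = 0 := by
    refine htr.faith _ ⟨by rw [← mul_assoc, heΔ], by rw [mul_assoc, hΔe]⟩ ?_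
    have := hz (star Δ * Δ * star Δ)
    rw [← mul_assoc, ← mul_assoc, heΔ, mul_assoc] at this
    rwa [(IsSelfAdjoint.star_mul_self Δ).star_eq]
  have h7 : Δ = 0 := (CStarRing.star_mul_self_eq_zero_iff _).1 h6
  have h8 := congrArg (· * w) (sub_eq_zero.1 h7)
  simp only [mul_assoc, h2, h1.1] at h8
  exact h8

end Crest.Agent.R121
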