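import Crest.Agent.R121.Defs

/-!
# Row 121: basic tools (weak limits, admissible operators, polar / spectral / Gram–Schmidt)
-/

set_option autoImplicit false

namespace Crest.Agent.R121

open scoped InnerProductSpace ComplexOrder BigOperators _root_.Topology
open Finset Filter
open Crest.Agent.R124 (Op inner_star_left inner_star_right)

universe u

section alg
variable {A : Type*} [NormedRing A] [NormedAlgebra ℂ A]

lemma BL.map_add {T : A → A} {C : ℝ} (h : BL T C) (x y : A) : T (x + y) = T x + T y :=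
  h.lin.map_add x y
lemma BL.map_smul {T : A → A} {C : ℝ} (h : BL T C) (c : ℂ) (x : A) : T (c • x) = c • T x :=
  h.lin.map_smul c x
lemma BL.map_zero {T : A → A} {C : ℝ} (h : BL T C) : T 0 = 0 := h.lin.map_zero
lemma BL.map_neg {T : A → A} {C : ℝ} (h : BL T C) (x : A) : T (-x) = -T x := h.lin.map_neg x
lemma BL.map_sub {T : A → A} {C : ℝ} (h : BL T C) (x y : A) : T (x - y) = T x - T y :=
  h.lin.map_sub x y
lemma lin_sum {T : A → A} (h : IsLinearMap ℂ T) {α : Type*} (s : Finset α) (x : α → A) :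
    T (∑ a ∈ s, x a) = ∑ a ∈ s, T (x a) := map_sum (h.mk' T) x s
lemma BL.map_sum {T : A → A} {C : ℝ} (h : BL T C) {α : Type*} (s : Finset α) (x : α → A) :
    T (∑ a ∈ s, x a) = ∑ a ∈ s, T (x a) := lin_sum h.lin s x

lemma BL.mono {T : A → A} {C C' : ℝ} (h : BL T C) (hC : C ≤ C') : BL T C' :=
  ⟨h.lin, h.nonneg.trans hC, fun y => (h.bd y).trans (by gcongr)⟩

lemma BL.add {T T' : A → A} {C C' : ℝ} (h : BL T C) (h' : BL T' C') :
    BL (fun y => T y + T' y) (C + C') :=
  ⟨⟨fun x y => by rw [h.map_add, h'.map_add]; abel,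
    fun c x => by rw [h.map_smul, h'.map_smul, smul_add]⟩, add_nonneg h.nonneg h'.nonneg,
    fun y => (norm_add_le _ _).trans (by have := h.bd y; have := h'.bd y; linarith)⟩

lemma BL.smul {T : A → A} {C : ℝ} (h : BL T C) (c : ℂ) : BL (fun y => c • T y) (‖c‖ * C) :=
  ⟨⟨fun x y => by rw [h.map_add, smul_add], fun d x => by rw [h.map_smul, smul_comm]⟩,
    mul_nonneg (norm_nonneg _) h.nonneg,
    fun y => by rw [norm_smul, mul_assoc]; gcongr; exact h.bd y⟩

lemma BL.left {T : A → A} {C : ℝ} (h : BL T C) (c : A) : BL (fun y => c * T y) (‖c‖ * C) :=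
  ⟨⟨fun x y => by rw [h.map_add, mul_add], fun d x => by rw [h.map_smul, mul_smul_comm]⟩,
    mul_nonneg (norm_nonneg _) h.nonneg,
    fun y => (norm_mul_le _ _).trans (by rw [mul_assoc]; gcongr; exact h.bd y)⟩

lemma BL.rmul {T : A → A} {C : ℝ} (h : BL T C) (c : A) : BL (fun y => T y * c) (C * ‖c‖) :=
  ⟨⟨fun x y => by rw [h.map_add, add_mul], fun d x => by rw [h.map_smul, smul_mul_assoc]⟩,
    mul_nonneg h.nonneg (norm_nonneg _),
    fun y => (norm_mul_le _ _).trans (by rw [mul_right_comm]; gcongr; exact h.bd y)⟩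

lemma BL.right {T : A → A} {C : ℝ} (h : BL T C) (x : A) : BL (fun y => T (x * y)) (C * ‖x‖) :=
  ⟨⟨fun a b => by rw [mul_add, h.map_add], fun d a => by rw [mul_smul_comm, h.map_smul]⟩,
    mul_nonneg h.nonneg (norm_nonneg _),
    fun y => (h.bd _).trans (by
      rw [mul_assoc]; exact mul_le_mul_of_nonneg_left (norm_mul_le _ _) h.nonneg)⟩

lemma BL.rarg {T : A → A} {C : ℝ} (h : BL T C) (x : A) : BL (fun y => T (y * x)) (C * ‖x‖) :=
  ⟨⟨fun a b => by rw [add_mul, h.map_add], fun d a => by rw [smul_mul_assoc, h.map_smul]⟩,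
    mul_nonneg h.nonneg (norm_nonneg _),
    fun y => (h.bd _).trans (by
      rw [mul_assoc, mul_comm ‖x‖]; exact mul_le_mul_of_nonneg_left (norm_mul_le _ _) h.nonneg)⟩

lemma BL.mul (a : A) : BL (fun y => a * y) ‖a‖ :=
  ⟨⟨mul_add a, fun c y => mul_smul_comm c a y⟩, norm_nonneg _, norm_mul_le a⟩

lemma BL.zero : BL (fun _ : A => (0 : A)) 0 := ⟨⟨by simp, by simp⟩, le_rfl, by simp⟩

lemma BL.sum {α : Type*} (s : Finset α) {T : α → A → A} {C : α → ℝ}
    (h : ∀ a ∈ s, BL (T a) (C a)) : BL (fun y => ∑ a ∈ s, T a y) (∑ a ∈ s, C a) := by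
  classical
  induction s using Finset.induction_on with
  | empty => simpa using BL.zero
  | insert a s ha ih =>
    simp only [Finset.sum_insert ha]
    exact (h a (mem_insert_self _ _)).add (ih fun b hb => h b (mem_insert_of_mem hb))

lemma cls_BL : Cls (BL (A := A)) :=
  ⟨fun _ _ _ _ h h' => ⟨_, h.add h'⟩, fun c _ _ h => ⟨_, h.smul c⟩, fun c _ _ h => ⟨_, h.left c⟩,
    fun x _ _ h => ⟨_, h.right x⟩, fun a => ⟨_, BL.mul a⟩⟩

lemma Adm.id : Adm (fun T : A → A => T) :=
  ⟨fun _ _ h => h, fun _ _ _ _ _ _ => rfl, fun _ _ _ _ => rfl, fun _ _ _ _ => rfl,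
    fun _ _ _ _ => rfl, fun _ => rfl⟩

lemma Adm.comp {P P' : (A → A) → (A → A)} (h : Adm P) (h' : Adm P') : Adm (fun T => P (P' T)) :=
  ⟨fun T C hT => h.bl _ _ (h'.bl T C hT),
    fun T T' C C' hT hT' => by
      rw [h'.add T T' C C' hT hT', h.add _ _ _ _ (h'.bl T C hT) (h'.bl T' C' hT')],
    fun c T C hT => by rw [h'.smul c T C hT, h.smul c _ _ (h'.bl T C hT)],
    fun c T C hT => by rw [h'.left c T C hT, h.left c _ _ (h'.bl T C hT)],
    fun x T C hT => by rw [h'.right x T C hT, h.right x _ _ (h'.bl T C hT)],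
    fun a => by rw [h'.mul, h.mul]⟩

lemma Adm.iterate {P : (A → A) → (A → A)} (h : Adm P) (n : ℕ) : Adm (P^[n]) := by
  induction n with
  | zero => exact Adm.id
  | succ n ih => exact ih.comp h

/-- averages of admissible operators -/
lemma Adm.mean {α : Type*} (s : Finset α) (hs : s.Nonempty) {P : α → (A → A) → (A → A)}
    (h : ∀ a ∈ s, Adm (P a)) : Adm (fun T y => ((s.card : ℂ)⁻¹) • ∑ a ∈ s, P a T y) := by
  have hc : (s.card : ℂ) ≠ 0 := by exact_mod_cast hs.card_pos.ne'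
  have hc' : (s.card : ℝ) ≠ 0 := by exact_mod_cast hs.card_pos.ne'
  refine ⟨fun T C hT => ?_, fun T T' C C' hT hT' => ?_, fun c T C hT => ?_, fun c T C hT => ?_,
    fun x T C hT => ?_, fun a => ?_⟩
  · refine ((BL.sum s fun a ha => (h a ha).bl T C hT).smul _).mono (le_of_eq ?_)
    simp; field_simp
  · funext y
    rw [← smul_add, ← Finset.sum_add_distrib]
    exact congrArg _ (Finset.sum_congr rfl fun a ha => by rw [(h a ha).add T T' C C' hT hT'])
  · funext y
    rw [smul_comm, Finset.smul_sum (r := c)]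
    exact congrArg _ (Finset.sum_congr rfl fun a ha => by rw [(h a ha).smul c T C hT])
  · funext y
    rw [mul_smul_comm, Finset.mul_sum]
    exact congrArg _ (Finset.sum_congr rfl fun a ha => by rw [(h a ha).left c T C hT])
  · funext y
    exact congrArg _ (Finset.sum_congr rfl fun a ha => by rw [(h a ha).right x T C hT])
  · funext y
    rw [Finset.sum_congr rfl fun b hb => by rw [(h b hb).mul a], Finset.sum_const,
      ← Nat.cast_smul_eq_nsmul ℂ, smul_smul, inv_mul_cancel₀ hc, one_smul]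

lemma Adm.map_sum {P : (A → A) → (A → A)} (h : Adm P) {α : Type*} (s : Finset α)
    {T : α → A → A} {C : α → ℝ} (hT : ∀ a ∈ s, BL (T a) (C a)) :
    P (fun y => ∑ a ∈ s, T a y) = fun y => ∑ a ∈ s, P (T a) y := by
  classical
  induction s using Finset.induction_on with
  | empty => simpa using h.mul 0
  | insert a s ha ih =>
    simp only [Finset.sum_insert ha]
    rw [h.add _ _ _ _ (hT a (mem_insert_self _ _)) (BL.sum s fun b hb => hT b (mem_insert_of_mem hb)),
      ih fun b hb => hT b (mem_insert_of_mem hb)]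

lemma Cor.zero (e : A) : Cor e 0 := ⟨mul_zero _, zero_mul _⟩
lemma Cor.add {e x y : A} (hx : Cor e x) (hy : Cor e y) : Cor e (x + y) :=
  ⟨by rw [mul_add, hx.1, hy.1], by rw [add_mul, hx.2, hy.2]⟩
lemma Cor.sub {e x y : A} (hx : Cor e x) (hy : Cor e y) : Cor e (x - y) :=
  ⟨by rw [mul_sub, hx.1, hy.1], by rw [sub_mul, hx.2, hy.2]⟩
lemma Cor.neg {e x : A} (hx : Cor e x) : Cor e (-x) :=
  ⟨by rw [mul_neg, hx.1], by rw [neg_mul, hx.2]⟩
lemma Cor.smul {e x : A} (c : ℂ) (hx : Cor e x) : Cor e (c • x) :=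
  ⟨by rw [mul_smul_comm, hx.1], by rw [smul_mul_assoc, hx.2]⟩
lemma Cor.mul {e x y : A} (hx : Cor e x) (hy : Cor e y) : Cor e (x * y) :=
  ⟨by rw [← mul_assoc, hx.1], by rw [mul_assoc, hy.2]⟩
lemma Cor.star [StarRing A] {e x : A} (he : IsStarProjection e) (hx : Cor e x) :
    Cor e (star x) :=
  ⟨by rw [← he.isSelfAdjoint.star_eq, ← star_mul, hx.2],
    by rw [← he.isSelfAdjoint.star_eq, ← star_mul, hx.1]⟩
lemma Cor.self [StarRing A] {e : A} (he : IsStarProjection e) : Cor e e :=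
  ⟨he.isIdempotentElem.eq, he.isIdempotentElem.eq⟩
lemma Cor.compress [StarRing A] {e : A} (he : IsStarProjection e) (x : A) : Cor e (e * x * e) :=
  ⟨by rw [← mul_assoc, ← mul_assoc, he.isIdempotentElem.eq],
    by rw [mul_assoc, he.isIdempotentElem.eq]⟩

end alg

section cstar
variable {A : Type*} [CStarAlgebra A]

lemma norm_unitary_le {u : A} (hu : u ∈ unitary A) : ‖u‖ ≤ 1 := by
  rcases subsingleton_or_nontrivial A with h | h
  · simp [Subsingleton.elim u 0]
  · exact (CStarRing.norm_of_mem_unitary hu).le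

/-- conjugation by a unitary on the right is admissible -/
lemma Adm.unitary {u : A} (hu : u ∈ unitary A) : Adm (fun (T : A → A) y => T (y * star u) * u) := by
  refine ⟨fun T C hT => ((hT.rarg (star u)).rmul u).mono ?_, fun T T' C C' _ _ => ?_,
    fun c T C _ => ?_, fun c T C _ => ?_, fun x T C _ => ?_, fun a => ?_⟩
  · have h1 := norm_unitary_le hu
    have h2 : ‖star u‖ ≤ 1 := by rwa [norm_star]
    calc C * ‖star u‖ * ‖u‖ ≤ C * 1 * 1 := by have := hT.nonneg; gcongr
      _ = C := by ring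
  · funext y; rw [add_mul]
  · funext y; rw [smul_mul_assoc]
  · funext y; rw [mul_assoc]
  · funext y; rw [mul_assoc x]
  · funext y; rw [mul_assoc, mul_assoc, Unitary.star_mul_self_of_mem hu, mul_one]

/-- a unitary of the corner extends to a unitary -/
lemma unitary_of_cor {e u : A} (he : IsStarProjection e) (hu : Cor e u) (h1 : star u * u = e)
    (h2 : u * star u = e) : u + (1 - e) ∈ unitary A := by
  have hs := hu.star he
  have hee := he.isIdempotentElem.eq
  rw [Unitary.mem_iff]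
  simp only [star_add, star_sub, star_one, he.isSelfAdjoint.star_eq, mul_add, add_mul, mul_sub,
    sub_mul, mul_one, one_mul, h1, h2, hu.1, hu.2, hs.1, hs.2, hee]
  constructor <;> abel

/-- every element of a corner is a combination of four unitaries of the corner that commute with
everything (in a self-adjoint set `S` commuting with `e`) the element commutes with -/
lemma exists_four_cor {e x : A} (he : IsStarProjection e) (hx : Cor e x) (S : Set A)
    (hS : ∀ s ∈ S, star s ∈ S) (heS : ∀ s ∈ S, e * s = s * e) (hxS : ∀ s ∈ S, x * s = s * x) :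
    ∃ (u : Fin 4 → A) (c : Fin 4 → ℂ), x = ∑ i, c i • u i ∧
      ∀ i, Cor e (u i) ∧ star (u i) * u i = e ∧ u i * star (u i) = e ∧
        ∀ s ∈ S, u i * s = s * u i := by
  let B : StarSubalgebra ℂ A := StarSubalgebra.centralizer ℂ (insert e S)
  have hB : IsClosed (B : Set A) := by
    rw [StarSubalgebra.coe_centralizer]; exact Set.isClosed_centralizer _
  let _ : CStarAlgebra B := StarSubalgebra.cstarAlgebra B
  have hmem : ∀ y, y ∈ B ↔ y * e = e * y ∧ ∀ s ∈ S, y * s = s * y := by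
    intro y
    rw [StarSubalgebra.mem_centralizer_iff]
    constructor
    · intro h
      exact ⟨(h e (Set.mem_insert _ _)).1.symm, fun s hs => (h s (Set.mem_insert_of_mem _ hs)).1.symm⟩
    · rintro ⟨h1, h2⟩ g (rfl | hg)
      · rw [he.isSelfAdjoint.star_eq]; exact ⟨h1.symm, h1.symm⟩
      · exact ⟨(h2 g hg).symm, (h2 _ (hS g hg)).symm⟩
  have hxB : x ∈ B := (hmem x).2 ⟨by rw [hx.1, hx.2], hxS⟩
  obtain ⟨u, c, hu, -⟩ := CStarAlgebra.exists_sum_four_unitary (⟨x, hxB⟩ : B)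
  have hee := he.isIdempotentElem.eq
  refine ⟨fun i => ((u i : B) : A) * e, c, ?_, fun i => ?_⟩
  · have := congrArg (fun y : B => (y : A) * e) hu
    simpa [hx.2, Finset.sum_mul] using this
  · obtain ⟨h1, h2⟩ := (hmem _).1 (u i : B).2
    have h3 : star ((u i : B) : A) * (u i : B) = 1 :=
      congrArg Subtype.val (Unitary.star_mul_self_of_mem (u i).2)
    have h4 : ((u i : B) : A) * star ((u i : B) : A) = 1 :=
      congrArg Subtype.val (Unitary.mul_star_self_of_mem (u i).2)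
    refine ⟨⟨by rw [← mul_assoc, ← h1, mul_assoc, hee], by rw [mul_assoc, hee]⟩, ?_, ?_,
      fun s hs => ?_⟩
    · rw [star_mul, he.isSelfAdjoint.star_eq, mul_assoc, ← mul_assoc (star _), h3, one_mul, hee]
    · rw [star_mul, he.isSelfAdjoint.star_eq, ← mul_assoc, mul_assoc _ e e, hee, h1, mul_assoc,
        h4, mul_one]
    · rw [mul_assoc, heS s hs, ← mul_assoc, h2 s hs, mul_assoc]

end cstar

section vn
variable {H : Type*} [NormedAddCommGroup H] [InnerProductSpace ℂ H] [CompleteSpace H]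
  {M : VonNeumannAlgebra H}

lemma coe_mem (a : Alg M) : (a : Op H) ∈ M := a.2
lemma norm_coe (a : Alg M) : ‖(a : Op H)‖ = ‖a‖ := rfl
lemma mul_app (a b : Alg M) (ξ : H) : ((a * b : Alg M) : Op H) ξ = (a : Op H) ((b : Op H) ξ) := rfl
lemma add_app (a b : Alg M) (ξ : H) :
    ((a + b : Alg M) : Op H) ξ = (a : Op H) ξ + (b : Op H) ξ := rfl
lemma sub_app (a b : Alg M) (ξ : H) :
    ((a - b : Alg M) : Op H) ξ = (a : Op H) ξ - (b : Op H) ξ := rfl
lemma neg_app (a : Alg M) (ξ : H) : ((-a : Alg M) : Op H) ξ = -(a : Op H) ξ := rfl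
lemma smul_app (c : ℂ) (a : Alg M) (ξ : H) : ((c • a : Alg M) : Op H) ξ = c • (a : Op H) ξ := rfl
lemma one_app (ξ : H) : ((1 : Alg M) : Op H) ξ = ξ := rfl
lemma zero_app (ξ : H) : ((0 : Alg M) : Op H) ξ = 0 := rfl
lemma sum_app {α : Type*} (s : Finset α) (a : α → Alg M) (ξ : H) :
    ((∑ i ∈ s, a i : Alg M) : Op H) ξ = ∑ i ∈ s, (a i : Op H) ξ := by
  rw [AddSubmonoidClass.coe_finsetSum, _root_.sum_apply]
lemma norm_app_le (a : Alg M) (ξ : H) : ‖(a : Op H) ξ‖ ≤ ‖a‖ * ‖ξ‖ := (a : Op H).le_opNorm ξ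
lemma inner_star_l (a : Alg M) (ξ η : H) :
    ⟪((star a : Alg M) : Op H) ξ, η⟫_ℂ = ⟪ξ, (a : Op H) η⟫_ℂ := inner_star_left _ _ _
lemma inner_star_r (a : Alg M) (ξ η : H) :
    ⟪ξ, ((star a : Alg M) : Op H) η⟫_ℂ = ⟪(a : Op H) ξ, η⟫_ℂ := inner_star_right _ _ _
lemma ext_app {a b : Alg M} (h : ∀ ξ, (a : Op H) ξ = (b : Op H) ξ) : a = b :=
  Subtype.ext (ContinuousLinearMap.ext h)
lemma ext_inner {a b : Alg M} (h : ∀ ξ η, ⟪η, (a : Op H) ξ⟫_ℂ = ⟪η, (b : Op H) ξ⟫_ℂ) : a = b :=
  ext_app fun ξ => ext_inner_left ℂ fun η => h ξ η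
lemma norm_le_of_app {a : Alg M} {c : ℝ} (hc : 0 ≤ c) (h : ∀ ξ, ‖(a : Op H) ξ‖ ≤ c * ‖ξ‖) :
    ‖a‖ ≤ c := (a : Op H).opNorm_le_bound hc h
lemma norm_app_sq (a : Alg M) (ξ : H) :
    ‖(a : Op H) ξ‖ ^ 2 = (⟪ξ, ((star a * a : Alg M) : Op H) ξ⟫_ℂ).re := by
  rw [mul_app, inner_star_r, inner_self_eq_norm_sq_to_K]; norm_cast
lemma proj_coe {e : Alg M} : IsStarProjection (e : Op H) ↔ IsStarProjection e :=
  ⟨fun h => ⟨Subtype.ext h.1, Subtype.ext h.2⟩,
    fun h => ⟨congrArg Subtype.val h.1, congrArg Subtype.val h.2⟩⟩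

/-- a column `m` with `∑ m* m = 1` is isometric -/
lemma sum_norm_app_sq {L : Type*} (s : Finset L) (m : L → Alg M) (ξ : H) :
    ∑ l ∈ s, ‖(m l : Op H) ξ‖ ^ 2 =
      (⟪ξ, ((∑ l ∈ s, star (m l) * m l : Alg M) : Op H) ξ⟫_ℂ).re := by
  rw [sum_app, inner_sum, Complex.re_sum]
  exact Finset.sum_congr rfl fun l _ => norm_app_sq _ _

lemma proj_norm_app_le {e : Alg M} (he : IsStarProjection e) (ξ : H) : ‖(e : Op H) ξ‖ ≤ ‖ξ‖ :=
  (norm_app_le e ξ).trans (by have := he.norm_le; have := norm_nonneg ξ; nlinarith)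

lemma proj_pyth {e : Alg M} (he : IsStarProjection e) (ξ : H) :
    ‖(e : Op H) ξ‖ ^ 2 + ‖((1 - e : Alg M) : Op H) ξ‖ ^ 2 = ‖ξ‖ ^ 2 := by
  rw [norm_app_sq, norm_app_sq, ← Complex.add_re, ← inner_add_right, ← add_app,
    he.isSelfAdjoint.star_eq, he.one_sub.isSelfAdjoint.star_eq, he.isIdempotentElem.eq,
    he.one_sub.isIdempotentElem.eq, add_sub_cancel, one_app, inner_self_eq_norm_sq_to_K]
  norm_cast

/-- a partial isometry is isometric on its initial space -/
lemma pi_norm_app {w : Alg M} (hw : w * star w * w = w) (ξ : H) :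
    ‖(w : Op H) ξ‖ = ‖((star w * w : Alg M) : Op H) ξ‖ := by
  have : ‖(w : Op H) ξ‖ ^ 2 = ‖((star w * w : Alg M) : Op H) ξ‖ ^ 2 := by
    rw [norm_app_sq, norm_app_sq, star_mul, star_star, mul_assoc, ← mul_assoc w, hw]
  exact (pow_left_inj₀ (norm_nonneg _) (norm_nonneg _) two_ne_zero).1 this

lemma pi_star {A : Type*} [Semigroup A] [StarMul A] {w : A} (hw : w * star w * w = w) :
    star w * w * star w = star w := by
  have := congrArg star hw
  rwa [star_mul, star_mul, star_star, ← mul_assoc] at this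

lemma pi_proj₁ {A : Type*} [Semigroup A] [StarMul A] {w : A} (hw : w * star w * w = w) :
    IsStarProjection (star w * w) :=
  ⟨by rw [IsIdempotentElem, mul_assoc, ← mul_assoc w, hw], IsSelfAdjoint.star_mul_self w⟩

lemma pi_proj₂ {A : Type*} [Semigroup A] [StarMul A] {w : A} (hw : w * star w * w = w) :
    IsStarProjection (w * star w) :=
  ⟨by rw [IsIdempotentElem, ← mul_assoc, hw], IsSelfAdjoint.mul_star_self w⟩

/-- if `w* w` is a projection then `w` is a partial isometry -/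
lemma pi_of_proj {A : Type*} [CStarAlgebra A] {w : A} (h : IsStarProjection (star w * w)) :
    w * star w * w = w := by
  have h1 : star (w * star w * w - w) * (w * star w * w - w) = 0 := by
    have e := h.isIdempotentElem.eq
    have e2 : star w * w * (star w * w) * (star w * w) = star w * w := by rw [e, e]
    simp only [star_sub, star_mul, star_star, mul_sub, sub_mul, mul_assoc] at e e2 ⊢
    rw [e2, e]; simp
  exact sub_eq_zero.1 ((CStarRing.star_mul_self_eq_zero_iff _).1 h1)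

/-! ### weak limits -/

variable {I : Type*}

lemma WLim.unique {l : Filter I} [l.NeBot] {f : I → Alg M} {a b : Alg M} (ha : WLim l f a)
    (hb : WLim l f b) : a = b := ext_inner fun ξ η => tendsto_nhds_unique (ha ξ η) (hb ξ η)

lemma WLim.const (l : Filter I) (a : Alg M) : WLim l (fun _ => a) a := fun _ _ => tendsto_const_nhds

lemma WLim.congr' {l : Filter I} {f g : I → Alg M} {a : Alg M} (h : WLim l f a)
    (hfg : ∀ᶠ i in l, f i = g i) : WLim l g a := fun ξ η =>
  (h ξ η).congr' (by filter_upwards [hfg] with i hi; rw [hi])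

lemma WLim.mono {l l' : Filter I} {f : I → Alg M} {a : Alg M} (h : WLim l f a) (hl : l' ≤ l) :
    WLim l' f a := fun ξ η => (h ξ η).mono_left hl

lemma WLim.add {l : Filter I} {f g : I → Alg M} {a b : Alg M} (h : WLim l f a) (h' : WLim l g b) :
    WLim l (fun i => f i + g i) (a + b) := fun ξ η => by
  simpa only [add_app, inner_add_right] using (h ξ η).add (h' ξ η)

lemma WLim.sub {l : Filter I} {f g : I → Alg M} {a b : Alg M} (h : WLim l f a) (h' : WLim l g b) :
    WLim l (fun i => f i - g i) (a - b) := fun ξ η => by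
  simpa only [sub_app, inner_sub_right] using (h ξ η).sub (h' ξ η)

lemma WLim.neg {l : Filter I} {f : I → Alg M} {a : Alg M} (h : WLim l f a) :
    WLim l (fun i => -f i) (-a) := fun ξ η => by
  simpa only [neg_app, inner_neg_right] using (h ξ η).neg

lemma WLim.smul {l : Filter I} {f : I → Alg M} {a : Alg M} (h : WLim l f a) (c : ℂ) :
    WLim l (fun i => c • f i) (c • a) := fun ξ η => by
  simpa only [smul_app, inner_smul_right] using (h ξ η).const_mul c

lemma WLim.mul_left {l : Filter I} {f : I → Alg M} {a : Alg M} (h : WLim l f a) (c : Alg M) :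
    WLim l (fun i => c * f i) (c * a) := fun ξ η => by
  simpa only [mul_app, inner_star_l] using h ξ (((star c : Alg M) : Op H) η)

lemma WLim.mul_right {l : Filter I} {f : I → Alg M} {a : Alg M} (h : WLim l f a) (c : Alg M) :
    WLim l (fun i => f i * c) (a * c) := fun ξ η => h ((c : Op H) ξ) η

lemma WLim.sum {l : Filter I} {α : Type*} (s : Finset α) {f : α → I → Alg M} {a : α → Alg M}
    (h : ∀ x ∈ s, WLim l (f x) (a x)) : WLim l (fun i => ∑ x ∈ s, f x i) (∑ x ∈ s, a x) :=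
  fun ξ η => by
    simpa only [sum_app, inner_sum] using tendsto_finsetSum s fun x hx => h x hx ξ η

/-- strong (pointwise) convergence implies weak convergence -/
lemma WLim.of_tendsto {l : Filter I} {f : I → Alg M} {a : Alg M}
    (h : ∀ ξ, Tendsto (fun i => (f i : Op H) ξ) l (𝓝 ((a : Op H) ξ))) : WLim l f a :=
  fun ξ _ => tendsto_const_nhds.inner (h ξ)

/-- a family tending to zero in norm -/
lemma WLim.zero_of_norm {l : Filter I} {f : I → Alg M} (h : Tendsto (fun i => ‖f i‖) l (𝓝 0)) :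
    WLim l f 0 := WLim.of_tendsto fun ξ => by
  rw [zero_app]
  refine squeeze_zero_norm (fun i => norm_app_le (f i) ξ) ?_
  simpa using h.mul_const ‖ξ‖

omit [CompleteSpace H] in
/-- weak lower semicontinuity of `∑ ‖v i‖²` -/
lemma sum_sq_le_of_weak {l : Filter I} [l.NeBot] {α : Type*} (s : Finset α) (v : I → α → H)
    (w : α → H) (h : ∀ a ∈ s, ∀ η, Tendsto (fun i => ⟪η, v i a⟫_ℂ) l (𝓝 ⟪η, w a⟫_ℂ)) {r : ℝ}
    (hr : ∀ᶠ i in l, ∑ a ∈ s, ‖v i a‖ ^ 2 ≤ r) : ∑ a ∈ s, ‖w a‖ ^ 2 ≤ r := by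
  set t := ∑ a ∈ s, ‖w a‖ ^ 2 with ht
  have ht0 : 0 ≤ t := Finset.sum_nonneg fun _ _ => sq_nonneg _
  have h1 : Tendsto (fun i => ‖∑ a ∈ s, ⟪w a, v i a⟫_ℂ‖) l (𝓝 t) := by
    have := (tendsto_finsetSum s fun a ha => h a ha (w a)).norm
    have e : (∑ a ∈ s, ⟪w a, w a⟫_ℂ) = (t : ℂ) := by
      rw [ht]; push_cast
      exact Finset.sum_congr rfl fun a _ => inner_self_eq_norm_sq_to_K _
    rwa [e, Complex.norm_real, Real.norm_of_nonneg ht0] at this
  obtain ⟨i₀, hi₀⟩ := hr.exists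
  have hr0 : 0 ≤ r := (Finset.sum_nonneg fun _ _ => sq_nonneg _).trans hi₀
  have h2 : t ≤ √t * √r := le_of_tendsto h1 (by
    filter_upwards [hr] with i hi
    exact (R124.norm_sum_inner_le s w (v i)).trans (by gcongr))
  have h3 := Real.sq_sqrt ht0
  have h4 := Real.sq_sqrt hr0
  have h5 := Real.sqrt_nonneg t
  have h6 := Real.sqrt_nonneg r
  nlinarith [sq_nonneg (√t - √r)]

lemma WLim.norm_app_le {l : Filter I} [l.NeBot] {f : I → Alg M} {a : Alg M} (h : WLim l f a)
    (ξ : H) {r : ℝ} (hr : ∀ᶠ i in l, ‖(f i : Op H) ξ‖ ≤ r) : ‖(a : Op H) ξ‖ ≤ r := by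
  obtain ⟨i₀, hi₀⟩ := hr.exists
  have hr0 : 0 ≤ r := (norm_nonneg _).trans hi₀
  have := sum_sq_le_of_weak (l := l) ({()} : Finset Unit) (fun i _ => (f i : Op H) ξ)
    (fun _ => (a : Op H) ξ) (fun _ _ η => h ξ η) (r := r ^ 2) (by
      filter_upwards [hr] with i hi
      simpa using pow_le_pow_left₀ (norm_nonneg _) hi 2)
  simpa using (pow_le_pow_iff_left₀ (norm_nonneg _) hr0 two_ne_zero).1 (by simpa using this)

lemma WLim.norm_le {l : Filter I} [l.NeBot] {f : I → Alg M} {a : Alg M} (h : WLim l f a) {r : ℝ}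
    (hr : ∀ᶠ i in l, ‖f i‖ ≤ r) : ‖a‖ ≤ r := by
  obtain ⟨i₀, hi₀⟩ := hr.exists
  refine norm_le_of_app ((norm_nonneg _).trans hi₀) fun ξ => h.norm_app_le ξ ?_
  filter_upwards [hr] with i hi
  exact (R121.norm_app_le _ _).trans (by gcongr)

/-- matrix bounds pass to weak limits -/
lemma MatB.of_wlim {l : Filter I} [l.NeBot] {J K : Type} [Fintype J] [Fintype K]
    {x : I → J → K → Alg M} {y : J → K → Alg M} (h : ∀ j k, WLim l (fun i => x i j k) (y j k))
    {r : ℝ} (hr : ∀ᶠ i in l, MatB (x i) r) : MatB y r := fun α =>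
  sum_sq_le_of_weak (l := l) univ (fun i j => ∑ k, (x i j k : Op H) (α k)) _
    (fun j _ η => by
      simpa only [inner_sum] using tendsto_finsetSum univ fun k _ => h j k (α k) η)
    (by filter_upwards [hr] with i hi using hi α)

theorem exists_wlim (𝒰 : Ultrafilter I) (f : I → Alg M) {R : ℝ}
    (h : ∀ᶠ i in (𝒰 : Filter I), ‖f i‖ ≤ R) : ∃ a, WLim (𝒰 : Filter I) f a := by
  obtain ⟨i₀, hi₀⟩ := h.exists
  obtain ⟨T, -, hT⟩ := R124.exists_wlim 𝒰 (fun i => (f i : Op H)) ((norm_nonneg _).trans hi₀) h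
  refine ⟨⟨T, R124.VN.mem_of_comm fun y hy => ?_⟩, hT⟩
  refine ContinuousLinearMap.ext fun ξ => ext_inner_left ℂ fun η => ?_
  have h1 := hT (y ξ) η
  have h2 := hT ξ (star y η)
  simp only [inner_star_left] at h2
  have e : ∀ i, (f i : Op H) (y ξ) = y ((f i : Op H) ξ) := fun i =>
    congrArg (fun S : Op H => S ξ) (R124.VN.comm_of_mem (coe_mem (f i)) hy)
  simp only [e] at h1
  have := tendsto_nhds_unique h1 h2
  first | exact this | exact this.symm

open Classical in
/-- the weak limit along an ultrafilter -/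
noncomputable def wlim (𝒰 : Ultrafilter I) (f : I → Alg M) : Alg M :=
  if h : ∃ a, WLim (𝒰 : Filter I) f a then h.choose else 0

lemma wlim_spec (𝒰 : Ultrafilter I) (f : I → Alg M) {R : ℝ}
    (h : ∀ᶠ i in (𝒰 : Filter I), ‖f i‖ ≤ R) : WLim (𝒰 : Filter I) f (wlim 𝒰 f) := by
  have := exists_wlim 𝒰 f h
  rw [wlim, dif_pos this]; exact this.choose_spec

lemma WLim.wlim_eq {𝒰 : Ultrafilter I} {f : I → Alg M} {a : Alg M}
    (h : WLim (𝒰 : Filter I) f a) : wlim 𝒰 f = a := by
  have : ∃ a, WLim (𝒰 : Filter I) f a := ⟨a, h⟩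
  rw [wlim, dif_pos this]; exact this.choose_spec.unique h

lemma BL.wlim_spec (𝒰 : Ultrafilter I) {T : I → Alg M → Alg M} {C : ℝ} (h : ∀ i, BL (T i) C)
    (y : Alg M) : WLim (𝒰 : Filter I) (fun i => T i y) (wlim 𝒰 fun i => T i y) :=
  R121.wlim_spec 𝒰 _ (Eventually.of_forall fun i => (h i).bd y)

lemma BL.wlim (𝒰 : Ultrafilter I) {T : I → Alg M → Alg M} {C : ℝ} (h : ∀ i, BL (T i) C) :
    BL (fun y => wlim 𝒰 fun i => T i y) C := by
  obtain ⟨i₀, -⟩ := (𝒰 : Filter I).nonempty_of_mem univ_mem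
  refine ⟨⟨fun x y => ?_, fun c x => ?_⟩, (h i₀).nonneg, fun y => ?_⟩
  · simp only [(h _).map_add]
    exact ((BL.wlim_spec 𝒰 h x).add (BL.wlim_spec 𝒰 h y)).wlim_eq
  · simp only [(h _).map_smul]
    exact ((BL.wlim_spec 𝒰 h x).smul c).wlim_eq
  · exact (BL.wlim_spec 𝒰 h y).norm_le (Eventually.of_forall fun i => (h i).bd y)

/-- weak ultralimits of admissible operators are admissible -/
lemma Adm.wlim (𝒰 : Ultrafilter I) {P : I → (Alg M → Alg M) → (Alg M → Alg M)}
    (h : ∀ i, Adm (P i)) : Adm (fun T y => wlim 𝒰 fun i => P i T y) := by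
  have sp : ∀ T C, BL T C → ∀ y, WLim (𝒰 : Filter I) (fun i => P i T y)
      (R121.wlim 𝒰 fun i => P i T y) := fun T C hT => BL.wlim_spec 𝒰 fun i => (h i).bl T C hT
  refine ⟨fun T C hT => BL.wlim 𝒰 fun i => (h i).bl T C hT, fun T T' C C' hT hT' => ?_,
    fun c T C hT => ?_, fun c T C hT => ?_, fun x T C hT => ?_, fun a => ?_⟩
  · funext y
    simp only [(h _).add T T' C C' hT hT']
    exact ((sp T C hT y).add (sp T' C' hT' y)).wlim_eq
  · funext y
    simp only [(h _).smul c T C hT]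
    exact ((sp T C hT y).smul c).wlim_eq
  · funext y
    simp only [(h _).left c T C hT]
    exact ((sp T C hT y).mul_left c).wlim_eq
  · funext y
    simp only [(h _).right x T C hT]
  · funext y
    simp only [(h _).mul a]
    exact (WLim.const _ _).wlim_eq

/-! ### completely bounded maps -/

lemma matB_unit {y : Alg M} {r : ℝ} (hr : 0 ≤ r) :
    MatB (fun (_ : Unit) (_ : Unit) => y) r ↔ ‖y‖ ≤ r := by
  constructor
  · intro h
    refine norm_le_of_app hr fun ξ => ?_
    have := h fun _ => ξ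
    simp only [univ_unique, sum_singleton, ← mul_pow] at this
    exact (pow_le_pow_iff_left₀ (norm_nonneg _) (by positivity) two_ne_zero).1 this
  · intro h α
    simp only [univ_unique, sum_singleton, ← mul_pow]
    exact pow_le_pow_left₀ (norm_nonneg _) ((norm_app_le _ _).trans (by gcongr)) 2

lemma CB.bl {T : Alg M → Alg M} {C : ℝ} (h : CB T C) : BL T C :=
  ⟨h.lin, h.nonneg, fun y => (matB_unit (mul_nonneg h.nonneg (norm_nonneg _))).1
    (h.cb Unit Unit (fun _ _ => y) ‖y‖ (norm_nonneg _) ((matB_unit (norm_nonneg _)).2 le_rfl))⟩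

lemma MatB.mono {J K : Type} [Fintype J] [Fintype K] {x : J → K → Alg M} {r r' : ℝ}
    (h : MatB x r) (hr : 0 ≤ r) (hr' : r ≤ r') : MatB x r' := fun α =>
  (h α).trans (by gcongr)

lemma MatB.mul_left {J K : Type} [Fintype J] [Fintype K] {x : J → K → Alg M} {r : ℝ}
    (h : MatB x r) (c : Alg M) : MatB (fun j k => c * x j k) (‖c‖ * r) := fun α => by
  calc ∑ j, ‖∑ k, ((c * x j k : Alg M) : Op H) (α k)‖ ^ 2
      ≤ ∑ j, ‖c‖ ^ 2 * ‖∑ k, (x j k : Op H) (α k)‖ ^ 2 := by
        refine Finset.sum_le_sum fun j _ => ?_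
        simp only [mul_app, ← map_sum, ← mul_pow]
        exact pow_le_pow_left₀ (norm_nonneg _) (norm_app_le _ _) 2
    _ ≤ ‖c‖ ^ 2 * (r ^ 2 * ∑ k, ‖α k‖ ^ 2) := by
        rw [← Finset.mul_sum]; gcongr; exact h α
    _ = _ := by ring

lemma MatB.add {J K : Type} [Fintype J] [Fintype K] {x y : J → K → Alg M} {r r' : ℝ}
    (h : MatB x r) (h' : MatB y r') (hr : 0 ≤ r) (hr' : 0 ≤ r') :
    MatB (fun j k => x j k + y j k) (2 * (r + r')) := fun α => by
  have hs : 0 ≤ ∑ k, ‖α k‖ ^ 2 := Finset.sum_nonneg fun _ _ => sq_nonneg _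
  calc ∑ j, ‖∑ k, ((x j k + y j k : Alg M) : Op H) (α k)‖ ^ 2
      ≤ ∑ j, (2 * ‖∑ k, (x j k : Op H) (α k)‖ ^ 2 + 2 * ‖∑ k, (y j k : Op H) (α k)‖ ^ 2) := by
        refine Finset.sum_le_sum fun j _ => ?_
        simp only [add_app, Finset.sum_add_distrib]
        have := norm_add_le (∑ k, (x j k : Op H) (α k)) (∑ k, (y j k : Op H) (α k))
        have h2 := pow_le_pow_left₀ (norm_nonneg _) this 2
        nlinarith [sq_nonneg (‖∑ k, (x j k : Op H) (α k)‖ - ‖∑ k, (y j k : Op H) (α k)‖)]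
    _ ≤ 2 * (r ^ 2 * ∑ k, ‖α k‖ ^ 2) + 2 * (r' ^ 2 * ∑ k, ‖α k‖ ^ 2) := by
        rw [Finset.sum_add_distrib, ← Finset.mul_sum, ← Finset.mul_sum]
        have := h α; have := h' α; linarith
    _ ≤ _ := by nlinarith [mul_nonneg (mul_nonneg hr hr') hs, mul_nonneg (sq_nonneg r) hs,
        mul_nonneg (sq_nonneg r') hs]

lemma CB.left {T : Alg M → Alg M} {C : ℝ} (h : CB T C) (c : Alg M) :
    CB (fun y => c * T y) (‖c‖ * C) :=
  ⟨(h.bl.left c).lin, mul_nonneg (norm_nonneg _) h.nonneg, fun I J _ _ x r hr hx => by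
    rw [mul_assoc]; exact (h.cb I J x r hr hx).mul_left c⟩

lemma CB.right {T : Alg M → Alg M} {C : ℝ} (h : CB T C) (c : Alg M) :
    CB (fun y => T (c * y)) (C * ‖c‖) :=
  ⟨(h.bl.right c).lin, mul_nonneg h.nonneg (norm_nonneg _), fun I J _ _ x r hr hx => by
    rw [mul_assoc]
    exact h.cb I J _ _ (mul_nonneg (norm_nonneg _) hr) (hx.mul_left c)⟩

lemma CB.mul (a : Alg M) : CB (fun y => a * y) ‖a‖ :=
  ⟨(BL.mul a).lin, norm_nonneg _, fun _ _ _ _ _ _ _ hx => hx.mul_left a⟩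

lemma CB.add {T T' : Alg M → Alg M} {C C' : ℝ} (h : CB T C) (h' : CB T' C') :
    CB (fun y => T y + T' y) (2 * (C + C')) :=
  ⟨(h.bl.add h'.bl).lin, by have := h.nonneg; have := h'.nonneg; positivity,
    fun I J _ _ x r hr hx => by
      have := (h.cb I J x r hr hx).add (h'.cb I J x r hr hx) (mul_nonneg h.nonneg hr)
        (mul_nonneg h'.nonneg hr)
      rwa [show 2 * (C * r + C' * r) = 2 * (C + C') * r by ring] at this⟩

lemma CB.smul {T : Alg M → Alg M} {C : ℝ} (h : CB T C) (c : ℂ) :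
    ∃ C', CB (fun y => c • T y) C' := by
  have := h.left (c • 1)
  simp only [smul_mul_assoc, one_mul] at this
  exact ⟨_, this⟩

lemma cls_CB : Cls (CB (M := M)) :=
  ⟨fun _ _ _ _ h h' => ⟨_, h.add h'⟩, fun c _ _ h => h.smul c, fun c _ _ h => ⟨_, h.left c⟩,
    fun x _ _ h => ⟨_, h.right x⟩, fun a => ⟨_, CB.mul a⟩⟩

lemma CB.wlim (𝒰 : Ultrafilter I) {T : I → Alg M → Alg M} {C : ℝ} (h : ∀ i, CB (T i) C) :
    CB (fun y => wlim 𝒰 fun i => T i y) C :=
  ⟨(BL.wlim 𝒰 fun i => (h i).bl).lin, (BL.wlim 𝒰 fun i => (h i).bl).nonneg,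
    fun I' J _ _ x r hr hx => MatB.of_wlim (l := (𝒰 : Filter I))
      (fun j k => BL.wlim_spec 𝒰 (fun i => (h i).bl) (x j k))
      (Eventually.of_forall fun i => (h i).cb I' J x r hr hx)⟩

/-! ### polar decomposition, spectral projections, Gram–Schmidt, central covers -/

/-- polar part -/
theorem exists_polar (x : Alg M) : ∃ w : Alg M, w * star w * w = w ∧ w * star w * x = x ∧
    (∀ t : Alg M, t * x = 0 → t * w = 0) ∧ (∀ t : Alg M, x * t = 0 → w * t = 0) := by
  obtain ⟨w, hw, h1, h2, h3, h4⟩ := R124.polarStmt H M x (coe_mem x)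
  exact ⟨⟨w, hw⟩, Subtype.ext h1, Subtype.ext h2,
    fun t ht => Subtype.ext (h3 t (congrArg Subtype.val ht)),
    fun t ht => Subtype.ext (h4 t (congrArg Subtype.val ht))⟩

/-- a nonzero element of `q M p` gives a nonzero partial isometry of `q M p` -/
theorem exists_pi {p q x : Alg M} (hq : q * x = x) (hp : x * p = x) (hx : x ≠ 0) :
    ∃ w : Alg M, w ≠ 0 ∧ w * star w * w = w ∧ q * w = w ∧ w * p = w := by
  obtain ⟨w, h1, h2, h3, h4⟩ := exists_polar x
  refine ⟨w, fun h => hx (by rw [← h2, h]; simp), h1, ?_, ?_⟩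
  · have := h3 (q - 1) (by rw [sub_mul, hq, one_mul, sub_self])
    rwa [sub_mul, one_mul, sub_eq_zero] at this
  · have := h4 (p - 1) (by rw [mul_sub, hp, mul_one, sub_self])
    rwa [mul_sub, mul_one, sub_eq_zero] at this

/-- spectral projection of the self-adjoint `d` for `(t, ∞)` -/
theorem exists_spec {d : Alg M} (hd : IsSelfAdjoint d) (t : ℝ) :
    ∃ q : Alg M, IsStarProjection q ∧ q * d = d * q ∧
      (∀ ζ, (q : Op H) ζ = ζ → t * ‖ζ‖ ^ 2 ≤ (⟪ζ, (d : Op H) ζ⟫_ℂ).re) ∧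
      (∀ ζ, (q : Op H) ζ = 0 → (⟪ζ, (d : Op H) ζ⟫_ℂ).re ≤ t * ‖ζ‖ ^ 2) ∧
      (∀ g : Alg M, IsStarProjection g → g * d = d → 0 ≤ t → g * q = q) := by
  let _ := CStarAlgebra.spectralOrder (Alg M)
  have _ := CStarAlgebra.spectralOrderedRing (Alg M)
  set a : Alg M := d - (t : ℂ) • 1 with ha
  have has : IsSelfAdjoint a := by
    rw [ha, IsSelfAdjoint, star_sub, hd.star_eq, star_smul, star_one]; simp
  have hsub : a⁺ - a⁻ = a := CFC.posPart_sub_negPart a
  have hpn : a⁺ * a⁻ = 0 := CFC.posPart_mul_negPart a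
  have hnp : a⁻ * a⁺ = 0 := CFC.negPart_mul_posPart a
  have hps : IsSelfAdjoint a⁺ := (CFC.posPart_nonneg a).isSelfAdjoint
  have hns : IsSelfAdjoint a⁻ := (CFC.negPart_nonneg a).isSelfAdjoint
  have hform : ∀ b : Alg M, (∃ y, b = star y * y) → ∀ ζ, 0 ≤ (⟪ζ, (b : Op H) ζ⟫_ℂ).re := by
    rintro b ⟨y, rfl⟩ ζ
    rw [← norm_app_sq]; positivity
  have hp0 := hform _ (CStarAlgebra.nonneg_iff_eq_star_mul_self.1 (CFC.posPart_nonneg a))
  have hn0 := hform _ (CStarAlgebra.nonneg_iff_eq_star_mul_self.1 (CFC.negPart_nonneg a))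
  obtain ⟨w, h1, h2, h3, -⟩ := exists_polar a⁺
  have hq := pi_proj₂ h1
  set q := w * star w with hqd
  have hqp : q * a⁺ = a⁺ := h2
  have hpq : a⁺ * q = a⁺ := by
    have := congrArg star hqp; rwa [star_mul, hps.star_eq, hq.isSelfAdjoint.star_eq] at this
  have hnq : a⁻ * q = 0 := by rw [hqd, ← mul_assoc, h3 _ hnp, zero_mul]
  have hqn : q * a⁻ = 0 := by
    have := congrArg star hnq
    rwa [star_mul, hns.star_eq, hq.isSelfAdjoint.star_eq, star_zero] at this
  have hda : d = a⁺ - a⁻ + (t : ℂ) • 1 := by rw [hsub, ha]; abel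
  have hin : ∀ ζ, (⟪ζ, (d : Op H) ζ⟫_ℂ).re =
      (⟪ζ, ((a⁺ : Alg M) : Op H) ζ⟫_ℂ).re - (⟪ζ, ((a⁻ : Alg M) : Op H) ζ⟫_ℂ).re + t * ‖ζ‖ ^ 2 := by
    intro ζ
    conv_lhs => rw [hda]
    rw [add_app, sub_app, smul_app, one_app, inner_add_right, inner_sub_right, inner_smul_right,
      inner_self_eq_norm_sq_to_K]
    simp only [Complex.add_re, Complex.sub_re, add_right_inj]
    rw [Complex.re_ofReal_mul]; norm_cast
  refine ⟨q, hq, ?_, fun ζ hζ => ?_, fun ζ hζ => ?_, fun g hg hgd ht => ?_⟩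
  · rw [hda]; simp only [mul_add, add_mul, mul_sub, sub_mul, hqp, hpq, hnq, hqn, mul_smul_comm,
      smul_mul_assoc, mul_one, one_mul]
  · have : ((a⁻ : Alg M) : Op H) ζ = 0 := by rw [← hζ, ← mul_app, hnq, zero_app]
    rw [hin, this, inner_zero_right]
    have := hp0 ζ
    simp only [Complex.zero_re]; linarith
  · have : ((a⁺ : Alg M) : Op H) ζ = 0 := by rw [← hpq, mul_app, hζ, map_zero]
    rw [hin, this, inner_zero_right]
    have := hn0 ζ
    simp only [Complex.zero_re]; linarith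
  · have hdg : d * g = d := by
      have := congrArg star hgd; rwa [star_mul, hd.star_eq, hg.isSelfAdjoint.star_eq] at this
    have hc : Commute a (1 - g) := by
      rw [ha, Commute, SemiconjBy]
      simp only [mul_sub, sub_mul, mul_one, one_mul, hgd, hdg, smul_mul_assoc, mul_smul_comm,
        smul_sub]
      abel
    have hc' : a⁺ * (1 - g) = (1 - g) * a⁺ := (hc.cfcₙ_real _).eq
    have hk : a⁺ * (1 - g) = 0 := by
      -- `a⁺ (1-g)` has `x* x ≤ 0`
      have e1 : a⁺ * a⁺ = a⁺ * a := by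
        conv_rhs => rw [← congrArg (a⁺ * ·) hsub]
        simp only [mul_sub, hpn, sub_zero]
      have e2 : a * (1 - g) = -((t : ℂ) • (1 - g)) := by
        rw [ha]; simp only [mul_sub, sub_mul, mul_one, hdg, smul_mul_assoc, one_mul, smul_sub]; abel
      refine ext_app fun ζ => ?_
      have e3 : ‖((a⁺ * (1 - g) : Alg M) : Op H) ζ‖ ^ 2 =
          -(t * (⟪((1 - g : Alg M) : Op H) ζ,
            ((a⁺ : Alg M) : Op H) (((1 - g : Alg M) : Op H) ζ)⟫_ℂ).re) := by
        rw [norm_app_sq, star_mul, hps.star_eq, mul_assoc, ← mul_assoc a⁺, e1, mul_assoc, e2,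
          mul_app, inner_star_r, mul_neg, mul_smul_comm, neg_app, smul_app, inner_neg_right,
          inner_smul_right, mul_app, Complex.neg_re, Complex.re_ofReal_mul]
      have := hp0 (((1 - g : Alg M) : Op H) ζ)
      rw [zero_app, ← norm_eq_zero]
      nlinarith [norm_nonneg (((a⁺ * (1 - g) : Alg M) : Op H) ζ), mul_nonneg ht this]
    have := h3 (1 - g) (by rw [← hc', hk])
    rw [sub_mul, one_mul, sub_eq_zero] at this
    rw [hqd, ← mul_assoc, ← this]

/-- Gram–Schmidt: finitely many elements of `M q` are reached by finitely many partial isometries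
of `M q` with orthogonal ranges -/
theorem exists_gs (q : Alg M) (Y : Finset (Alg M)) :
    ∃ (n : ℕ) (u : Fin n → Alg M), (∀ a, u a * q = u a) ∧ (∀ a, u a * star (u a) * u a = u a) ∧
      (∀ a b, a ≠ b → star (u a) * u b = 0) ∧ IsStarProjection (∑ a, u a * star (u a)) ∧
      ∀ y ∈ Y, y * q = y → (∑ a, u a * star (u a)) * y = y := by
  classical
  induction Y using Finset.induction_on with
  | empty => exact ⟨0, Fin.elim0, by simp, by simp, by simp, by simp, by simp⟩
  | insert y Y hy ih =>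
    obtain ⟨n, u, h1, h2, h3, h4, h5⟩ := ih
    set p := ∑ a, u a * star (u a) with hp
    have hpu : ∀ a, p * u a = u a := fun a => by
      rw [hp, Finset.sum_mul, Finset.sum_eq_single a, h2]
      · intro b _ hb; rw [mul_assoc, h3 b a hb, mul_zero]
      · simp
    have hpp := h4.isIdempotentElem.eq
    obtain ⟨w, w1, w2, w3, w4⟩ := exists_polar ((1 - p) * y * q - (1 - p) * y * q * (1 - q))
    by_cases hyq : y * q = y
    swap
    · exact ⟨n, u, h1, h2, h3, h4, fun y' hy' hq' => by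
        rcases mem_insert.1 hy' with rfl | hy'
        · exact absurd hq' hyq
        · exact h5 y' hy' hq'⟩
    have hx : (1 - p) * y * q - (1 - p) * y * q * (1 - q) = (1 - p) * y := by
      rw [mul_assoc _ y q, hyq, mul_assoc, mul_sub, mul_one, hyq, sub_self, mul_zero, sub_zero]
    rw [hx] at w2 w3 w4
    have hpw : p * w = 0 := w3 p (by rw [← mul_assoc, mul_sub, mul_one, hpp, sub_self, zero_mul])
    have hwp : star w * p = 0 := by
      have := congrArg star hpw; rwa [star_mul, h4.isSelfAdjoint.star_eq, star_zero] at this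
    have hwq : w * q = w := by
      have := w4 (q - 1) (by rw [mul_assoc, mul_sub, hyq, mul_one, sub_self, mul_zero])
      rwa [mul_sub, mul_one, sub_eq_zero] at this
    have hwu : ∀ a, star w * u a = 0 := fun a => by rw [← hpu a, ← mul_assoc, hwp, zero_mul]
    have huw : ∀ a, star (u a) * w = 0 := fun a => by
      have := congrArg star (hwu a); rwa [star_mul, star_star, star_zero] at this
    refine ⟨n + 1, Fin.cons w u, ?_, ?_, ?_, ?_, ?_⟩
    · intro a; refine Fin.cases ?_ (fun a => ?_) a <;> simp [hwq, h1]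
    · intro a; refine Fin.cases ?_ (fun a => ?_) a <;> simp [w1, h2]
    · intro a b
      refine Fin.cases ?_ (fun a => ?_) a <;> refine Fin.cases ?_ (fun b => ?_) b
      · simp
      · simp [hwu]
      · simp [huw]
      · intro hab; simpa using h3 a b fun h => hab (by rw [h])
    · rw [Fin.sum_univ_succ]
      simp only [Fin.cons_zero, Fin.cons_succ, ← hp]
      exact (pi_proj₂ w1).add h4 (by rw [mul_assoc, hwp, mul_zero])
    · intro y' hy' hq'
      rw [Fin.sum_univ_succ]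
      simp only [Fin.cons_zero, Fin.cons_succ, ← hp]
      rcases mem_insert.1 hy' with rfl | hy'
      · rw [← mul_assoc, mul_sub, mul_one, mul_assoc _ _ p, hwp, mul_zero, sub_zero] at w2
        rw [add_mul, w2, sub_mul, one_mul, sub_add_cancel]
      · rw [add_mul, h5 y' hy' hq', ← h5 y' hy' hq', ← mul_assoc, mul_assoc _ _ p, hwp, mul_zero,
          zero_mul, zero_add]

/-- the span of `M q H` -/
noncomputable def spn (q : Alg M) : Submodule ℂ H :=
  Submodule.span ℂ {ψ : H | ∃ (x : Alg M) (k : H), ψ = ((x * q : Alg M) : Op H) k}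

/-- central cover -/
theorem exists_cover (q : Alg M) : ∃ z : Alg M, CProj z ∧ z * q = q ∧
    (∀ ξ, (z : Op H) ξ = ξ ↔ ξ ∈ (spn q).topologicalClosure) ∧
    ∀ b : Alg M, (∀ x : Alg M, b * x * q = 0) → b * z = 0 := by
  have e : spn q = R124.VN.sp M (q : Op H) := by
    unfold spn R124.VN.sp
    congr 1; ext ψ
    exact ⟨fun ⟨x, k, h⟩ => ⟨x, x.2, k, h⟩, fun ⟨x, hx, k, h⟩ => ⟨⟨x, hx⟩, k, h⟩⟩
  obtain ⟨z, hz, h1, h2, h3⟩ := R124.VN.exists_central (P := M) (spn q).topologicalClosure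
    (Submodule.isClosed_topologicalClosure _)
    (fun y hy => R124.VN.closure_inv (by rw [e]; exact R124.VN.sp_inv₁ _ hy))
    (fun y hy => R124.VN.closure_inv (by rw [e]; exact R124.VN.sp_inv₂ (coe_mem q) hy))
  refine ⟨⟨z, hz⟩, ⟨proj_coe.1 h1, fun a => Subtype.ext (h2 a a.2).eq⟩, ext_app fun ξ => ?_, h3,
    fun b hb => ext_app fun ξ => ?_⟩
  · exact (h3 _).2 (Submodule.le_topologicalClosure _ (Submodule.subset_span ⟨1, ξ, by simp⟩))
  · have hm : z ξ ∈ (spn q).topologicalClosure :=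
      (h3 _).1 (congrArg (fun T : Op H => T ξ) h1.isIdempotentElem.eq)
    have hk : (spn q).topologicalClosure ≤ (b : Op H).ker := by
      refine Submodule.topologicalClosure_minimal _ (Submodule.span_le.2 ?_) (b : Op H).isClosed_ker
      rintro _ ⟨x, k, rfl⟩
      change (b : Op H) _ = 0
      rw [← mul_app, ← mul_assoc, hb x, zero_app]
    exact hk hm

end vn

end Crest.Agent.R121
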