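import Crest.Agent.R121.Lists

/-!
# Row 121: `d ∘ d = 0`, invariant means trivialise cocycles, lists versus multilinear maps
-/

set_option autoImplicit false

namespace Crest.Agent.R121

open Finset
open Crest.OpAlg

universe u

namespace Coc

set_option linter.unusedSectionVars false

variable {A : Type*} [NormedRing A] [NormedAlgebra ℂ A]

/-- first term of the differential -/
def L (g : List A → A) : List A → A
  | [] => 0
  | a :: l => a * g l

/-- merge `a` with the head -/
def Hd (a : A) (g : List A → A) : List A → A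
  | [] => 0
  | x :: t => g (a * x :: t)

lemma DD0 (l : List A) : ∀ (a b : A) (g : List A → A),
    D0 (a :: b :: l) (fun l' => D0 l' g) = 0 := by
  induction l with
  | nil => intro a b g; simp [mul_assoc]
  | cons c l ih =>
    intro a b g
    rw [D0_two]
    have e : D0 (b :: c :: l) (fun l' => D0 (a :: l') g) =
        D0 (b :: c :: l) (fun l' => -Hd a g l' - D0 l' (fun l'' => g (a :: l''))) := by
      refine D0_congr (c :: l) b fun l' hl' => ?_
      cases l' with
      | nil => simp at hl'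
      | cons x t => rw [D0_two]; rfl
    rw [e, D0_sub, ih, D0_neg, D0_two, D0_two]
    simp only [Hd, mul_assoc]
    abel

lemma dd_eq (g : List A → A) : dd g = fun l => L g l + D0 l g := by
  funext l; cases l with
  | nil => simp [L]
  | cons a l => rfl

lemma dd_dd (g : List A → A) (a b : A) (l : List A) : dd (dd g) (a :: b :: l) = 0 := by
  rw [dd_cons, dd_cons, dd_eq g, D0_add, DD0, D0_two]
  simp only [L, D0_left, mul_add, mul_assoc]
  abel

section rho
variable {Bd : (A → A) → ℝ → Prop} {z : A} {ρ : (A → A) → A}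

lemma bd_neg (hB : Cls Bd) {T : A → A} {C : ℝ} (h : Bd T C) : ∃ C', Bd (fun y => -T y) C' := by
  simpa using hB.smul (-1) T C h

lemma rho_neg (hρ : Rho Bd z ρ) {T : A → A} {C : ℝ} (h : Bd T C) : ρ (fun y => -T y) = -ρ T := by
  simpa using hρ.smul (-1) T C h

lemma key (hB : Cls Bd) (hρ : Rho Bd z ρ) (l : List A) : ∀ (a : A) (f : List A → A),
    (∀ l' : List A, l'.length = l.length → ∃ C, Bd (fun y => f (l' ++ [y])) C) →
    (∃ C, Bd (fun y => D0 (a :: (l ++ [y])) f) C) ∧
      ρ (fun y => D0 (a :: (l ++ [y])) f) =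
        D0 (a :: l) (fun l' => ρ fun y => f (l' ++ [y])) +
          ((-1 : ℂ) ^ l.length) • (z * f (a :: l)) := by
  induction l with
  | nil =>
    intro a f h
    obtain ⟨C, hC⟩ := h [] rfl
    have e : (fun y => D0 (a :: ([] ++ [y])) f) = fun y => -f ([] ++ [a * y]) + f [a] * y := by
      funext y; simp
    obtain ⟨C1, h1⟩ := hB.right a _ C hC
    obtain ⟨C2, h2⟩ := bd_neg hB h1
    obtain ⟨C3, h3⟩ := hB.mul (f [a])
    rw [e]
    refine ⟨hB.add _ _ _ _ h2 h3, ?_⟩
    rw [hρ.add _ _ _ _ h2 h3, rho_neg hρ h1, hρ.right a _ C hC, hρ.mul]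
    simp
  | cons b l ih =>
    intro a f h
    obtain ⟨C, hC⟩ := h (a * b :: l) (by simp)
    obtain ⟨⟨C1, h1⟩, e1⟩ := ih b (fun l' => f (a :: l')) fun l' hl' => h (a :: l') (by simp [hl'])
    have e : (fun y => D0 (a :: (b :: l ++ [y])) f) =
        fun y => -f (a * b :: l ++ [y]) + -D0 (b :: (l ++ [y])) (fun l' => f (a :: l')) := by
      funext y; rw [List.cons_append, D0_two, sub_eq_add_neg]; rfl
    obtain ⟨C2, h2⟩ := bd_neg hB hC
    obtain ⟨C3, h3⟩ := bd_neg hB h1
    rw [e]
    refine ⟨hB.add _ _ _ _ h2 h3, ?_⟩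
    rw [hρ.add _ _ _ _ h2 h3, rho_neg hρ hC, rho_neg hρ h1, e1, D0_two, List.length_cons, pow_succ]
    simp only [List.cons_append, mul_neg, mul_one, neg_smul]
    abel

lemma bml_rho (hρ : Rho Bd z ρ) : ∀ (k : ℕ) (C : ℝ) (f : List A → A), BML (k + 1) C f →
    (∀ l : List A, l.length = k → Bd (fun y => f (l ++ [y])) (C * nprod l)) →
    BML k C (fun l => ρ fun y => f (l ++ [y]))
  | 0, C, f, _, h => by simpa [BML] using hρ.norm _ _ (h [] rfl)
  | k + 1, C, f, hf, h => by
    refine ⟨fun l hl => ⟨fun x x' => ?_, fun c x => ?_⟩, fun a => ?_⟩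
    · beta_reduce
      rw [← hρ.add _ _ _ _ (h (x :: l) (by simp [hl])) (h (x' :: l) (by simp [hl]))]
      congr 1; funext y
      exact (hf.1 (l ++ [y]) (by simp [hl])).map_add x x'
    · beta_reduce
      rw [← hρ.smul c _ _ (h (x :: l) (by simp [hl]))]
      congr 1; funext y
      exact (hf.1 (l ++ [y]) (by simp [hl])).map_smul c x
    · refine bml_rho hρ k (C * ‖a‖) (fun l => f (a :: l)) (hf.2 a) fun l hl => ?_
      have := h (a :: l) (by simp [hl])
      rwa [nprod_cons, ← mul_assoc] at this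

end rho

lemma getD_cons {k : ℕ} (a : A) (l : List A) :
    (fun i : Fin (k + 1) => (a :: l).getD i 0) = Fin.cons a fun i : Fin k => l.getD i 0 := by
  funext i; refine Fin.cases ?_ (fun j => ?_) i <;> simp

lemma toList : ∀ (k : ℕ) (φ : MultilinearMap ℂ (fun _ : Fin k => A) A) (C : ℝ),
    (∀ v, ‖φ v‖ ≤ C * ∏ i, ‖v i‖) → BML k C (fun l => φ fun i => l.getD i 0)
  | 0, φ, C, h => by simpa [BML] using h fun i => ([] : List A).getD i 0
  | k + 1, φ, C, h => by
    refine ⟨fun l _ => ⟨fun x x' => ?_, fun c x => ?_⟩, fun a => ?_⟩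
    · simp only [getD_cons]; exact φ.cons_add _ x x'
    · simp only [getD_cons]; exact φ.cons_smul _ c x
    · have := toList k (φ.curryLeft a) (C * ‖a‖) fun v => by
        have := h (Fin.cons a v)
        rwa [Fin.prod_univ_succ, Fin.cons_zero, ← mul_assoc] at this
      simpa only [getD_cons, MultilinearMap.curryLeft_apply] using this

lemma merge_zero {k : ℕ} (a : Fin (k + 2) → A) :
    List.ofFn (mergeArgs (0 : Fin (k + 1)) a) =
      a 0 * a 1 :: List.ofFn fun i : Fin k => a i.succ.succ := by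
  rw [List.ofFn_succ]; simp [mergeArgs]

lemma merge_succ {k : ℕ} (j : Fin k) (a : Fin (k + 2) → A) :
    List.ofFn (mergeArgs j.succ a) = a 0 :: List.ofFn (mergeArgs j fun i => a i.succ) := by
  rw [List.ofFn_succ]
  congr 1
  congr 1; funext i
  simp [mergeArgs]

lemma D0_ofFn : ∀ (k : ℕ) (F : List A → A) (a : Fin (k + 1) → A),
    (∑ j : Fin k, ((-1 : ℤ) ^ (j.val + 1)) • F (List.ofFn (mergeArgs j a))) +
      ((-1 : ℤ) ^ (k + 1)) • (F (List.ofFn fun i : Fin k => a i.castSucc) * a (Fin.last k)) =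
      D0 (List.ofFn a) F
  | 0, F, a => by simp
  | k + 1, F, a => by
    have ih := D0_ofFn k (fun l => F (a 0 :: l)) fun i => a i.succ
    have e : List.ofFn a = a 0 :: a 1 :: List.ofFn fun i : Fin k => a i.succ.succ := by
      rw [List.ofFn_succ, List.ofFn_succ]; rfl
    have e2 : (List.ofFn fun i : Fin (k + 1) => a i.succ) =
        a 1 :: List.ofFn fun i : Fin k => a i.succ.succ := by rw [List.ofFn_succ]; rfl
    have e3 : (List.ofFn fun i : Fin (k + 1) => a i.castSucc) =
        a 0 :: List.ofFn fun i : Fin k => a i.castSucc.succ := by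
      rw [List.ofFn_succ]; rfl
    rw [e, D0_two, ← e2, ← ih, Fin.sum_univ_succ, merge_zero, e3]
    simp only [merge_succ, Fin.val_zero, Fin.val_succ, pow_succ (-1 : ℤ) (_ + 1), mul_neg, mul_one,
      neg_smul, Finset.sum_neg_distrib, zero_add, pow_one, one_smul, Fin.succ_last]
    abel

lemma hoch_ofFn (k : ℕ) (F : List A → A) (a : Fin (k + 1) → A) :
    hochschildDiff (fun v => F (List.ofFn v)) a = dd F (List.ofFn a) := by
  unfold hochschildDiff
  rw [add_assoc, D0_ofFn]
  conv_rhs => rw [List.ofFn_succ, dd_cons, ← List.ofFn_succ]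

lemma lin_update : ∀ (k : ℕ) (C : ℝ) (g : List A → A), BML k C g → ∀ (v : Fin k → A) (i : Fin k),
    IsLinearMap ℂ fun x => g (List.ofFn (Function.update v i x))
  | 0, _, _, _, _, i => i.elim0
  | k + 1, C, g, h, v, i => by
    refine Fin.cases ?_ (fun j => ?_) i
    · have : ∀ x, List.ofFn (Function.update v 0 x) = x :: List.ofFn fun i : Fin k => v i.succ :=
        fun x => by rw [List.ofFn_succ]; simp
      simp only [this]
      exact h.1 _ (by simp)
    · have : ∀ x, List.ofFn (Function.update v j.succ x) =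
          v 0 :: List.ofFn (Function.update (fun i : Fin k => v i.succ) j x) := fun x => by
        rw [List.ofFn_succ, Function.update_of_ne (Fin.succ_ne_zero j).symm]
        congr 2; funext i
        by_cases hi : i = j
        · subst hi; simp
        · simp [hi]
      simp only [this]
      exact lin_update k _ _ (h.2 (v 0)) _ j

lemma ofList (k : ℕ) (C : ℝ) (g : List A → A) (h : BML k C g) :
    ∃ G : ContinuousMultilinearMap ℂ (fun _ : Fin k => A) A, ∀ v, G v = g (List.ofFn v) := by
  let φ : MultilinearMap ℂ (fun _ : Fin k => A) A :=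
    MultilinearMap.mk' (fun v => g (List.ofFn v))
      (fun v i x y => (lin_update k C g h v i).map_add x y)
      (fun v i c x => (lin_update k C g h v i).map_smul c x)
  refine ⟨φ.mkContinuous C fun v => ?_, fun v => rfl⟩
  have := BML.norm_le (List.ofFn v) (C := C) (f := g) (by simpa using h)
  rwa [nprod, List.map_ofFn, List.prod_ofFn] at this

end Coc

open Coc

theorem ddStmt : DDStmt.{u} := by
  intro A _ _ g l hl
  match l, hl with
  | a :: b :: l, _ => exact dd_dd g a b l

theorem cocStmt : CocStmt.{u} := by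
  intro A _ _ Bd z ρ hB hρ k C f hf hb hd
  refine ⟨fun l => ((-1 : ℂ) ^ (k + 1)) • ρ fun y => f (l ++ [y]), _,
    (bml_rho hρ k C f hf hb).smul _, fun l hl => ?_⟩
  match l, hl with
  | a :: l, hl =>
    have hl' : l.length = k := by simpa using hl
    obtain ⟨⟨C1, h1⟩, e1⟩ := key hB hρ l a f fun l' h' => ⟨_, hb l' (h'.trans hl')⟩
    obtain ⟨C2, h2⟩ := hB.left a _ _ (hb l hl')
    have e0 : ρ (fun y => a * f (l ++ [y]) + D0 (a :: (l ++ [y])) f) = 0 := by
      have : (fun y => a * f (l ++ [y]) + D0 (a :: (l ++ [y])) f) = fun y => (0 : A) * y := by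
        funext y; rw [zero_mul, ← dd_cons]; exact hd _ (by simp [hl'])
      rw [this, hρ.mul, mul_zero]
    rw [hρ.add _ _ _ _ h2 h1, hρ.left a _ _ (hb l hl'), e1, ← add_assoc, hl'] at e0
    rw [dd_smul, dd_cons, eq_neg_of_add_eq_zero_left e0, smul_neg, smul_smul, ← neg_smul, pow_succ,
      mul_neg_one, neg_mul, neg_neg, ← mul_pow]
    simp

theorem bridgeStmt : BridgeStmt.{u} := by
  intro A _ _ n h f hf
  set F : List A → A := fun l => f fun i => l.getD i 0 with hF
  have hFf : ∀ v, F (List.ofFn v) = f v := fun v => by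
    simp only [hF]; congr 1; funext i
    rw [List.getD_eq_getElem _ _ (by simpa using i.2), List.getElem_ofFn]
  have h1 : BML (n + 1) ‖f‖ F := toList (n + 1) f.toMultilinearMap ‖f‖ fun v => f.le_opNorm v
  have h2 : ∀ l : List A, l.length = n + 2 → dd F l = 0 := fun l hl => by
    have e : l = List.ofFn fun i : Fin (n + 2) => l.getD i 0 := by
      apply List.ext_getElem (by simp [hl]); intro i h1 h2
      rw [List.getElem_ofFn, List.getD_eq_getElem _ _ h1]
    rw [e, ← hoch_ofFn]
    simp only [hFf]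
    exact hf _
  obtain ⟨g, C', hg, hd⟩ := h ‖f‖ F (norm_nonneg _) h1 h2
  obtain ⟨G, hG⟩ := ofList n C' g hg
  refine ⟨G, fun a => ?_⟩
  have : (G : (Fin n → A) → A) = fun v => g (List.ofFn v) := funext hG
  rw [this, hoch_ofFn, hd _ (by simp), one_mul, hFf]

end Crest.Agent.R121
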