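import Crest.Agent.R121.Core3

/-!
# Row 121, the core estimate
-/

set_option autoImplicit false
set_option linter.unusedSectionVars false

namespace Crest.Agent.R121.Core

open scoped InnerProductSpace ComplexOrder BigOperators _root_.Topology
open Finset Filter
open Crest.Agent.R124 (Phase expo)

universe u

section
variable {N : Type*} [CStarAlgebra N]
variable {K : Type*} [NormedAddCommGroup K] [InnerProductSpace ℂ K] {τ : N →ₗ[ℂ] ℂ}
  {Λ : N →ₗ[ℂ] K}
variable {ι : Type} [Fintype ι] [DecidableEq ι] {κ : Type} [Fintype κ] [Nonempty κ]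
variable {Ω : Type} [Fintype Ω] [Nonempty Ω] {D : ℕ} {l : Ω → ι → ℂ}
variable {e : ι → ι → N} {U : N} {γ : κ → N} {T : N → N} {C : ℝ}

lemma chain (hΛ : L2 τ Λ) (hS : Setup e γ T C) (hU : U ∈ unitary N) (hsp : InSpan e γ U)
    (hl : Phase D l) {J : ℕ} (hJ : J ≤ D) {η : ℝ} (hη : 0 < η) (hn0 : 0 < Fintype.card ι)
    (hn1 : 2 * J ≤ Fintype.card ι)
    (hn2 : (J : ℝ) ^ J * (J * (J * 2 ^ J) / Fintype.card ι) ≤ η ^ 2) {δ : ℝ} (hδ : 0 < δ) :
    ∀ᶠ m in atTop, ∀ (W : Type) [Fintype W] [Nonempty W] (val : W → N), Walk e γ m val →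
      ∀ (α : Equiv.Perm ι) (j : ℕ), j < J →
        ‖𝔼 π : Equiv.Perm ι, 𝔼 g : ι → W, 𝔼 ω,
          Ph τ T ((U * tt e α π (fun a => val (g a)) (l ω)) ^ (j + 1)) - Ph τ T U‖ ≤
            J * (8 * C * η + δ) ∧
        ‖𝔼 π : Equiv.Perm ι, 𝔼 g : ι → W, 𝔼 ω,
          Ph τ T ((U * tt e α π (fun a => val (g a)) (l ω)) ^ (j + 1) * U) - Ph τ T U‖ ≤
            J * (8 * C * η + δ) := by
  have hn : (0 : ℝ) < Fintype.card ι := by exact_mod_cast hn0
  have hC := hS.bl.nonneg
  have hg := (eventually_all_finset (range J)).2 fun j _ => good hΛ hS hU hsp (Nat.succ_pos j)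
    (δ := δ / ((Fintype.card ι : ℝ) ^ (j + 1) * (Fintype.card ι : ℝ) ^ (j + 1))) (by positivity)
  filter_upwards [hg] with m hm W _ _ val hW α
  set a : ℕ → ℂ := fun j => 𝔼 π : Equiv.Perm ι, 𝔼 g : ι → W, 𝔼 ω,
    Ph τ T ((U * tt e α π (fun a => val (g a)) (l ω)) ^ j * U) with ha
  set b : ℕ → ℂ := fun j => 𝔼 π : Equiv.Perm ι, 𝔼 g : ι → W, 𝔼 ω,
    Ph τ T ((U * tt e α π (fun a => val (g a)) (l ω)) ^ j) with hb
  have ha0 : a 0 = Ph τ T U := by simp [ha]
  have hbad : ∀ i j, i ≤ J → j < J → η⁻¹ * ((i : ℝ) ^ i * 𝔼 π : Equiv.Perm ι, 𝔼 g : ι → W,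
      bad Λ e U α π (fun a => val (g a)) (j + 1)) ≤ η := by
    intro i j hi hj
    rw [Finset.expect_comm, inv_mul_le_iff₀ hη, ← sq]
    refine le_trans ?_ hn2
    have hJ1 : (1 : ℝ) ≤ J := by exact_mod_cast (by omega : 1 ≤ J)
    have hi' : (i : ℝ) ≤ J := by exact_mod_cast hi
    have hj' : ((j + 1 : ℕ) : ℝ) ≤ J := by exact_mod_cast hj
    refine mul_le_mul ((pow_le_pow_left₀ (by positivity) hi' i).trans (pow_le_pow_right₀ hJ1 hi))
      (Finset.expect_le (univ_nonempty (α := ι → W)) fun g _ => ?_)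
      (Finset.expect_nonneg fun _ _ => Finset.expect_nonneg fun _ _ =>
        Finset.sum_nonneg fun _ _ => sq_nonneg _) (by positivity)
    refine (bad_le hΛ hS.mu hU (fun c => hW.comm _) (fun c => hW.unit _) α (j + 1) (by omega)
      hn0).trans ?_
    gcongr
    · norm_num
    · omega
  have hP : ∀ j < J, ‖b (j + 1) - a j‖ ≤ 4 * C * η := by
    intro j hj
    simp only [ha, hb]
    rw [← Finset.expect_sub_distrib]
    refine (norm_expect_le' _).trans ((Finset.expect_le_expect fun π _ =>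
      stepP hΛ hS hU hW hl (j := j) (by omega) α π hη).trans ?_)
    rw [← Finset.mul_expect, Finset.expect_add_distrib, Finset.expect_const univ_nonempty,
      ← Finset.mul_expect, ← Finset.mul_expect]
    have := hbad j j hj.le hj
    nlinarith
  have hM : ∀ j < J, ‖a (j + 1) - b (j + 1)‖ ≤ 4 * C * η + δ := by
    intro j hj
    simp only [ha, hb]
    rw [← Finset.expect_sub_distrib]
    refine (norm_expect_le' _).trans ((Finset.expect_le_expect fun π _ =>
      stepM hΛ hS hU hW hl (j := j + 1) (by omega) α π hη (by positivity)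
        (hm j (mem_range.2 hj) W val hW α π)).trans ?_)
    rw [Finset.expect_add_distrib, Finset.expect_const univ_nonempty, ← Finset.mul_expect,
      Finset.expect_add_distrib, Finset.expect_const univ_nonempty,
      ← Finset.mul_expect, ← Finset.mul_expect, mul_div_cancel₀ _ (by positivity)]
    have := hbad (j + 1) j hj hj
    nlinarith
  have hE : 0 ≤ 8 * C * η + δ := by positivity
  have hA : ∀ j ≤ J, ‖a j - a 0‖ ≤ j * (8 * C * η + δ) := by
    intro j hj
    induction j with
    | zero => simp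
    | succ j ih =>
      have h1 := norm_sub_le_norm_sub_add_norm_sub (a (j + 1)) (b (j + 1)) (a 0)
      have h2 := norm_sub_le_norm_sub_add_norm_sub (b (j + 1)) (a j) (a 0)
      have := ih (by omega)
      have := hP j hj
      have := hM j hj
      push_cast
      linarith
  intro j hj
  have hj' : (j : ℝ) + 1 ≤ J := by exact_mod_cast hj
  rw [← ha0]
  constructor
  · have h2 := norm_sub_le_norm_sub_add_norm_sub (b (j + 1)) (a j) (a 0)
    have := hA j hj.le
    have := hP j hj
    have := mul_le_mul_of_nonneg_right hj' hE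
    have : 0 ≤ C * η := by positivity
    change ‖b (j + 1) - a 0‖ ≤ _
    linarith
  · refine (hA (j + 1) hj).trans ?_
    push_cast
    gcongr

lemma setup_conj (hS : Setup e γ T C) (hU : U ∈ unitary N) :
    Setup e γ (fun y => star U * T (U * y)) C where
  mu := hS.mu
  unit := hS.unit
  comm := hS.comm
  symm := hS.symm
  bl := ((hS.bl.right U).left (star U)).mono (by
    have h1 := norm_unitary_le hU
    have h0 := hS.bl.nonneg
    rw [norm_star]
    exact (mul_le_of_le_one_left (by positivity) h1).trans (mul_le_of_le_one_right h0 h1))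
  mod := fun y a b => by rw [← mul_assoc, hS.mod, mul_assoc]
  harm := fun y => by
    have := congrArg (fun x => star U * x) (hS.harm (U * y))
    simpa only [Finset.mul_sum, mul_smul_comm, mul_assoc] using this

lemma back (hτ : Tr τ) (hU : U ∈ unitary N) (T : N → N) (t : N) (j : ℕ) :
    τ (T (star (U * t) ^ j) * (U * t) ^ j) =
      Ph τ (fun y => star U * T (U * y)) ((star U * star t) ^ j * star U) := by
  have h1 : U * ((star U * star t) ^ j * star U) = star (U * t) ^ j := by
    have : star (U * t) = U * (star U * star t) * star U := by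
      rw [← mul_assoc, Unitary.mul_star_self_of_mem hU, one_mul, star_mul]
    rw [this, ← mul_assoc]
    induction j with
    | zero => simp [Unitary.mul_star_self_of_mem hU]
    | succ j ih =>
      rw [pow_succ, pow_succ, ← ih]
      simp only [mul_assoc, ← mul_assoc (star U) U, Unitary.star_mul_self_of_mem hU, one_mul]
  have h2 : (U * t) ^ j = star ((star U * star t) ^ j * star U) * star U := by
    rw [← star_mul, h1, ← star_pow, star_star]
  rw [Ph, h1, h2, mul_assoc, hτ.trace (star U), mul_assoc]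

end

theorem _root_.Crest.Agent.R121.coreStmt_of (h : FourierStmt.{u}) : CoreStmt.{u} := by
  obtain ⟨K, hK⟩ := h
  intro ε hε
  obtain ⟨J, c, hc0, hL, hF⟩ := hK (2 * (|K| + 1) / ε)
  set s := ∑ j ∈ range J, c j
  have hs : 0 < s := lt_of_lt_of_le (by positivity) hL
  set η := ε / (32 * (J + 1))
  have hη : 0 < η := by positivity
  obtain ⟨n₁, hn₁⟩ := exists_nat_ge ((J : ℝ) ^ J * (J * (J * 2 ^ J)) / η ^ 2)
  refine ⟨n₁ + 2 * J + 1, fun N _ τ hτ ι κ _ _ _ _ e γ T C hn hS U hU h1 h2 => ?_⟩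
  obtain ⟨E, _, _, Λ, hΛ⟩ := exists_L2 hτ
  obtain ⟨Ω, _, _, l, hl⟩ := R124.exists_phase ι J
  have hC := hS.bl.nonneg
  have hn0 : 0 < Fintype.card ι := by omega
  have hn0' : (0 : ℝ) < Fintype.card ι := by exact_mod_cast hn0
  have hn2 : (J : ℝ) ^ J * (J * (J * 2 ^ J) / Fintype.card ι) ≤ η ^ 2 := by
    have : (n₁ : ℝ) ≤ Fintype.card ι := by exact_mod_cast (by omega : n₁ ≤ Fintype.card ι)
    have h3 := hn₁.trans this
    rw [div_le_iff₀ (by positivity)] at h3
    rw [← mul_div_assoc, div_le_iff₀ hn0', mul_comm (η ^ 2)]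
    exact h3
  have hU' := Unitary.star_mem hU
  refine le_of_forall_pos_le_add fun δ hδ => ?_
  have hδ' : 0 < δ / (2 * (J + 1)) := by positivity
  obtain ⟨m, hm1, hm2⟩ := ((chain hΛ hS hU h1 hl le_rfl hη hn0 (by omega) hn2 hδ').and
    (chain hΛ (setup_conj hS hU) hU' h2 hl.conj le_rfl hη hn0 (by omega) hn2 hδ')).exists
  obtain ⟨W, _, _, val, hW, hW'⟩ := exists_walk hS m
  set B : ℝ := J * (8 * C * η + δ / (2 * (J + 1)))
  set S : Equiv.Perm ι → Equiv.Perm ι → (ι → W) → Ω → N := fun α π g ω =>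
    U * tt e α π (fun a => val (g a)) (l ω) with hSdef
  have hSu : ∀ α π g ω, S α π g ω ∈ unitary N := fun α π g ω =>
    mul_mem hU (tt_unitary hS.mu (fun c => hW.comm _) (fun c => hW.unit _) α π (hl.norm ω))
  set p : ℕ → ℂ := fun j => 𝔼 α, 𝔼 π, 𝔼 g, 𝔼 ω,
    τ (T (S α π g ω ^ (j + 1)) * star (S α π g ω) ^ (j + 1)) with hp
  set q : ℕ → ℂ := fun j => 𝔼 α, 𝔼 π, 𝔼 g, 𝔼 ω,
    τ (T (star (S α π g ω) ^ (j + 1)) * S α π g ω ^ (j + 1)) with hq
  have hp' : ∀ j < J, ‖p j - τ (T U * star U)‖ ≤ B := by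
    intro j hj
    rw [hp, ← Finset.expect_const (univ_nonempty (α := Equiv.Perm ι)) (τ (T U * star U)),
      ← Finset.expect_sub_distrib]
    refine (norm_expect_le' _).trans
      (Finset.expect_le (univ_nonempty (α := Equiv.Perm ι)) fun α _ => ?_)
    simpa only [Ph, star_pow] using (hm1 W val hW α j hj).1
  have hq' : ∀ j < J, ‖q j - τ (T 1)‖ ≤ B := by
    intro j hj
    have e0 : τ (T 1) = Ph τ (fun y => star U * T (U * y)) (star U) := by
      simpa using back hτ hU T 1 0
    simp only [hq]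
    rw [Finset.expect_comm,
      ← Finset.expect_const (univ_nonempty (α := Equiv.Perm ι)) (τ (T 1)),
      ← Finset.expect_sub_distrib]
    refine (norm_expect_le' _).trans
      (Finset.expect_le (univ_nonempty (α := Equiv.Perm ι)) fun π _ => ?_)
    have := (hm2 W (fun w => star (val w)) hW' π j hj).2
    simp only [hSdef, back hτ hU, star_tt hS.mu (fun c => hW.comm _), e0]
    exact this
  have hpq : ‖∑ j ∈ range J, (c j : ℂ) * (p j - q j)‖ ≤ K * C := by
    simp only [hp, hq, ← Finset.expect_sub_distrib, Finset.mul_expect, ← Finset.expect_sum_comm]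
    refine (norm_expect_le' _).trans
      (Finset.expect_le (univ_nonempty (α := Equiv.Perm ι)) fun α _ => ?_)
    refine (norm_expect_le' _).trans
      (Finset.expect_le (univ_nonempty (α := Equiv.Perm ι)) fun π _ => ?_)
    refine (norm_expect_le' _).trans
      (Finset.expect_le (univ_nonempty (α := ι → W)) fun g _ => ?_)
    refine (norm_expect_le' _).trans
      (Finset.expect_le (univ_nonempty (α := Ω)) fun ω _ => ?_)
    exact hF N τ hτ T C hS.bl _ (hSu α π g ω)
  set d := τ (T U * star U) - τ (T 1)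
  have h3 : (s : ℂ) * d = ∑ j ∈ range J, (c j : ℂ) * (p j - q j) +
      ∑ j ∈ range J, (c j : ℂ) * ((q j - τ (T 1)) - (p j - τ (T U * star U))) := by
    simp only [s, Complex.ofReal_sum, Finset.sum_mul, ← Finset.sum_add_distrib, d]
    exact Finset.sum_congr rfl fun j _ => by ring
  have h4 : ‖∑ j ∈ range J, (c j : ℂ) * ((q j - τ (T 1)) - (p j - τ (T U * star U)))‖ ≤
      s * (2 * B) := by
    simp only [s, Finset.sum_mul]
    refine (norm_sum_le _ _).trans (Finset.sum_le_sum fun j hj => ?_)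
    rw [norm_mul, Complex.norm_real, Real.norm_of_nonneg (hc0 j)]
    refine mul_le_mul_of_nonneg_left ((norm_sub_le _ _).trans ?_) (hc0 j)
    have := hp' j (mem_range.1 hj)
    have := hq' j (mem_range.1 hj)
    linarith
  have h5 : s * ‖d‖ ≤ K * C + s * (2 * B) := by
    have := (norm_add_le _ _).trans (add_le_add hpq h4)
    rwa [← h3, norm_mul, Complex.norm_real, Real.norm_of_nonneg hs.le] at this
  have h6 : K * C ≤ s * (ε / 2 * C) := by
    rw [div_le_iff₀ hε] at hL
    have := le_abs_self K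
    nlinarith
  have h7 : 2 * B ≤ ε / 2 * C + δ := by
    have hJ : (J : ℝ) / (J + 1) ≤ 1 := by rw [div_le_one (by positivity)]; linarith
    have : 2 * B = J / (J + 1) * (ε / 2 * C + δ) := by
      simp only [B, η]; field_simp; ring
    rw [this]
    exact mul_le_of_le_one_left (by positivity) hJ
  refine le_of_mul_le_mul_left ?_ hs
  nlinarith

end Crest.Agent.R121.Core
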