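import Crest.Agent.R121.Basic
import Crest.Agent.R124.Phase
import Crest.Agent.R124.Dil

/-!
# Row 121, core estimate, part 1: `L²` norm, ordered products, random walks
-/

set_option autoImplicit false
set_option linter.unusedSectionVars false

namespace Crest.Agent.R121.Core

open scoped InnerProductSpace ComplexOrder BigOperators _root_.Topology
open Finset Filter

universe u

variable {N : Type*} [CStarAlgebra N]

/-! ### the trace norm -/

structure L2 {K : Type*} [NormedAddCommGroup K] [InnerProductSpace ℂ K] (τ : N →ₗ[ℂ] ℂ)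
    (Λ : N →ₗ[ℂ] K) : Prop where
  tr : Tr τ
  inner : ∀ x y, ⟪Λ x, Λ y⟫_ℂ = τ (star x * y)
  left : ∀ a x, ‖Λ (a * x)‖ ≤ ‖a‖ * ‖Λ x‖

theorem exists_L2 {N : Type u} [CStarAlgebra N] {τ : N →ₗ[ℂ] ℂ} (h : Tr τ) :
    ∃ (K : Type u) (_ : NormedAddCommGroup K) (_ : InnerProductSpace ℂ K) (Λ : N →ₗ[ℂ] K),
      L2 τ Λ := by
  obtain ⟨K, _, _, _, ρ, Λ, -, h1, h2⟩ := R124.Dil.exists_gns τ h.pos
  have hre : ∀ a, τ (star a * a) = ((‖Λ a‖ ^ 2 : ℝ) : ℂ) := fun a => by
    rw [h2]
    exact Complex.ext (by simp) (by simpa using (h.pos a).2.symm)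
  refine ⟨K, inferInstance, inferInstance, Λ, h, fun x y => ?_, fun a x => ?_⟩
  · have e1 := hre (x + y)
    have e2 := hre (x - y)
    have e3 := hre (x - Complex.I • y)
    have e4 := hre (x + Complex.I • y)
    rw [inner_eq_sum_norm_sq_div_four]
    simp only [map_add, map_sub, map_smul, star_add, star_sub, star_smul, mul_add, add_mul, mul_sub,
      sub_mul, smul_mul_assoc, mul_smul_comm, smul_eq_mul, RCLike.star_def, Complex.conj_I] at e1 e2 e3 e4
    push_cast at e1 e2 e3 e4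
    simp only [RCLike.I_to_complex, Complex.coe_algebraMap]
    rw [← e1, ← e2, ← e3, ← e4]
    linear_combination (-(τ (star x * y)) / 2 + τ (star y * x) / 2) * Complex.I_mul_I
  · rw [← h1]
    exact ((ρ a).le_opNorm _).trans (by gcongr; exact NonUnitalStarAlgHom.norm_apply_le ρ a)

section L2
variable {K : Type*} [NormedAddCommGroup K] [InnerProductSpace ℂ K] {τ : N →ₗ[ℂ] ℂ}
  {Λ : N →ₗ[ℂ] K}

lemma L2.sq (h : L2 τ Λ) (x : N) : ((‖Λ x‖ ^ 2 : ℝ) : ℂ) = τ (star x * x) := by
  rw [← h.inner, inner_self_eq_norm_sq_to_K]; norm_cast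

lemma L2.star (h : L2 τ Λ) (x : N) : ‖Λ (star x)‖ = ‖Λ x‖ := by
  have : ((‖Λ (Star.star x)‖ ^ 2 : ℝ) : ℂ) = ((‖Λ x‖ ^ 2 : ℝ) : ℂ) := by
    rw [h.sq, h.sq, star_star, h.tr.trace]
  have h2 : ‖Λ (Star.star x)‖ ^ 2 = ‖Λ x‖ ^ 2 := by exact_mod_cast this
  exact (pow_left_inj₀ (norm_nonneg _) (norm_nonneg _) two_ne_zero).1 h2

lemma L2.right (h : L2 τ Λ) (x a : N) : ‖Λ (x * a)‖ ≤ ‖Λ x‖ * ‖a‖ := by
  rw [← h.star, star_mul, mul_comm, ← h.star x, ← norm_star a]
  exact h.left _ _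

lemma L2.one (h : L2 τ Λ) : ‖Λ 1‖ = 1 := by
  have := h.sq 1
  rw [star_one, mul_one, h.tr.one] at this
  have h2 : ‖Λ 1‖ ^ 2 = 1 ^ 2 := by rw [one_pow]; exact_mod_cast this
  exact (pow_left_inj₀ (norm_nonneg _) zero_le_one two_ne_zero).1 h2

lemma L2.le (h : L2 τ Λ) (x : N) : ‖Λ x‖ ≤ ‖x‖ := by
  simpa [h.one] using h.left x 1

lemma L2.cs (h : L2 τ Λ) (x y : N) : ‖τ (x * Star.star y)‖ ≤ ‖Λ x‖ * ‖Λ y‖ := by
  rw [h.tr.trace, ← h.inner, mul_comm]; exact norm_inner_le_norm _ _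

lemma L2.uleft (h : L2 τ Λ) {u : N} (hu : u ∈ unitary N) (x : N) : ‖Λ (u * x)‖ = ‖Λ x‖ := by
  have : ((‖Λ (u * x)‖ ^ 2 : ℝ) : ℂ) = ((‖Λ x‖ ^ 2 : ℝ) : ℂ) := by
    rw [h.sq, h.sq, star_mul, mul_assoc, ← mul_assoc (Star.star u),
      Unitary.star_mul_self_of_mem hu, one_mul]
  have h2 : ‖Λ (u * x)‖ ^ 2 = ‖Λ x‖ ^ 2 := by exact_mod_cast this
  exact (pow_left_inj₀ (norm_nonneg _) (norm_nonneg _) two_ne_zero).1 h2

lemma L2.uright (h : L2 τ Λ) {u : N} (hu : u ∈ unitary N) (x : N) : ‖Λ (x * u)‖ = ‖Λ x‖ := by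
  rw [← h.star, star_mul, h.uleft (Unitary.star_mem hu), h.star]

variable {ι : Type} [Fintype ι] [DecidableEq ι] {e : ι → ι → N}

lemma _root_.Crest.Agent.R121.MU.same {o : N} (h : MU e o) (a b d : ι) :
    e a b * e b d = e a d := by simp [h.mul]

lemma _root_.Crest.Agent.R121.MU.ne {o : N} (h : MU e o) (a : ι) {b c : ι} (d : ι) (hbc : b ≠ c) :
    e a b * e c d = 0 := by simp [h.mul, hbc]

lemma _root_.Crest.Agent.R121.MU.norm_le {o : N} (h : MU e o) (a b : ι) : ‖e a b‖ ≤ 1 := by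
  have hp : IsStarProjection (e b b) := ⟨h.same _ _ _, h.star _ _⟩
  have h1 : ‖e a b‖ * ‖e a b‖ = ‖e b b‖ := by
    rw [← CStarRing.norm_star_mul_self, h.star, h.same]
  have := hp.norm_le
  nlinarith [norm_nonneg (e a b)]

lemma L2.mu_left (h : L2 τ Λ) (he : MU e 1) (a b : ι) (x : N) :
    ‖Λ (e a b * x)‖ ^ 2 = ‖Λ (e b b * x)‖ ^ 2 := by
  have : ((‖Λ (e a b * x)‖ ^ 2 : ℝ) : ℂ) = ((‖Λ (e b b * x)‖ ^ 2 : ℝ) : ℂ) := by
    rw [h.sq, h.sq, star_mul, star_mul, he.star, he.star, mul_assoc, mul_assoc, ← mul_assoc (e b a),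
      ← mul_assoc (e b b), he.same, he.same]
  exact_mod_cast this

lemma L2.mu_right (h : L2 τ Λ) (he : MU e 1) (a b : ι) (x : N) :
    ‖Λ (x * e a b)‖ ^ 2 = ‖Λ (x * e a a)‖ ^ 2 := by
  rw [← h.star, ← h.star (x * e a a), star_mul, star_mul, he.star, he.star, h.mu_left he]

lemma L2.mu_sum (h : L2 τ Λ) (he : MU e 1) (x : N) :
    ∑ b, ‖Λ (e b b * x)‖ ^ 2 = ‖Λ x‖ ^ 2 := by
  have : ((∑ b, ‖Λ (e b b * x)‖ ^ 2 : ℝ) : ℂ) = ((‖Λ x‖ ^ 2 : ℝ) : ℂ) := by
    rw [Complex.ofReal_sum]
    simp only [h.sq, star_mul, he.star]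
    rw [← map_sum]
    congr 1
    simp only [mul_assoc, ← mul_assoc (e _ _) (e _ _), he.same, ← Finset.mul_sum, ← Finset.sum_mul,
      he.sum, one_mul]
  exact_mod_cast this

lemma L2.mu_sum_right (h : L2 τ Λ) (he : MU e 1) (x : N) :
    ∑ b, ‖Λ (x * e b b)‖ ^ 2 = ‖Λ x‖ ^ 2 := by
  rw [← h.star x, ← h.mu_sum he]
  refine Finset.sum_congr rfl fun b _ => ?_
  rw [← h.star, star_mul, he.star]

lemma L2.mu_sq (h : L2 τ Λ) (he : MU e 1) (a : ι) :
    ‖Λ (e a a)‖ ^ 2 = (Fintype.card ι : ℝ)⁻¹ := by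
  have h1 : ∀ b, ‖Λ (e b b)‖ ^ 2 = ‖Λ (e a a)‖ ^ 2 := fun b => by
    have h2 := h.mu_left he a b 1
    have h3 := h.mu_right he a b 1
    simp only [mul_one, one_mul] at h2 h3
    rw [← h2, h3]
  have h2 := h.mu_sum he 1
  simp only [mul_one, h1, h.one, Finset.sum_const, Finset.card_univ, nsmul_eq_mul, one_pow] at h2
  exact eq_inv_of_mul_eq_one_right h2

end L2

/-! ### ordered products -/

/-- the product `v (j-1) ⋯ v 0` -/
def op : (j : ℕ) → (Fin j → N) → N
  | 0, _ => 1
  | j + 1, v => op j (Fin.tail v) * v 0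

@[simp] lemma op_zero (v : Fin 0 → N) : op 0 v = 1 := rfl
lemma op_succ (j : ℕ) (v : Fin (j + 1) → N) : op (j + 1) v = op j (fun i => v i.succ) * v 0 := rfl

lemma op_const (j : ℕ) (x : N) : op j (fun _ => x) = x ^ j := by
  induction j with
  | zero => simp
  | succ j ih => rw [op_succ, ih, pow_succ]

lemma sum_succ {X M : Type*} [Fintype X] [AddCommMonoid M] {j : ℕ} (F : (Fin (j + 1) → X) → M) :
    ∑ p, F p = ∑ q : Fin j → X, ∑ x, F (Fin.cons x q) := by
  rw [← (Fin.consEquiv fun _ => X).sum_comp, Fintype.sum_prod_type_right]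
  rfl

lemma op_sum {X : Type*} [Fintype X] (j : ℕ) (F : Fin j → X → N) :
    op j (fun i => ∑ x, F i x) = ∑ q : Fin j → X, op j (fun i => F i (q i)) := by
  induction j with
  | zero => simp
  | succ j ih =>
    rw [op_succ, ih (fun i => F i.succ), sum_succ, Finset.sum_mul]
    refine Finset.sum_congr rfl fun q _ => ?_
    rw [Finset.mul_sum]
    refine Finset.sum_congr rfl fun x _ => ?_
    simp [op_succ]

lemma op_smul (j : ℕ) (c : Fin j → ℂ) (v : Fin j → N) :
    op j (fun i => c i • v i) = (∏ i, c i) • op j v := by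
  induction j with
  | zero => simp
  | succ j ih =>
    rw [op_succ, ih (fun i => c i.succ), Fin.prod_univ_succ, op_succ, smul_mul_smul_comm, mul_comm]

lemma op_mem (S : Submonoid N) (j : ℕ) (v : Fin j → N) (h : ∀ i, v i ∈ S) : op j v ∈ S := by
  induction j with
  | zero => exact S.one_mem
  | succ j ih => exact S.mul_mem (ih _ fun i => h _) (h 0)

lemma op_commute (j : ℕ) (v : Fin j → N) {x : N} (h : ∀ i, Commute (v i) x) :
    Commute (op j v) x := by
  induction j with
  | zero => exact Commute.one_left _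
  | succ j ih => exact (ih _ fun i => h _).mul_left (h 0)

lemma op_mul (j : ℕ) (w m : Fin j → N) (h : ∀ i i', Commute (m i) (w i')) :
    op j (fun i => w i * m i) = op j w * op j m := by
  induction j with
  | zero => simp
  | succ j ih =>
    rw [op_succ, ih (fun i => w i.succ) (fun i => m i.succ) fun i i' => h _ _, op_succ, op_succ,
      mul_assoc, mul_assoc, ← mul_assoc (op j _) (w 0), (op_commute j _ fun i => h _ 0).eq,
      mul_assoc]

lemma norm_one_le : ‖(1 : N)‖ ≤ 1 := norm_unitary_le (one_mem _)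

lemma op_norm_le (j : ℕ) (v : Fin j → N) (h : ∀ i, ‖v i‖ ≤ 1) : ‖op j v‖ ≤ 1 := by
  induction j with
  | zero => exact norm_one_le
  | succ j ih =>
    exact (norm_mul_le _ _).trans (mul_le_one₀ (ih _ fun i => h _) (norm_nonneg _) (h 0))

lemma pow_eq_sum {X : Type*} [Fintype X] (j : ℕ) (c : X → ℂ) (L : X → N) :
    (∑ x, c x • L x) ^ j = ∑ p : Fin j → X, (∏ i, c (p i)) • op j (fun i => L (p i)) := by
  rw [← op_const, op_sum]
  exact Finset.sum_congr rfl fun p _ => op_smul j _ _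

/-! ### random walks -/

section walk
variable {κ : Type} [Fintype κ] [Nonempty κ]

/-- one step of the walk -/
noncomputable def Pav {E : Type} [AddCommMonoid E] [Module ℚ≥0 E] (γ : κ → N) (F : N → E) :
    N → E := fun x => 𝔼 k, F (x * γ k)

structure Walk {ι W : Type} [Fintype W] (e : ι → ι → N) (γ : κ → N) (m : ℕ) (val : W → N) :
    Prop where
  avgR : ∀ (F : N → ℝ) x, 𝔼 w, F (x * val w) = (Pav γ)^[m] F x
  avgC : ∀ (F : N → ℂ) x, 𝔼 w, F (x * val w) = (Pav γ)^[m] F x
  unit : ∀ w, val w ∈ unitary N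
  comm : ∀ w a b, Commute (val w) (e a b)

lemma expect_succ {X E : Type} [Fintype X] [AddCommMonoid E] [Module ℚ≥0 E] {j : ℕ}
    (F : (Fin (j + 1) → X) → E) : 𝔼 p, F p = 𝔼 q : Fin j → X, 𝔼 x, F (Fin.cons x q) := by
  rw [← Finset.expect_product' (f := fun (q : Fin j → X) (x : X) => F (Fin.cons x q)),
    Finset.univ_product_univ]
  exact (Finset.expect_equiv ((Equiv.prodComm _ _).trans (Fin.consEquiv fun _ => X)) (by simp)
    (fun p _ => rfl)).symm

lemma avg_fwd {E : Type} [AddCommMonoid E] [Module ℚ≥0 E] (γ : κ → N) (m : ℕ) :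
    ∀ (F : N → E) x, 𝔼 w : Fin m → κ, F (x * op m (fun i => γ (w i))) = (Pav γ)^[m] F x := by
  induction m with
  | zero => intro F x; simp
  | succ m ih =>
    intro F x
    rw [expect_succ, Function.iterate_succ_apply, ← ih]
    refine Finset.expect_congr rfl fun q _ => ?_
    simp [Pav, op_succ, mul_assoc]

lemma avg_bwd {E : Type} [AddCommMonoid E] [Module ℚ≥0 E] (γ : κ → N) {σ : κ → κ}
    (hσ : Function.Involutive σ) (hγ : ∀ k, γ (σ k) = star (γ k)) (m : ℕ) :
    ∀ (F : N → E) x,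
      𝔼 w : Fin m → κ, F (x * star (op m (fun i => γ (w i)))) = (Pav γ)^[m] F x := by
  induction m with
  | zero => intro F x; simp
  | succ m ih =>
    intro F x
    rw [expect_succ, Function.iterate_succ_apply', Finset.expect_comm, Pav]
    refine Finset.expect_equiv hσ.toPerm (by simp) fun k _ => ?_
    rw [← ih]
    refine Finset.expect_congr rfl fun q _ => ?_
    simp [op_succ, mul_assoc, hγ]

theorem exists_walk {ι : Type} [Fintype ι] [DecidableEq ι] {e : ι → ι → N} {γ : κ → N}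
    {T : N → N} {C : ℝ} (h : Setup e γ T C) (m : ℕ) :
    ∃ (W : Type) (_ : Fintype W) (_ : Nonempty W) (val : W → N),
      Walk e γ m val ∧ Walk e γ m (fun w => star (val w)) := by
  obtain ⟨σ, hσ, hγ⟩ := h.symm
  have hu : ∀ w : Fin m → κ, op m (fun i => γ (w i)) ∈ unitary N := fun w =>
    op_mem _ _ _ fun i => h.unit _
  have hc : ∀ (w : Fin m → κ) a b, Commute (op m (fun i => γ (w i))) (e a b) := fun w a b =>
    op_commute _ _ fun i => h.comm _ a b
  refine ⟨Fin m → κ, inferInstance, inferInstance, fun w => op m (fun i => γ (w i)),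
    ⟨avg_fwd γ m, avg_fwd γ m, hu, hc⟩,
    ⟨avg_bwd γ hσ hγ m, avg_bwd γ hσ hγ m, fun w => Unitary.star_mem (hu w), fun w a b => ?_⟩⟩
  rw [← h.mu.star b a]; exact (hc w b a).star_star

lemma pav_mono (γ : κ → N) : Monotone (Pav (E := ℝ) γ) := fun _ _ h _ =>
  Finset.expect_le_expect fun _ _ => h _

lemma pav_iter_nonneg (γ : κ → N) (m : ℕ) {F : N → ℝ} (hF : ∀ x, 0 ≤ F x) (x : N) :
    0 ≤ (Pav γ)^[m] F x := by
  induction m generalizing x with
  | zero => exact hF x
  | succ m ih => rw [Function.iterate_succ_apply']; exact Finset.expect_nonneg fun _ _ => ih _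

lemma le_card_pav (γ : κ → N) {F : N → ℝ} (hF : ∀ x, 0 ≤ F x) (x : N) (k : κ) :
    F (x * γ k) ≤ Fintype.card κ * Pav γ F x := by
  rw [Pav, Finset.expect_eq_sum_div_card, Finset.card_univ, mul_div_cancel₀ _ (by positivity)]
  exact Finset.single_le_sum (f := fun k => F (x * γ k)) (fun _ _ => hF _) (mem_univ k)

/-- independence of one coordinate -/
lemma expect_indep {ι W E : Type} [Fintype ι] [DecidableEq ι] [Fintype W] [Nonempty W]
    [AddCommMonoid E] [Module ℚ≥0 E] (a : ι)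
    (F : (ι → W) → W → E) (hF : ∀ v w, F (Function.update v a w) = F v) :
    𝔼 v : ι → W, F v (v a) = 𝔼 v : ι → W, 𝔼 w, F v w := by
  let τ : (ι → W) × W → (ι → W) × W := fun p => (Function.update p.1 a p.2, p.1 a)
  have hτ : Function.Involutive τ := by
    rintro ⟨v, w⟩
    simp [τ]
  have h1 : 𝔼 p : (ι → W) × W, F (τ p).1 (τ p).2 = 𝔼 p : (ι → W) × W, F p.1 p.2 :=
    Finset.expect_equiv hτ.toPerm (by simp) (fun p _ => rfl)
  rw [← Finset.univ_product_univ, Finset.expect_product, Finset.expect_product] at h1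
  rw [← h1]
  refine Finset.expect_congr rfl fun v _ => ?_
  simp only [τ, hF]
  rw [Finset.expect_const univ_nonempty]

/-- words made of fixed letters and independent walks are dominated by a long walk -/
lemma walk_dom {ι W : Type} [Fintype ι] [DecidableEq ι] [Fintype W] [Nonempty W]
    {e : ι → ι → N} {γ : κ → N} {m : ℕ} {val : W → N} (hW : Walk e γ m val) (j : ℕ) :
    ∀ (p : Fin j → ι) (q : Fin j → κ), Function.Injective p → ∀ F : N → ℝ, (∀ x, 0 ≤ F x) →
      𝔼 g : ι → W, F (op j fun i => γ (q i) * val (g (p i))) ≤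
        (Fintype.card κ : ℝ) ^ j * (Pav γ)^[j * (m + 1)] F 1 := by
  induction j with
  | zero => intro p q _ F _; simp
  | succ j ih =>
    intro p q hp F hF
    have h1 := expect_indep (p 0) (fun (g : ι → W) w =>
      F (op j (fun i => γ (q i.succ) * val (g (p i.succ))) * γ (q 0) * val w)) (by
        intro g w; funext w'
        congr 4; funext i
        rw [Function.update_of_ne fun h => Fin.succ_ne_zero i (hp h)])
    simp only [op_succ, ← mul_assoc]
    rw [h1]
    simp only [hW.avgR]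
    have h2 := ih (fun i => p i.succ) (fun i => q i.succ)
      (fun a b h => Fin.succ_injective _ (hp h)) ((Pav γ)^[m + 1] F) (pav_iter_nonneg γ _ hF)
    rw [← Function.iterate_add_apply] at h2
    calc _ ≤ 𝔼 g : ι → W, (Fintype.card κ : ℝ) *
          (Pav γ)^[m + 1] F (op j fun i => γ (q i.succ) * val (g (p i.succ))) := by
          refine Finset.expect_le_expect fun g _ => ?_
          rw [Function.iterate_succ_apply']
          exact le_card_pav γ (pav_iter_nonneg γ m hF) _ _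
      _ ≤ (Fintype.card κ : ℝ) * ((Fintype.card κ : ℝ) ^ j *
          (Pav γ)^[j * (m + 1) + (m + 1)] F 1) := by
          rw [← Finset.mul_expect]; gcongr
      _ = _ := by rw [show (j + 1) * (m + 1) = j * (m + 1) + (m + 1) by ring]; ring

lemma pav_iter_sub (γ : κ → N) (m : ℕ) (F G : N → ℝ) (x : N) :
    (Pav γ)^[m] (fun y => F y - G y) x = (Pav γ)^[m] F x - (Pav γ)^[m] G x := by
  induction m generalizing x with
  | zero => rfl
  | succ m ih =>
    simp only [Function.iterate_succ_apply', Pav, ih, Finset.expect_sub_distrib]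

lemma pav_iter_le (γ : κ → N) (hγ : ∀ k, γ k ∈ unitary N) (m : ℕ) {F : N → ℝ} {R : ℝ}
    (hF : ∀ x, ‖x‖ ≤ 1 → F x ≤ R) (x : N) (hx : ‖x‖ ≤ 1) : (Pav γ)^[m] F x ≤ R := by
  induction m generalizing x with
  | zero => exact hF x hx
  | succ m ih =>
    rw [Function.iterate_succ_apply']
    exact Finset.expect_le univ_nonempty fun k _ => ih _
      ((norm_mul_le _ _).trans (mul_le_one₀ hx (norm_nonneg _) (norm_unitary_le (hγ k))))

/-- martingale convergence -/
theorem energy {K : Type*} [NormedAddCommGroup K] [InnerProductSpace ℂ K] (γ : κ → N)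
    (hγ : ∀ k, γ k ∈ unitary N) (v : N → K) {R : ℝ} (hv : ∀ x, ‖x‖ ≤ 1 → ‖v x‖ ≤ R)
    (hh : ∀ x, ∑ k, v (x * γ k) = (Fintype.card κ : ℂ) • v x) :
    Tendsto (fun m => (Pav γ)^[m] (fun x => 𝔼 k, ‖v (x * γ k) - v x‖ ^ 2) 1) atTop (𝓝 0) := by
  have hc : (0 : ℝ) < Fintype.card κ := by positivity
  have e : (fun x => 𝔼 k, ‖v (x * γ k) - v x‖ ^ 2) =
      fun x => Pav γ (fun y => ‖v y‖ ^ 2) x - ‖v x‖ ^ 2 := by
    funext x
    have h1 : ∑ k, RCLike.re ⟪v (x * γ k), v x⟫_ℂ = Fintype.card κ * ‖v x‖ ^ 2 := by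
      rw [← map_sum, ← sum_inner, hh, inner_smul_left, inner_self_eq_norm_sq_to_K]
      simp only [map_natCast]
      rw [RCLike.re_to_complex, ← Complex.ofReal_natCast, Complex.re_ofReal_mul]
      norm_cast
    simp only [Pav, Finset.expect_eq_sum_div_card, Finset.card_univ, @norm_sub_sq ℂ,
      Finset.sum_add_distrib, Finset.sum_sub_distrib, ← Finset.mul_sum, h1, Finset.sum_const,
      nsmul_eq_mul]
    field_simp; ring
  set a : ℕ → ℝ := fun m => (Pav γ)^[m] (fun y => ‖v y‖ ^ 2) 1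
  have e2 : ∀ m, (Pav γ)^[m] (fun x => 𝔼 k, ‖v (x * γ k) - v x‖ ^ 2) 1 = a (m + 1) - a m := by
    intro m; rw [e, pav_iter_sub]; rfl
  have hmono : Monotone a := monotone_nat_of_le_succ fun m => by
    have := pav_iter_nonneg γ m (F := fun x => 𝔼 k, ‖v (x * γ k) - v x‖ ^ 2)
      (fun x => Finset.expect_nonneg fun _ _ => sq_nonneg _) 1
    rw [e2] at this; linarith
  have hbd : BddAbove (Set.range a) := ⟨R ^ 2, by
    rintro _ ⟨m, rfl⟩
    exact pav_iter_le γ hγ m (fun x hx => pow_le_pow_left₀ (norm_nonneg _) (hv x hx) 2) 1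
      norm_one_le⟩
  have ht := tendsto_atTop_ciSup hmono hbd
  simp only [e2]
  simpa using ((tendsto_add_atTop_iff_nat 1).2 ht).sub ht

end walk

/-! ### random permutations -/

lemma expect_perm {ι : Type} [Fintype ι] [DecidableEq ι] {l : ℕ} (a : Fin l → ι)
    (ha : Function.Injective a) (f : (Fin l → ι) → ℝ) (hf : ∀ b, 0 ≤ f b) :
    𝔼 π : Equiv.Perm ι, f (fun i => π (a i)) ≤
      (∑ b, f b) / ((Fintype.card ι).descFactorial l : ℝ) := by
  classical
  set c : (Fin l → ι) → ℕ := fun b => #{π : Equiv.Perm ι | (fun i => π (a i)) = b}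
  have hc : ∀ b, Function.Injective b → c b = c a := by
    intro b hb
    obtain ⟨σ, hσ⟩ := Equiv.Perm.exists_extending_pair a b ha hb
    symm
    refine Finset.card_bij (fun π _ => σ * π) (fun π hπ => ?_) (fun _ _ _ _ h => mul_left_cancel h)
      fun π hπ => ⟨σ⁻¹ * π, ?_, by simp⟩
    · simp only [mem_filter, mem_univ, true_and] at hπ ⊢
      funext i
      rw [Equiv.Perm.mul_apply, congrFun hπ i, hσ]
    · simp only [mem_filter, mem_univ, true_and] at hπ ⊢
      funext i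
      rw [Equiv.Perm.mul_apply, congrFun hπ i, ← hσ]; simp
  have hc0 : ∀ b, ¬ Function.Injective b → c b = 0 := by
    intro b hb
    rw [Finset.card_eq_zero, Finset.filter_eq_empty_iff]
    intro π _ h
    exact hb (h ▸ π.injective.comp ha)
  have hcard : #{b : Fin l → ι | Function.Injective b} = (Fintype.card ι).descFactorial l := by
    have := Fintype.card_embedding_eq (α := Fin l) (β := ι)
    rw [Fintype.card_fin] at this
    rw [← this, ← Fintype.card_subtype]
    exact Fintype.card_congr (Equiv.subtypeInjectiveEquivEmbedding _ _)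
  have htot : Fintype.card (Equiv.Perm ι) = (Fintype.card ι).descFactorial l * c a := by
    rw [← Finset.card_univ, Finset.card_eq_sum_card_fiberwise
      (f := fun (π : Equiv.Perm ι) i => π (a i)) (t := univ) (fun _ _ => mem_univ _), ← hcard,
      ← smul_eq_mul, ← Finset.sum_const, Finset.sum_filter]
    refine Finset.sum_congr rfl fun b _ => ?_
    split_ifs with hb
    · exact hc b hb
    · exact hc0 b hb
  have hpos : 0 < Fintype.card (Equiv.Perm ι) := Fintype.card_pos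
  have hca : 0 < c a := Nat.pos_of_mul_pos_left (htot ▸ hpos) |> fun h => h
  have hd : 0 < (Fintype.card ι).descFactorial l := Nat.pos_of_mul_pos_right (htot ▸ hpos)
  rw [Finset.expect_eq_sum_div_card, Finset.card_univ, htot,
    ← Finset.sum_fiberwise (s := univ) (g := fun (π : Equiv.Perm ι) i => π (a i))]
  have : ∑ b, ∑ π ∈ univ with (fun i => π (a i)) = b, f (fun i => (π : Equiv.Perm ι) (a i)) ≤
      (c a : ℝ) * ∑ b, f b := by
    rw [Finset.mul_sum]
    refine Finset.sum_le_sum fun b _ => ?_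
    rw [Finset.sum_congr rfl (g := fun _ => f b) fun π hπ => by rw [(mem_filter.1 hπ).2],
      Finset.sum_const, nsmul_eq_mul]
    have : c b ≤ c a := by
      by_cases hb : Function.Injective b
      · exact (hc b hb).le
      · rw [hc0 b hb]; exact Nat.zero_le _
    exact mul_le_mul_of_nonneg_right (by exact_mod_cast this) (hf b)
  have hca' : (0 : ℝ) < c a := by exact_mod_cast hca
  have hd' : (0 : ℝ) < (Fintype.card ι).descFactorial l := by exact_mod_cast hd
  rw [div_le_div_iff₀ (by push_cast; positivity) hd']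
  push_cast
  nlinarith

end Crest.Agent.R121.Core
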