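import Crest.Agent.R121.Core1

/-!
# Row 121, core estimate, part 2: sums over paths
-/

set_option autoImplicit false
set_option linter.unusedSectionVars false

namespace Crest.Agent.R121.Core

open scoped InnerProductSpace ComplexOrder BigOperators _root_.Topology
open Finset Filter
open Crest.Agent.R124 (Phase expo)

variable {N : Type*} [CStarAlgebra N]
variable {K : Type*} [NormedAddCommGroup K] [InnerProductSpace ℂ K] {τ : N →ₗ[ℂ] ℂ}
  {Λ : N →ₗ[ℂ] K}
variable {ι : Type} [Fintype ι] [DecidableEq ι]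

lemma norm_expect_le' {X : Type*} [Fintype X] (f : X → ℂ) : ‖𝔼 x, f x‖ ≤ 𝔼 x, ‖f x‖ :=
  RCLike.norm_expect_le (K := ℂ)

lemma amgm {η : ℝ} (hη : 0 < η) (a b : ℝ) : a * b ≤ η * a ^ 2 + η⁻¹ * b ^ 2 := by
  have h1 : 0 ≤ η⁻¹ * (η * a - b) ^ 2 := by positivity
  have h2 : η⁻¹ * (η * a - b) ^ 2 = η * a ^ 2 + η⁻¹ * b ^ 2 - 2 * (a * b) := by
    field_simp; ring
  have h3 : 0 ≤ η * a ^ 2 + η⁻¹ * b ^ 2 := by positivity
  linarith

/-- a sum over paths with phases -/
noncomputable def ps {j : ℕ} (lam : ι → ℂ) (s : Finset (Fin j → ι)) (x : (Fin j → ι) → N) : N :=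
  ∑ p ∈ s, (∏ i, lam (p i)) • x p

lemma ps_compl {j : ℕ} (lam : ι → ℂ) (s : Finset (Fin j → ι)) (x : (Fin j → ι) → N) :
    ps lam univ x = ps lam s x + ps lam sᶜ x := (Finset.sum_add_sum_compl s _).symm

lemma ps_mul {j : ℕ} (lam : ι → ℂ) (s : Finset (Fin j → ι)) (x : (Fin j → ι) → N) (q : N) :
    ps lam s x * q = ps lam s fun p => x p * q := by
  simp [ps, Finset.sum_mul]

section phase
variable {Ω : Type} [Fintype Ω] [Nonempty Ω] {D : ℕ} {l : Ω → ι → ℂ}

lemma cross (hl : Phase D l) {j : ℕ} (hj : j ≤ D) (s s' : Finset (Fin j → ι))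
    (hs : ∀ p ∈ s, ∀ q ∈ s', expo p ≠ expo q) {G : N → N} (hG : IsLinearMap ℂ G)
    (x y : (Fin j → ι) → N) :
    𝔼 ω, τ (G (ps (l ω) s x) * star (ps (l ω) s' y)) = 0 := by
  simp only [ps, lin_sum hG, hG.map_smul, star_sum, star_smul, Finset.sum_mul_sum,
    smul_mul_smul_comm, map_sum, map_smul, smul_eq_mul, Finset.expect_sum_comm]
  refine Finset.sum_eq_zero fun p hp => Finset.sum_eq_zero fun q hq => ?_
  rw [← Finset.expect_mul, Finset.expect_eq_sum_div_card]
  have := hl.orth_tuple (Δ := Fin j) (Δ' := Fin j) (by simpa using hj) (by simpa using hj) p q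
    (hs p hp q hq)
  simp only [RCLike.star_def]
  rw [this]; simp

lemma key' (hl : Phase D l) {j : ℕ} (hj : j ≤ D) (s : Finset (Fin j → ι))
    (x : (Fin j → ι) → N) :
    𝔼 ω, ‖Λ (ps (l ω) s x)‖ ^ 2 ≤ (j : ℝ) ^ j * ∑ p ∈ s, ‖Λ (x p)‖ ^ 2 := by
  have := R124.key (H := K) (Δ := Fin j) (P := s) hl (by simpa using hj) Subtype.val
    Subtype.val_injective (fun p => Λ (x p))
  rw [Finset.sum_coe_sort s (fun p => ‖Λ (x p)‖ ^ 2)] at this
  simp only [Fintype.card_fin, Nat.cast_pow] at this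
  refine le_of_eq_of_le (Finset.expect_congr rfl fun ω _ => ?_) this
  rw [Finset.sum_coe_sort s (fun p => (∏ i, l ω (p i)) • Λ (x p))]
  simp [ps]

lemma split (h : L2 τ Λ) (hl : Phase D l) {j : ℕ} (hj : j ≤ D) (s : Finset (Fin j → ι))
    (hs : ∀ p ∈ sᶜ, ∀ q ∈ s, expo p ≠ expo q) {G : N → N} {C : ℝ} (hG : BL G C)
    (x : (Fin j → ι) → N) (hx : ∀ ω, ‖ps (l ω) univ x‖ ≤ 1) {q : N} (hq : IsStarProjection q)
    {η : ℝ} (hη : 0 < η) :
    ‖𝔼 ω, τ (G (ps (l ω) univ x) * q * star (ps (l ω) univ x)) -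
      𝔼 ω, τ (G (ps (l ω) s x) * q * star (ps (l ω) s x))‖ ≤
      C * (η * ‖Λ q‖ ^ 2 + η⁻¹ * ((j : ℝ) ^ j * ∑ p ∈ sᶜ, ‖Λ (x p * q)‖ ^ 2)) := by
  have hq' : ∀ y : N, q * star y = star (y * q) := fun y => by
    rw [star_mul, hq.isSelfAdjoint.star_eq]
  have h0 := cross (τ := τ) hl hj sᶜ s hs hG.lin x (fun p => x p * q)
  have e1 : ∀ ω, τ (G (ps (l ω) univ x) * q * star (ps (l ω) univ x)) =
      τ (G (ps (l ω) s x) * q * star (ps (l ω) s x)) +
      τ (G (ps (l ω) sᶜ x) * star (ps (l ω) s fun p => x p * q)) +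
      τ (G (ps (l ω) univ x) * q * star (ps (l ω) sᶜ fun p => x p * q)) := by
    intro ω
    rw [← ps_mul, ← ps_mul, ← hq', ← hq', mul_assoc _ q (q * _), ← mul_assoc q q,
      hq.isIdempotentElem.eq, ← map_add, ← map_add]
    congr 1
    conv_lhs => enter [2]; rw [ps_compl _ s]
    rw [star_add, mul_add, mul_assoc _ q (star (ps (l ω) sᶜ x))]
    congr 1
    rw [ps_compl _ s, hG.map_add]
    noncomm_ring
  simp only [e1, Finset.expect_add_distrib, h0, add_zero, add_sub_cancel_left]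
  refine (norm_expect_le' _).trans ?_
  have hk := key' (Λ := Λ) hl hj sᶜ (fun p => x p * q)
  calc _ ≤ 𝔼 ω, C * (η * ‖Λ q‖ ^ 2 + η⁻¹ * ‖Λ (ps (l ω) sᶜ fun p => x p * q)‖ ^ 2) := by
        refine Finset.expect_le_expect fun ω _ => (h.cs _ _).trans ?_
        have h1 : ‖Λ (G (ps (l ω) univ x) * q)‖ ≤ C * ‖Λ q‖ := (h.left _ _).trans (by
          gcongr
          exact (hG.bd _).trans (mul_le_of_le_one_right hG.nonneg (hx ω)))
        refine (mul_le_mul_of_nonneg_right h1 (norm_nonneg _)).trans ?_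
        rw [mul_assoc]
        exact mul_le_mul_of_nonneg_left (amgm hη _ _) hG.nonneg
    _ ≤ _ := by
        rw [← Finset.mul_expect, Finset.expect_add_distrib, ← Finset.mul_expect,
          ← Finset.mul_expect, Finset.expect_const univ_nonempty]
        have := hG.nonneg
        gcongr

end phase

/-! ### the random unitary -/

/-- random permutation matrix with unitary entries -/
noncomputable def tt (e : ι → ι → N) (α π : Equiv.Perm ι) (h : ι → N) (lam : ι → ℂ) : N :=
  ∑ a, lam a • (h a * e (α a) (π a))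

/-- letters -/
def LL (e : ι → ι → N) (U : N) (α π : Equiv.Perm ι) (h : ι → N) (a : ι) : N :=
  U * (h a * e (α a) (π a))

/-- paths -/
def xx (e : ι → ι → N) (U : N) (α π : Equiv.Perm ι) (h : ι → N) {j : ℕ} (p : Fin j → ι) : N :=
  op j fun i => LL e U α π h (p i)

variable {e : ι → ι → N} {U : N} {h : ι → N}

lemma pow_eq_ps (α π : Equiv.Perm ι) (lam : ι → ℂ) (j : ℕ) :
    (U * tt e α π h lam) ^ j = ps lam univ (xx (j := j) e U α π h) := by
  have : U * tt e α π h lam = ∑ a, lam a • LL e U α π h a := by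
    simp [tt, LL, Finset.mul_sum]
  rw [this, pow_eq_sum]; rfl

lemma star_tt (he : MU e 1) (hc : ∀ c a b, Commute (h c) (e a b)) (α π : Equiv.Perm ι)
    (lam : ι → ℂ) : star (tt e α π h lam) =
      tt e π α (fun a => star (h a)) (fun a => (starRingEnd ℂ) (lam a)) := by
  simp only [tt, star_sum, star_smul, RCLike.star_def]
  refine Finset.sum_congr rfl fun a _ => ?_
  rw [(hc _ _ _).eq, star_mul, he.star]

lemma sum_perm (he : MU e 1) (α : Equiv.Perm ι) : ∑ a, e (α a) (α a) = 1 := by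
  rw [← he.sum]; exact Equiv.sum_comp α (fun a => e a a)

/-- `T (y t) t* = ∑ₐ T (y hₐ) hₐ* eₐ` -/
lemma mod_tt (he : MU e 1) (hc : ∀ c a b, Commute (h c) (e a b)) {T : N → N}
    (hT : IsLinearMap ℂ T) (hm : ∀ y a b, T (y * e a b) = T y * e a b) (α π : Equiv.Perm ι)
    {lam : ι → ℂ} (hlam : ∀ a, ‖lam a‖ = 1) (y : N) :
    T (y * tt e α π h lam) * star (tt e α π h lam) =
      ∑ a, T (y * h a) * star (h a) * e (α a) (α a) := by
  rw [star_tt he hc]
  simp only [tt, Finset.mul_sum, lin_sum hT, mul_smul_comm, hT.map_smul, ← mul_assoc, hm,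
    Finset.sum_mul, smul_mul_assoc, Finset.smul_sum]
  rw [Finset.sum_comm]
  refine Finset.sum_congr rfl fun a _ => ?_
  have hc' : ∀ c a b, e a b * star (h c) = star (h c) * e a b := fun c a b => by
    rw [← he.star b a, ← star_mul, ← star_mul, (hc _ _ _).eq]
  rw [Finset.sum_eq_single a]
  · rw [smul_smul, mul_comm, Complex.mul_conj', hlam, mul_assoc _ (e _ _), hc', mul_assoc,
      mul_assoc, he.same]
    simp [mul_assoc]
  · intro b _ hb
    rw [mul_assoc _ (e _ _), hc', mul_assoc, mul_assoc, he.ne _ _ (π.injective.ne hb.symm)]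
    simp
  · simp

lemma tt_unitary (he : MU e 1) (hc : ∀ c a b, Commute (h c) (e a b)) (hu : ∀ a, h a ∈ unitary N)
    (α π : Equiv.Perm ι) {lam : ι → ℂ} (hlam : ∀ a, ‖lam a‖ = 1) :
    tt e α π h lam ∈ unitary N := by
  have key : ∀ (α π : Equiv.Perm ι) (h : ι → N) (lam : ι → ℂ),
      (∀ c a b, Commute (h c) (e a b)) → (∀ a, h a ∈ unitary N) → (∀ a, ‖lam a‖ = 1) →
      tt e α π h lam * star (tt e α π h lam) = 1 := by
    intro α π h lam hc hu hlam
    have := mod_tt he hc (T := fun y => y) ⟨fun _ _ => rfl, fun _ _ => rfl⟩ (fun _ _ _ => rfl)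
      α π hlam 1
    simp only [one_mul, Unitary.mul_star_self_of_mem (hu _), sum_perm he] at this
    exact this
  refine ⟨?_, key α π h lam hc hu hlam⟩
  have := key π α (fun a => star (h a)) (fun a => (starRingEnd ℂ) (lam a))
    (fun c a b => by rw [← he.star b a]; exact (hc c b a).star_star)
    (fun a => Unitary.star_mem (hu a)) (fun a => by simpa using hlam a)
  rwa [← star_tt he hc, star_star] at this

/-! ### the mass of the paths with a repetition -/

/-- mass of the paths with a repetition -/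
noncomputable def bad (Λ : N →ₗ[ℂ] K) (e : ι → ι → N) (U : N) (α π : Equiv.Perm ι) (h : ι → N)
    (j : ℕ) : ℝ :=
  ∑ p ∈ (univ.filter fun p : Fin j → ι => Function.Injective p)ᶜ, ‖Λ (xx e U α π h p)‖ ^ 2

lemma xx_cons (α π : Equiv.Perm ι) {j : ℕ} (a : ι) (q : Fin j → ι) :
    xx e U α π h (Fin.cons a q : Fin (j + 1) → ι) = xx e U α π h q * LL e U α π h a := by
  simp [xx, op_succ]

lemma norm_mul_LL (hΛ : L2 τ Λ) (he : MU e 1) (hc : ∀ c a b, Commute (h c) (e a b))
    (hu : ∀ a, h a ∈ unitary N) (α π : Equiv.Perm ι) (a : ι) (x : N) :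
    ‖Λ (x * LL e U α π h a)‖ ^ 2 = ‖Λ (x * U * e (α a) (α a))‖ ^ 2 := by
  rw [LL, (hc _ _ _).eq, ← mul_assoc, ← mul_assoc, hΛ.uright (hu a), hΛ.mu_right he]

lemma sum_last (hΛ : L2 τ Λ) (he : MU e 1) (hU : U ∈ unitary N) (α : Equiv.Perm ι) (x : N) :
    ∑ a, ‖Λ (x * U * e (α a) (α a))‖ ^ 2 = ‖Λ x‖ ^ 2 := by
  rw [Equiv.sum_comp α (fun a => ‖Λ (x * U * e a a)‖ ^ 2), hΛ.mu_sum_right he, hΛ.uright hU]

lemma sum_paths (hΛ : L2 τ Λ) (he : MU e 1) (j : ℕ) : ∀ (w : Fin j → N) (c : Fin j → ι),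
    (∀ i, w i ∈ unitary N) → ∀ x,
      ∑ b : Fin j → ι, ‖Λ (op j (fun i => w i * e (c i) (b i)) * x)‖ ^ 2 = ‖Λ x‖ ^ 2 := by
  induction j with
  | zero => intro w c _ x; simp
  | succ j ih =>
    intro w c hw x
    rw [sum_succ, Finset.sum_comm, ← hΛ.mu_sum he x]
    refine Finset.sum_congr rfl fun b _ => ?_
    simp only [op_succ, Fin.cons_succ, Fin.cons_zero, mul_assoc]
    rw [ih (fun i => w i.succ) (fun i => c i.succ) (fun i => hw _), hΛ.uleft (hw 0),
      hΛ.mu_left he]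

lemma desc_ge {n j : ℕ} (hj : 2 * j ≤ n) : (n : ℝ) ^ j ≤ 2 ^ j * (n.descFactorial j : ℝ) := by
  have h1 := Nat.pow_sub_le_descFactorial n j
  have h2 : n ^ j ≤ 2 ^ j * (n + 1 - j) ^ j := by
    rw [← mul_pow]; exact Nat.pow_le_pow_left (by omega) _
  exact_mod_cast h2.trans (Nat.mul_le_mul_left _ h1)

lemma bad_succ (hΛ : L2 τ Λ) (he : MU e 1) (hU : U ∈ unitary N)
    (hc : ∀ c a b, Commute (h c) (e a b)) (hu : ∀ a, h a ∈ unitary N) (α π : Equiv.Perm ι)
    (j : ℕ) : bad Λ e U α π h (j + 1) ≤ bad Λ e U α π h j +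
      ∑ q ∈ univ.filter fun q : Fin j → ι => Function.Injective q, ∑ i,
        ‖Λ (xx e U α π h q * (U * e (α (q i)) (α (q i))))‖ ^ 2 := by
  rw [bad, bad, Finset.compl_filter, Finset.compl_filter, Finset.sum_filter, Finset.sum_filter,
    Finset.sum_filter, sum_succ, ← Finset.sum_add_distrib]
  refine Finset.sum_le_sum fun q _ => ?_
  simp only [xx_cons, norm_mul_LL hΛ he hc hu, Fin.cons_injective_iff]
  by_cases hq : Function.Injective q
  · simp only [hq, and_true, not_not, not_true, if_true, if_false, zero_add]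
    rw [← Finset.sum_filter]
    have : (univ.filter fun a => a ∈ Set.range q) = univ.image q := by ext; simp
    rw [this, Finset.sum_image fun _ _ _ _ h => hq h]
    simp only [mul_assoc, le_refl]
  · simp only [hq, and_false, not_false_iff, if_true, if_false, add_zero]
    exact (sum_last hΛ he hU α _).le

lemma bad_le (hΛ : L2 τ Λ) (he : MU e 1) (hU : U ∈ unitary N)
    (hc : ∀ c a b, Commute (h c) (e a b)) (hu : ∀ a, h a ∈ unitary N) (α : Equiv.Perm ι)
    (j : ℕ) (hj : 2 * j ≤ Fintype.card ι) (hn : 0 < Fintype.card ι) :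
    𝔼 π : Equiv.Perm ι, bad Λ e U α π h j ≤ j * (j * 2 ^ j) / Fintype.card ι := by
  have hn' : (0 : ℝ) < Fintype.card ι := by exact_mod_cast hn
  induction j with
  | zero =>
    have : ∀ π, bad Λ e U α π h 0 = 0 := fun π => Finset.sum_eq_zero fun p hp => by
      exact absurd (mem_filter.2 ⟨mem_univ _, Function.injective_of_subsingleton p⟩)
        (mem_compl.1 hp)
    simp [this]
  | succ j ih =>
    have ih' := ih (by omega)
    have hd := desc_ge (n := Fintype.card ι) (j := j) (by omega)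
    have hd0 : (0 : ℝ) < (Fintype.card ι).descFactorial j := by
      have : (0 : ℝ) < (Fintype.card ι : ℝ) ^ j := by positivity
      exact pos_of_mul_pos_right (this.trans_le hd) (by positivity)
    refine (Finset.expect_le_expect fun π _ => bad_succ hΛ he hU hc hu α π j).trans ?_
    rw [Finset.expect_add_distrib, Finset.expect_sum_comm]
    have h1 : ∀ q ∈ univ.filter fun q : Fin j → ι => Function.Injective q,
        𝔼 π : Equiv.Perm ι, ∑ i, ‖Λ (xx e U α π h q * (U * e (α (q i)) (α (q i))))‖ ^ 2 ≤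
          j * ((Fintype.card ι : ℝ)⁻¹ / (Fintype.card ι).descFactorial j) := by
      intro q hq
      rw [Finset.expect_sum_comm]
      refine (Finset.sum_le_sum (g := fun _ => (Fintype.card ι : ℝ)⁻¹ /
        (Fintype.card ι).descFactorial j) fun i _ => ?_).trans (by simp)
      have := expect_perm q (mem_filter.1 hq).2 (fun b => ‖Λ (op j (fun i' =>
        (U * h (q i')) * e (α (q i')) (b i')) * (U * e (α (q i)) (α (q i))))‖ ^ 2)
        (fun _ => sq_nonneg _)
      rw [sum_paths hΛ he j _ _ (fun i' => mul_mem hU (hu _)), hΛ.uleft hU, hΛ.mu_sq he] at this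
      simpa only [xx, LL, mul_assoc] using this
    have h2 := Finset.sum_le_sum h1
    rw [Finset.sum_const, nsmul_eq_mul] at h2
    have h3 : (#(univ.filter fun q : Fin j → ι => Function.Injective q) : ℝ) ≤
        (Fintype.card ι : ℝ) ^ j := by
      have := Finset.card_filter_le (univ : Finset (Fin j → ι)) fun q => Function.Injective q
      rw [Finset.card_univ, Fintype.card_fun, Fintype.card_fin] at this
      exact_mod_cast this
    have h4 : (#(univ.filter fun q : Fin j → ι => Function.Injective q) : ℝ) *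
        (j * ((Fintype.card ι : ℝ)⁻¹ / (Fintype.card ι).descFactorial j)) ≤
        j * 2 ^ j / Fintype.card ι := by
      calc _ ≤ (2 ^ j * ((Fintype.card ι).descFactorial j : ℝ)) *
            (j * ((Fintype.card ι : ℝ)⁻¹ / (Fintype.card ι).descFactorial j)) := by
            gcongr; exact h3.trans hd
        _ = _ := by field_simp
    refine (add_le_add ih' (h2.trans h4)).trans ?_
    rw [← add_div]
    gcongr
    push_cast
    have : (0 : ℝ) ≤ j := by positivity
    have : (0 : ℝ) < 2 ^ j := by positivity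
    rw [pow_succ]
    nlinarith [mul_nonneg ‹(0 : ℝ) ≤ j› this.le, mul_nonneg (mul_nonneg ‹(0 : ℝ) ≤ j› ‹(0 : ℝ) ≤ j›) this.le]

end Crest.Agent.R121.Core
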