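import Crest.Agent.R121.Core2

/-!
# Row 121, core estimate, part 3: the two steps
-/

set_option autoImplicit false
set_option linter.unusedSectionVars false

namespace Crest.Agent.R121.Core

open scoped InnerProductSpace ComplexOrder BigOperators _root_.Topology
open Finset Filter
open Crest.Agent.R124 (Phase expo)

variable {N : Type*} [CStarAlgebra N]
variable {K : Type*} [NormedAddCommGroup K] [InnerProductSpace ℂ K] {τ : N →ₗ[ℂ] ℂ}
  {Λ : N →ₗ[ℂ] K}
variable {ι : Type} [Fintype ι] [DecidableEq ι] {κ : Type} [Fintype κ] [Nonempty κ]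
variable {Ω : Type} [Fintype Ω] [Nonempty Ω] {D : ℕ} {l : Ω → ι → ℂ}
variable {e : ι → ι → N} {U : N} {γ : κ → N} {T : N → N} {C : ℝ}

/-- `τ (T y y*)` -/
noncomputable def Ph (τ : N →ₗ[ℂ] ℂ) (T : N → N) (y : N) : ℂ := τ (T y * star y)

/-- paths avoiding `a` -/
def av (j : ℕ) (a : ι) : Finset (Fin j → ι) := univ.filter fun p => ∀ i, p i ≠ a

lemma BL.conj (hT : BL T C) {u : N} (hu : u ∈ unitary N) : BL (fun y => T (y * u) * star u) C := by
  have h1 := norm_unitary_le hu
  have h0 := hT.nonneg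
  refine ((hT.rarg u).rmul (star u)).mono ?_
  rw [norm_star, mul_assoc]
  exact mul_le_of_le_one_right h0 (mul_le_one₀ h1 (norm_nonneg _) h1)

lemma mu_proj (he : MU e 1) (a : ι) : IsStarProjection (e a a) := ⟨he.same _ _ _, he.star _ _⟩

lemma splitP (hΛ : L2 τ Λ) (he : MU e 1) (hU : U ∈ unitary N) {h : ι → N}
    (hc : ∀ c a b, Commute (h c) (e a b)) (hu : ∀ a, h a ∈ unitary N) (hl : Phase D l) {j : ℕ}
    (hj : j ≤ D) (α π : Equiv.Perm ι) {G : ι → N → N} (hG : ∀ a, BL (G a) C) (hC : 0 ≤ C) {η : ℝ}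
    (hη : 0 < η) :
    ‖𝔼 ω, ∑ a, τ (G a ((U * tt e α π h (l ω)) ^ j * U) * e (α a) (α a) *
        star ((U * tt e α π h (l ω)) ^ j * U)) -
      ∑ a, 𝔼 ω, τ (G a (ps (l ω) (av j a) fun p => xx e U α π h p * U) * e (α a) (α a) *
        star (ps (l ω) (av j a) fun p => xx e U α π h p * U))‖ ≤
      C * (η + η⁻¹ * ((j : ℝ) ^ j * bad Λ e U α π h (j + 1))) := by
  have hY : ∀ ω, (U * tt e α π h (l ω)) ^ j * U = ps (l ω) univ fun p => xx e U α π h p * U :=
    fun ω => by rw [pow_eq_ps, ps_mul]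
  have hn : ∀ ω, ‖ps (l ω) univ fun p : Fin j → ι => xx e U α π h p * U‖ ≤ 1 := fun ω => by
    rw [← hY]
    exact norm_unitary_le (mul_mem (pow_mem (mul_mem hU (tt_unitary he hc hu α π (hl.norm ω))) _) hU)
  simp only [hY]
  rw [Finset.expect_sum_comm, ← Finset.sum_sub_distrib]
  refine (norm_sum_le _ _).trans ((Finset.sum_le_sum fun a _ => split hΛ hl hj (av j a) ?_ (hG a) _
    hn (mu_proj he (α a)) hη).trans ?_)
  · intro p hp q hq hpq
    simp only [av, mem_compl, mem_filter, mem_univ, true_and, not_forall, not_not] at hp hq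
    obtain ⟨i, hi⟩ := hp
    have h1 : 0 < expo p a := Finset.card_pos.2 ⟨i, by simp [hi]⟩
    rw [hpq] at h1
    obtain ⟨i', hi'⟩ := Finset.card_pos.1 h1
    exact hq i' (by simpa using hi')
  · rw [← Finset.mul_sum, Finset.sum_add_distrib, ← Finset.mul_sum, ← Finset.mul_sum,
      ← Finset.mul_sum]
    have h1 := sum_last hΛ he (one_mem _) α 1
    simp only [one_mul, hΛ.one, one_pow] at h1
    rw [h1, mul_one]
    gcongr
    rw [bad, Finset.compl_filter, Finset.sum_filter, sum_succ, Finset.sum_comm]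
    refine Finset.sum_le_sum fun a _ => ?_
    rw [av, Finset.compl_filter, Finset.sum_filter]
    refine Finset.sum_le_sum fun q _ => ?_
    simp only [xx_cons, norm_mul_LL hΛ he hc hu, Fin.cons_injective_iff]
    split_ifs with h2 h3 h3
    · exact le_rfl
    · positivity
    · exact absurd (fun i hi => h3.1 ⟨i, hi⟩) h2
    · exact le_rfl

variable {W : Type} [Fintype W] [Nonempty W] {m : ℕ} {val : W → N}

lemma harm_walk (hS : Setup e γ T C) (hW : Walk e γ m val) (y z : N) :
    𝔼 w, τ (T (y * val w) * star (val w) * z) = τ (T y * z) := by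
  have h1 := hW.avgC (fun x => τ (T (y * x) * star x * z)) 1
  have h2 : Pav γ (fun x => τ (T (y * x) * star x * z)) = fun x => τ (T (y * x) * star x * z) := by
    funext x
    have h3 := congrArg (fun u => τ (u * star x * z)) (hS.harm (y * x))
    simp only [Finset.sum_mul, map_sum, smul_mul_assoc, map_smul, smul_eq_mul] at h3
    rw [Pav, Finset.expect_eq_sum_div_card, Finset.card_univ, div_eq_iff (by simp), mul_comm, ← h3]
    simp only [star_mul, mul_assoc]
  rw [Function.iterate_fixed h2] at h1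
  simpa using h1

lemma stepP (hΛ : L2 τ Λ) (hS : Setup e γ T C) (hU : U ∈ unitary N) (hW : Walk e γ m val)
    (hl : Phase D l) {j : ℕ} (hj : j ≤ D) (α π : Equiv.Perm ι) {η : ℝ} (hη : 0 < η) :
    ‖𝔼 g : ι → W, 𝔼 ω, Ph τ T ((U * tt e α π (fun a => val (g a)) (l ω)) ^ (j + 1)) -
      𝔼 g : ι → W, 𝔼 ω, Ph τ T ((U * tt e α π (fun a => val (g a)) (l ω)) ^ j * U)‖ ≤
      2 * C * (η + η⁻¹ * ((j : ℝ) ^ j *
        𝔼 g : ι → W, bad Λ e U α π (fun a => val (g a)) (j + 1))) := by
  have he := hS.mu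
  have hC := hS.bl.nonneg
  have hA : ∀ (g : ι → W) ω, Ph τ T ((U * tt e α π (fun a => val (g a)) (l ω)) ^ (j + 1)) =
      ∑ a, τ (T ((U * tt e α π (fun a => val (g a)) (l ω)) ^ j * U * val (g a)) * star (val (g a)) *
        e (α a) (α a) * star ((U * tt e α π (fun a => val (g a)) (l ω)) ^ j * U)) := by
    intro g ω
    rw [Ph, pow_succ, ← mul_assoc, star_mul (_ * U), ← mul_assoc,
      mod_tt he (fun c => hW.comm _) hS.bl.lin hS.mod α π (hl.norm ω), Finset.sum_mul, map_sum]
  have hB : ∀ y, Ph τ T y = ∑ a, τ (T y * e (α a) (α a) * star y) := by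
    intro y
    rw [← map_sum, ← Finset.sum_mul, ← Finset.mul_sum, sum_perm he, mul_one, Ph]
  have hM : ∀ a, 𝔼 g : ι → W, 𝔼 ω, τ (T (ps (l ω) (av j a) (fun p =>
      xx e U α π (fun a => val (g a)) p * U) * val (g a)) * star (val (g a)) * e (α a) (α a) *
        star (ps (l ω) (av j a) fun p => xx e U α π (fun a => val (g a)) p * U)) =
      𝔼 g : ι → W, 𝔼 ω, τ (T (ps (l ω) (av j a) (fun p =>
        xx e U α π (fun a => val (g a)) p * U)) * e (α a) (α a) *
        star (ps (l ω) (av j a) fun p => xx e U α π (fun a => val (g a)) p * U)) := by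
    intro a
    have hind : ∀ (g : ι → W) (w : W) ω, ps (l ω) (av j a) (fun p =>
        xx e U α π (fun b => val (Function.update g a w b)) p * U) =
        ps (l ω) (av j a) (fun p => xx e U α π (fun a => val (g a)) p * U) := by
      intro g w ω
      refine Finset.sum_congr rfl fun p hp => ?_
      simp only [xx, LL]
      congr 3; funext i
      rw [Function.update_of_ne ((mem_filter.1 hp).2 i)]
    rw [expect_indep a (fun (g : ι → W) w => 𝔼 ω, τ (T (ps (l ω) (av j a) (fun p =>
      xx e U α π (fun a => val (g a)) p * U) * val w) * star (val w) * e (α a) (α a) *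
        star (ps (l ω) (av j a) fun p => xx e U α π (fun a => val (g a)) p * U)))
      (fun g w => by simp only [hind])]
    refine Finset.expect_congr rfl fun g _ => ?_
    rw [Finset.expect_comm]
    refine Finset.expect_congr rfl fun ω _ => ?_
    simp only [mul_assoc _ (e (α a) (α a))]
    exact harm_walk hS hW _ _
  have h1 := fun g : ι → W => splitP hΛ he hU (h := fun a => val (g a)) (fun c => hW.comm _)
    (fun a => hW.unit _) hl hj α π (G := fun a y => T (y * val (g a)) * star (val (g a)))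
    (fun a => BL.conj hS.bl (hW.unit _)) hC hη
  have h2 := fun g : ι → W => splitP hΛ he hU (h := fun a => val (g a)) (fun c => hW.comm _)
    (fun a => hW.unit _) hl hj α π (G := fun _ => T) (fun _ => hS.bl) hC hη
  simp only [← hA] at h1
  simp only [← hB] at h2
  have h3 := (norm_expect_le' _).trans (Finset.expect_le_expect fun g (_ : g ∈ univ) => h1 g)
  have h4 := (norm_expect_le' _).trans (Finset.expect_le_expect fun g (_ : g ∈ univ) => h2 g)
  rw [Finset.expect_sub_distrib, Finset.expect_sum_comm, ← Finset.mul_expect,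
    Finset.expect_add_distrib, Finset.expect_const univ_nonempty, ← Finset.mul_expect,
    ← Finset.mul_expect] at h3 h4
  simp only [hM] at h3
  have h5 := norm_sub_le_norm_sub_add_norm_sub _ _ _ |>.trans
    (add_le_add h3 ((norm_sub_rev _ _).trans_le h4))
  linarith

/-- the defect of `T` along `U` -/
def df (T : N → N) (U : N) (y : N) : N := T (y * U) * star U - T y

lemma df_bl (hT : BL T C) (hU : U ∈ unitary N) : BL (df T U) (2 * C) := by
  have := (BL.conj hT hU).add (hT.smul (-1))
  simp only [neg_smul, one_smul, norm_neg, norm_one, one_mul, ← sub_eq_add_neg, ← two_mul] at this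
  exact this

lemma xx_norm_le (he : MU e 1) (hU : U ∈ unitary N) {h : ι → N} (hu : ∀ a, h a ∈ unitary N)
    (α π : Equiv.Perm ι) {j : ℕ} (p : Fin j → ι) : ‖xx e U α π h p‖ ≤ 1 :=
  op_norm_le _ _ fun i => (norm_mul_le _ _).trans (mul_le_one₀ (norm_unitary_le hU)
    (norm_nonneg _) ((norm_mul_le _ _).trans (mul_le_one₀ (norm_unitary_le (hu _))
      (norm_nonneg _) (he.norm_le _ _))))

lemma expo_inj {j : ℕ} {p q : Fin j → ι} (hp : ¬ Function.Injective p)
    (hq : Function.Injective q) : expo p ≠ expo q := by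
  intro h
  apply hp
  intro i i' hi
  have h1 : expo q (p i) ≤ 1 := Finset.card_le_one.2 fun a ha b hb =>
    hq ((mem_filter.1 ha).2.trans (mem_filter.1 hb).2.symm)
  rw [← h] at h1
  exact Finset.card_le_one.1 h1 i (by simp) i' (by simp [hi])

lemma stepM (hΛ : L2 τ Λ) (hS : Setup e γ T C) (hU : U ∈ unitary N) (hW : Walk e γ m val)
    (hl : Phase D l) {j : ℕ} (hj : j ≤ D) (α π : Equiv.Perm ι) {η δ : ℝ} (hη : 0 < η)
    (hδ : 0 ≤ δ) (hg : ∀ p : Fin j → ι, Function.Injective p →
      𝔼 g : ι → W, ‖Λ (df T U (xx e U α π (fun a => val (g a)) p))‖ ≤ δ) :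
    ‖𝔼 g : ι → W, 𝔼 ω, Ph τ T ((U * tt e α π (fun a => val (g a)) (l ω)) ^ j * U) -
      𝔼 g : ι → W, 𝔼 ω, Ph τ T ((U * tt e α π (fun a => val (g a)) (l ω)) ^ j)‖ ≤
      2 * C * (η + η⁻¹ * ((j : ℝ) ^ j * 𝔼 g : ι → W, bad Λ e U α π (fun a => val (g a)) j)) +
        (Fintype.card ι : ℝ) ^ j * (Fintype.card ι : ℝ) ^ j * δ := by
  have he := hS.mu
  have hd := df_bl hS.bl hU
  set s : Finset (Fin j → ι) := univ.filter fun p => Function.Injective p
  have hs : (#s : ℝ) ≤ (Fintype.card ι : ℝ) ^ j := by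
    have := Finset.card_filter_le (univ : Finset (Fin j → ι)) fun q => Function.Injective q
    rw [Finset.card_univ, Fintype.card_fun, Fintype.card_fin] at this
    exact_mod_cast this
  have hA : ∀ y, Ph τ T (y * U) - Ph τ T y = τ (df T U y * 1 * star y) := by
    intro y
    rw [Ph, Ph, df, mul_one, sub_mul, map_sub, star_mul, mul_assoc]
  have h1 : ∀ g : ι → W, ‖𝔼 ω, Ph τ T ((U * tt e α π (fun a => val (g a)) (l ω)) ^ j * U) -
      𝔼 ω, Ph τ T ((U * tt e α π (fun a => val (g a)) (l ω)) ^ j)‖ ≤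
      2 * C * (η + η⁻¹ * ((j : ℝ) ^ j * bad Λ e U α π (fun a => val (g a)) j)) +
        (Fintype.card ι : ℝ) ^ j *
          ∑ p ∈ s, ‖Λ (df T U (xx e U α π (fun a => val (g a)) p))‖ := by
    intro g
    have hu : ∀ a, val (g a) ∈ unitary N := fun a => hW.unit _
    have h2 := split hΛ hl hj s (fun p hp q hq => expo_inj
      (fun h => mem_compl.1 hp (mem_filter.2 ⟨mem_univ _, h⟩)) (mem_filter.1 hq).2) hd
      (xx e U α π (fun a => val (g a))) (fun ω => by
        rw [← pow_eq_ps]
        exact norm_unitary_le (pow_mem (mul_mem hU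
          (tt_unitary he (fun c => hW.comm _) hu α π (hl.norm ω))) _)) (IsStarProjection.one N) hη
    simp only [← pow_eq_ps] at h2
    simp only [← Finset.expect_sub_distrib, hA]
    simp only [mul_one, hΛ.one, one_pow] at h2 ⊢
    refine (norm_le_norm_sub_add _ _).trans (add_le_add h2 ?_)
    refine (norm_expect_le' _).trans (Finset.expect_le (univ_nonempty (α := Ω)) fun ω _ => ?_)
    have hχ : ∀ p : Fin j → ι, ‖∏ i, l ω (p i)‖ = 1 := fun p => by simp [norm_prod, hl.norm]
    refine (hΛ.cs _ _).trans ?_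
    rw [mul_comm]
    refine mul_le_mul (le_trans ?_ hs) ?_ (norm_nonneg _) (by positivity)
    · simp only [ps, map_sum, map_smul]
      refine (norm_sum_le _ _).trans ((Finset.sum_le_sum (g := fun _ => (1 : ℝ))
        fun p _ => ?_).trans (by simp))
      rw [norm_smul, hχ, one_mul]
      exact (hΛ.le _).trans (xx_norm_le he hU hu α π p)
    · simp only [ps, hd.map_sum, hd.map_smul, map_sum, map_smul]
      refine (norm_sum_le _ _).trans (Finset.sum_le_sum fun p _ => ?_)
      rw [norm_smul, hχ, one_mul]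
  rw [← Finset.expect_sub_distrib]
  refine (norm_expect_le' _).trans ((Finset.expect_le_expect fun g _ => h1 g).trans ?_)
  rw [Finset.expect_add_distrib, ← Finset.mul_expect, Finset.expect_add_distrib,
    Finset.expect_const univ_nonempty, ← Finset.mul_expect, ← Finset.mul_expect,
    ← Finset.mul_expect, Finset.expect_sum_comm, mul_assoc _ _ δ]
  gcongr
  refine (Finset.sum_le_sum fun p hp => hg p (mem_filter.1 hp).2).trans ?_
  rw [Finset.sum_const, nsmul_eq_mul]
  gcongr

/-- elements with respect to which `T` is modular -/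
def modS (T : N → N) : Submonoid N where
  carrier := {m | ∀ y, T (y * m) = T y * m}
  one_mem' := by simp
  mul_mem' := fun {a b} ha hb y => by rw [← mul_assoc, hb, ha, mul_assoc]

lemma df_word (hΛ : L2 τ Λ) (hS : Setup e γ T C) (hU : U ∈ unitary N) {c : κ × ι × ι → ℂ}
    (hc : U = ∑ x, c x • (γ x.1 * e x.2.1 x.2.2)) {w b : N} (hw : w ∈ unitary N)
    (hb : b ∈ modS T) (hb1 : ‖b‖ ≤ 1) (hbc : ∀ k, Commute b (γ k)) :
    ‖Λ (df T U (w * b))‖ ≤
      ∑ x, ‖c x‖ * ‖Λ (T (w * γ x.1) * star (w * γ x.1)) - Λ (T w * star w)‖ := by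
  have hwγ : ∀ k, w * γ k ∈ unitary N := fun k => mul_mem hw (hS.unit k)
  have e1 : T (w * b * U) * star U = ∑ x, c x • (T (w * γ x.1) * star (w * γ x.1) *
      (w * γ x.1 * (b * e x.2.1 x.2.2) * star U)) := by
    conv_lhs => enter [1, 1, 2]; rw [hc]
    rw [Finset.mul_sum, hS.bl.map_sum, Finset.sum_mul]
    refine Finset.sum_congr rfl fun x _ => ?_
    rw [mul_smul_comm, hS.bl.map_smul, smul_mul_assoc, ← mul_assoc, hS.mod, mul_assoc w,
      (hbc _).eq, ← mul_assoc w, hb]
    congr 1
    rw [mul_assoc _ (star _), mul_assoc (w * γ x.1), ← mul_assoc (star _),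
      Unitary.star_mul_self_of_mem (hwγ _), one_mul]
    simp only [mul_assoc]
  have e2 : T (w * b) = ∑ x, c x • (T w * star w * (w * γ x.1 * (b * e x.2.1 x.2.2) * star U)) := by
    have : ∀ x : κ × ι × ι, c x • (T w * star w * (w * γ x.1 * (b * e x.2.1 x.2.2) * star U)) =
        T w * b * (c x • (γ x.1 * e x.2.1 x.2.2)) * star U := by
      intro x
      rw [mul_smul_comm, smul_mul_assoc]
      congr 1
      rw [mul_assoc _ (star w), mul_assoc w, mul_assoc w, ← mul_assoc (star w),
        Unitary.star_mul_self_of_mem hw, one_mul, ← mul_assoc (γ _), ← (hbc _).eq]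
      simp only [mul_assoc]
    simp only [this]
    rw [← Finset.sum_mul, ← Finset.mul_sum, ← hc, mul_assoc, Unitary.mul_star_self_of_mem hU,
      mul_one, hb]
  rw [df, e1, e2, ← Finset.sum_sub_distrib, map_sum]
  refine (norm_sum_le _ _).trans (Finset.sum_le_sum fun x _ => ?_)
  rw [← smul_sub, ← sub_mul, map_smul, norm_smul, ← map_sub]
  gcongr
  refine (hΛ.right _ _).trans (mul_le_of_le_one_right (norm_nonneg _) ?_)
  refine (norm_mul_le _ _).trans (mul_le_one₀ ((norm_mul_le _ _).trans (mul_le_one₀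
    (norm_unitary_le (hwγ _)) (norm_nonneg _) ((norm_mul_le _ _).trans
      (mul_le_one₀ hb1 (norm_nonneg _) (hS.mu.norm_le _ _))))) (norm_nonneg _) ?_)
  exact norm_unitary_le (Unitary.star_mem hU)

lemma good (hΛ : L2 τ Λ) (hS : Setup e γ T C) (hU : U ∈ unitary N) (hsp : InSpan e γ U) {j : ℕ}
    (hj : 0 < j) {δ : ℝ} (hδ : 0 < δ) :
    ∀ᶠ m in atTop, ∀ (W : Type) [Fintype W] [Nonempty W] (val : W → N), Walk e γ m val →
      ∀ (α π : Equiv.Perm ι) (p : Fin j → ι), Function.Injective p →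
        𝔼 g : ι → W, ‖Λ (df T U (xx e U α π (fun a => val (g a)) p))‖ ≤ δ := by
  obtain ⟨c', hc'⟩ := hsp
  set c : κ × ι × ι → ℂ := fun x => c' x.1 x.2.1 x.2.2
  have hc : U = ∑ x, c x • (γ x.1 * e x.2.1 x.2.2) := by
    rw [hc']; simp only [Fintype.sum_prod_type, c]
  set v : N → K := fun x => Λ (T x * star x)
  have hen := energy γ hS.unit v (R := C) (fun x hx => (hΛ.le _).trans ((norm_mul_le _ _).trans (by
    rw [norm_star]
    exact (mul_le_of_le_one_right (norm_nonneg _) hx).trans
      ((hS.bl.bd _).trans (mul_le_of_le_one_right hS.bl.nonneg hx))))) (fun x => by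
    have := congrArg (fun u => Λ (u * star x)) (hS.harm x)
    simpa only [Finset.sum_mul, map_sum, smul_mul_assoc, map_smul, v, star_mul, mul_assoc]
      using this)
  set F : N → ℝ := fun x => 𝔼 k, ‖v (x * γ k) - v x‖ ^ 2
  have hF : ∀ x, 0 ≤ F x := fun x => Finset.expect_nonneg fun _ _ => sq_nonneg _
  set B : ℝ := ∑ q : Fin j → κ × ι × ι, ‖∏ i, c (q i)‖ * ∑ x, ‖c x‖
  have hB : 0 ≤ B := by positivity
  set δ' := δ / (2 * (B + 1))
  have hδ' : 0 < δ' := by positivity
  have ht : Tendsto (fun m => j * (m + 1)) atTop atTop :=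
    tendsto_atTop_mono (fun m => by rw [id]; nlinarith) tendsto_id
  have h2 := ((hen.comp ht).const_mul ((Fintype.card κ : ℝ) * (Fintype.card κ : ℝ) ^ j)).eventually_le_const
    (u := δ' ^ 2) (by rw [mul_zero]; positivity)
  filter_upwards [h2] with m hm W _ _ val hW α π p hp
  have hx : ∀ g : ι → W, xx e U α π (fun a => val (g a)) p = ∑ q : Fin j → κ × ι × ι,
      (∏ i, c (q i)) • (op j (fun i => γ (q i).1 * val (g (p i))) *
        op j (fun i => e (q i).2.1 (q i).2.2 * e (α (p i)) (π (p i)))) := by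
    intro g
    have : ∀ i, LL e U α π (fun a => val (g a)) (p i) = ∑ x, c x •
        (γ x.1 * val (g (p i)) * (e x.2.1 x.2.2 * e (α (p i)) (π (p i)))) := by
      intro i
      rw [LL, hc, Finset.sum_mul]
      refine Finset.sum_congr rfl fun x _ => ?_
      rw [smul_mul_assoc, mul_assoc, mul_assoc, ← mul_assoc (e _ _), ← (hW.comm _ _ _).eq,
        mul_assoc]
    simp only [xx, this]
    rw [op_sum]
    refine Finset.sum_congr rfl fun q _ => ?_
    rw [op_smul, op_mul]
    intro i i'
    have h1 : ∀ a b, Commute (e a b) (γ (q i').1 * val (g (p i'))) := fun a b =>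
      Commute.mul_right (hS.comm _ _ _).symm (hW.comm _ _ _).symm
    exact (h1 _ _).mul_left (h1 _ _)
  have hd := df_bl hS.bl hU
  have h3 : ∀ g : ι → W, ‖Λ (df T U (xx e U α π (fun a => val (g a)) p))‖ ≤
      ∑ q : Fin j → κ × ι × ι, ‖∏ i, c (q i)‖ * ∑ x, ‖c x‖ * (δ' + δ'⁻¹ * (Fintype.card κ *
        F (op j fun i => γ (q i).1 * val (g (p i))))) := by
    intro g
    rw [hx, hd.map_sum, map_sum]
    refine (norm_sum_le _ _).trans (Finset.sum_le_sum fun q _ => ?_)
    rw [hd.map_smul, map_smul, norm_smul]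
    gcongr
    refine (df_word hΛ hS hU hc (op_mem _ _ _ fun i => mul_mem (hS.unit _) (hW.unit _))
      (op_mem _ _ _ fun i => mul_mem (fun y => hS.mod y _ _) (fun y => hS.mod y _ _))
      (op_norm_le _ _ fun i => (norm_mul_le _ _).trans (mul_le_one₀ (hS.mu.norm_le _ _)
        (norm_nonneg _) (hS.mu.norm_le _ _)))
      (fun k => op_commute _ _ fun i => Commute.mul_left (hS.comm _ _ _).symm
        (hS.comm _ _ _).symm)).trans (Finset.sum_le_sum fun x _ => ?_)
    gcongr
    set w := op j fun i => γ (q i).1 * val (g (p i))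
    have h4 := amgm hδ' 1 ‖v (w * γ x.1) - v w‖
    rw [one_mul, one_pow, mul_one] at h4
    refine h4.trans ?_
    gcongr
    simp only [F]
    rw [Finset.expect_eq_sum_div_card, Finset.card_univ, mul_div_cancel₀ _ (by positivity)]
    exact Finset.single_le_sum (f := fun k => ‖v (w * γ k) - v w‖ ^ 2) (fun _ _ => sq_nonneg _)
      (mem_univ _)
  refine (Finset.expect_le_expect fun g _ => h3 g).trans ?_
  simp only [Finset.expect_sum_comm, ← Finset.mul_expect, Finset.expect_add_distrib,
    Finset.expect_const univ_nonempty]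
  calc _ ≤ ∑ q : Fin j → κ × ι × ι, ‖∏ i, c (q i)‖ * ∑ x, ‖c x‖ * (δ' + δ'⁻¹ * δ' ^ 2) := by
        gcongr with q _ x _
        refine le_trans ?_ hm
        rw [mul_assoc]
        gcongr
        exact walk_dom hW j p (fun i => (q i).1) hp F hF
    _ = B * (2 * δ') := by
        rw [show δ' + δ'⁻¹ * δ' ^ 2 = 2 * δ' by field_simp; ring]
        simp only [B, Finset.sum_mul, mul_assoc]
    _ ≤ δ := by
        simp only [δ']
        rw [mul_div_assoc', mul_div_assoc', div_le_iff₀ (by positivity)]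
        nlinarith

end Crest.Agent.R121.Core
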