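import Crest.Agent.R121.Basic

/-!
# Row 121: the corner `e A e` as a unital C⋆-algebra
-/

set_option autoImplicit false

namespace Crest.Agent.R121

open scoped BigOperators _root_.Topology

namespace Avg

variable {A : Type*} [CStarAlgebra A] {e : A}

/-- the corner as a non-unital star subalgebra -/
def corSub (he : IsStarProjection e) : NonUnitalStarSubalgebra ℂ A where
  carrier := {x | Cor e x}
  add_mem' := fun hx hy => Cor.add hx hy
  zero_mem' := Cor.zero e
  mul_mem' := fun hx hy => Cor.mul hx hy
  smul_mem' := fun c _ hx => Cor.smul c hx
  star_mem' := fun hx => Cor.star he hx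

instance (he : IsStarProjection e) : IsClosed (corSub he : Set A) :=
  (isClosed_eq (by fun_prop) continuous_id).inter (isClosed_eq (by fun_prop) continuous_id)

/-- the corner as a type -/
def Corner (he : IsStarProjection e) : Type _ := ↥(corSub he)

variable {he : IsStarProjection e}

/-- the non-unital structure -/
@[reducible] noncomputable def Corner.nu : NonUnitalCStarAlgebra (Corner he) :=
  inferInstanceAs (NonUnitalCStarAlgebra ↥(corSub he))

/-- the ring structure -/
@[reducible] noncomputable def Corner.ring : Ring (Corner he) :=
  { (Corner.nu (he := he)).toNonUnitalNormedRing.toNonUnitalRing with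
    one := ⟨e, Cor.self he⟩
    one_mul := fun x => Subtype.ext x.2.1
    mul_one := fun x => Subtype.ext x.2.2 }

/-- the normed ring structure -/
@[reducible] noncomputable def Corner.normedRing : NormedRing (Corner he) :=
  { Corner.ring (he := he), (Corner.nu (he := he)).toNonUnitalNormedRing with }

noncomputable instance : CStarAlgebra (Corner he) :=
  letI := Corner.normedRing (he := he)
  letI : Module ℂ (Corner he) := (Corner.nu (he := he)).toNormedSpace.toModule
  letI : Algebra ℂ (Corner he) := Algebra.ofModule
    (fun c x y => Subtype.ext (smul_mul_assoc c x.1 y.1))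
    (fun c x y => Subtype.ext (mul_smul_comm c x.1 y.1))
  { Corner.normedRing (he := he), (Corner.nu (he := he)).toStarRing,
    (inferInstance : Algebra ℂ (Corner he)) with
    complete := (Corner.nu (he := he)).toCompleteSpace.complete
    norm_mul_self_le := fun x => CStarRing.norm_mul_self_le x.1
    norm_smul_le := fun c x => norm_smul_le c x.1
    star_smul := fun c x => Subtype.ext (star_smul c x.1) }

/-- the underlying element -/
def Corner.val (x : Corner he) : A := x.1

/-- an element of the corner -/
def Corner.mk (he : IsStarProjection e) (x : A) (hx : Cor e x) : Corner he := ⟨x, hx⟩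

lemma Corner.cor (x : Corner he) : Cor e x.val := x.2
lemma Corner.ext {x y : Corner he} (h : x.val = y.val) : x = y := Subtype.ext h
@[simp] lemma Corner.val_mk (x : A) (hx : Cor e x) : (Corner.mk he x hx).val = x := rfl
@[simp] lemma Corner.val_one : (1 : Corner he).val = e := rfl
@[simp] lemma Corner.val_zero : (0 : Corner he).val = 0 := rfl
@[simp] lemma Corner.val_mul (x y : Corner he) : (x * y).val = x.val * y.val := rfl
@[simp] lemma Corner.val_add (x y : Corner he) : (x + y).val = x.val + y.val := rfl
@[simp] lemma Corner.val_smul (c : ℂ) (x : Corner he) : (c • x).val = c • x.val := rfl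
@[simp] lemma Corner.val_star (x : Corner he) : (star x).val = star x.val := rfl
lemma Corner.norm_val (x : Corner he) : ‖x.val‖ = ‖x‖ := rfl

/-- the inclusion as a linear map -/
def Corner.valL (he : IsStarProjection e) : Corner he →ₗ[ℂ] A where
  toFun := Corner.val
  map_add' := Corner.val_add
  map_smul' := Corner.val_smul

@[simp] lemma Corner.val_sum {α : Type*} (s : Finset α) (x : α → Corner he) :
    (∑ a ∈ s, x a).val = ∑ a ∈ s, (x a).val := map_sum (Corner.valL he) x s

end Avg

end Crest.Agent.R121
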