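import Crest.Agent.R124.Struct
import Crest.Prelude.Def_Hochschild

/-!
# Row 121 (S0161, vanishing of the bounded Hochschild cohomology of von Neumann algebras)

Interface.  All intermediate statements are `def …Stmt : Prop`; each is proved in its own file.
-/

set_option autoImplicit false

namespace Crest.Agent.R121

open scoped InnerProductSpace ComplexOrder BigOperators _root_.Topology
open Finset Filter
open Crest.Agent.R124 (Op)

universe u

/-! ## bounded linear maps, averaging operators, cochains on lists -/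

section alg
variable {A : Type*} [NormedRing A] [NormedAlgebra ℂ A]

/-- `T` is linear with norm at most `C` -/
structure BL (T : A → A) (C : ℝ) : Prop where
  lin : IsLinearMap ℂ T
  nonneg : 0 ≤ C
  bd : ∀ y, ‖T y‖ ≤ C * ‖y‖

/-- a class of "bounded" maps closed under the module operations -/
structure Cls (Bd : (A → A) → ℝ → Prop) : Prop where
  add : ∀ T T' C C', Bd T C → Bd T' C' → ∃ C'', Bd (fun y => T y + T' y) C''
  smul : ∀ (c : ℂ) T C, Bd T C → ∃ C', Bd (fun y => c • T y) C'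
  left : ∀ (c : A) T C, Bd T C → ∃ C', Bd (fun y => c * T y) C'
  right : ∀ (x : A) T C, Bd T C → ∃ C', Bd (fun y => T (x * y)) C'
  mul : ∀ a : A, ∃ C, Bd (fun y => a * y) C

/-- an "invariant mean" on the class `Bd`, normalised by `z` -/
structure Rho (Bd : (A → A) → ℝ → Prop) (z : A) (ρ : (A → A) → A) : Prop where
  norm : ∀ T C, Bd T C → ‖ρ T‖ ≤ C
  add : ∀ T T' C C', Bd T C → Bd T' C' → ρ (fun y => T y + T' y) = ρ T + ρ T'
  smul : ∀ (c : ℂ) T C, Bd T C → ρ (fun y => c • T y) = c • ρ T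
  left : ∀ (c : A) T C, Bd T C → ρ (fun y => c * T y) = c * ρ T
  right : ∀ (x : A) T C, Bd T C → ρ (fun y => T (x * y)) = ρ T * x
  mul : ∀ a : A, ρ (fun y => a * y) = z * a

/-- admissible averaging operators on the bounded maps -/
structure Adm (P : (A → A) → (A → A)) : Prop where
  bl : ∀ T C, BL T C → BL (P T) C
  add : ∀ T T' C C', BL T C → BL T' C' → P (fun y => T y + T' y) = fun y => P T y + P T' y
  smul : ∀ (c : ℂ) T C, BL T C → P (fun y => c • T y) = fun y => c • P T y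
  left : ∀ (c : A) T C, BL T C → P (fun y => c * T y) = fun y => c * P T y
  right : ∀ (x : A) T C, BL T C → P (fun y => T (x * y)) = fun y => P T (x * y)
  mul : ∀ a : A, P (fun y => a * y) = fun y => a * y

/-- `x` lies in the corner `e A e` -/
def Cor (e x : A) : Prop := e * x = x ∧ x * e = x

/-- `y ↦ T (y e) e` is a right `e A e`-module map -/
def Modular (e : A) (T : A → A) : Prop := ∀ y n, Cor e n → T (y * n) * e = T (y * e) * n

/-- the Hochschild differential without its first term, on lists -/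
def D0 : List A → (List A → A) → A
  | [], _ => 0
  | [a], f => -(f [] * a)
  | a :: b :: l, f => -f (a * b :: l) - D0 (b :: l) (fun l' => f (a :: l'))

/-- the Hochschild differential on lists -/
def dd (f : List A → A) : List A → A
  | [] => 0
  | a :: l => a * f l + D0 (a :: l) f

/-- on lists of length `k`, `f` is multilinear with bound `C` -/
def BML : ℕ → ℝ → (List A → A) → Prop
  | 0, C, f => ‖f []‖ ≤ C
  | k + 1, C, f => (∀ l : List A, l.length = k → IsLinearMap ℂ (fun a => f (a :: l))) ∧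
      ∀ a, BML k (C * ‖a‖) (fun l => f (a :: l))

/-- product of the norms -/
noncomputable def nprod (l : List A) : ℝ := (l.map fun a => ‖a‖).prod

/-- `z f` is a coboundary in degree `k + 1` -/
def Cob (z : A) (k : ℕ) (f : List A → A) : Prop :=
  ∃ (g : List A → A) (C' : ℝ), BML k C' g ∧ ∀ l : List A, l.length = k + 1 → dd g l = z * f l

end alg

section star
variable {A : Type*} [NormedRing A] [NormedAlgebra ℂ A] [StarRing A]

/-- central projection -/
structure CProj (z : A) : Prop where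
  proj : IsStarProjection z
  comm : ∀ a, z * a = a * z

/-- matrix units with diagonal sum `o` -/
structure MU {ι : Type} [Fintype ι] [DecidableEq ι] (e : ι → ι → A) (o : A) : Prop where
  mul : ∀ a b c d, e a b * e c d = if b = c then e a d else 0
  star : ∀ a b, star (e a b) = e b a
  sum : ∑ a, e a a = o

/-- matrix units of arbitrarily large size with unit `o` -/
def Divis (o : A) : Prop :=
  ∀ m₀ : ℕ, ∃ (ι : Type) (_ : Fintype ι) (_ : DecidableEq ι) (e : ι → ι → A),
    m₀ ≤ Fintype.card ι ∧ MU e o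

/-- tracial state -/
structure Tr (τ : A →ₗ[ℂ] ℂ) : Prop where
  one : τ 1 = 1
  trace : ∀ x y, τ (x * y) = τ (y * x)
  pos : ∀ x, 0 ≤ τ (star x * x)

/-- the data of the core estimate -/
structure Setup {ι κ : Type} [Fintype ι] [DecidableEq ι] [Fintype κ] (e : ι → ι → A) (γ : κ → A)
    (T : A → A) (C : ℝ) : Prop where
  mu : MU e 1
  unit : ∀ k, γ k ∈ unitary A
  comm : ∀ k a b, γ k * e a b = e a b * γ k
  symm : ∃ σ : κ → κ, Function.Involutive σ ∧ ∀ k, γ (σ k) = star (γ k)
  bl : BL T C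
  mod : ∀ y a b, T (y * e a b) = T y * e a b
  harm : ∀ y, ∑ k, T (y * γ k) * star (γ k) = (Fintype.card κ : ℂ) • T y

/-- `V` is a linear combination of the `γ k * e a b` -/
def InSpan {ι κ : Type} [Fintype ι] [Fintype κ] (e : ι → ι → A) (γ : κ → A) (V : A) : Prop :=
  ∃ c : κ → ι → ι → ℂ, V = ∑ k, ∑ a, ∑ b, c k a b • (γ k * e a b)

end star

/-! ## von Neumann algebras -/

section vn
variable {H : Type*} [NormedAddCommGroup H] [InnerProductSpace ℂ H] [CompleteSpace H]

/-- a von Neumann algebra as a type -/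
abbrev Alg (M : VonNeumannAlgebra H) : Type _ := ↥M.toStarSubalgebra

instance (M : VonNeumannAlgebra H) : IsClosed (M.toStarSubalgebra : Set (Op H)) :=
  R124.VN.isClosed M

noncomputable instance (M : VonNeumannAlgebra H) : CStarAlgebra (Alg M) :=
  StarSubalgebra.cstarAlgebra M.toStarSubalgebra

variable {M : VonNeumannAlgebra H}

/-- convergence in the weak operator topology -/
def WLim {I : Type*} (l : Filter I) (f : I → Alg M) (a : Alg M) : Prop :=
  ∀ ξ η : H, Tendsto (fun i => ⟪η, (f i : Op H) ξ⟫_ℂ) l (𝓝 ⟪η, (a : Op H) ξ⟫_ℂ)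

/-- the operator matrix `x` has norm at most `r` -/
def MatB {I J : Type} [Fintype I] [Fintype J] (x : I → J → Alg M) (r : ℝ) : Prop :=
  ∀ α : J → H, ∑ i, ‖∑ j, (x i j : Op H) (α j)‖ ^ 2 ≤ r ^ 2 * ∑ j, ‖α j‖ ^ 2

/-- `T` is completely bounded with bound `C` -/
structure CB (T : Alg M → Alg M) (C : ℝ) : Prop where
  lin : IsLinearMap ℂ T
  nonneg : 0 ≤ C
  cb : ∀ (I J : Type) [Fintype I] [Fintype J] (x : I → J → Alg M) (r : ℝ), 0 ≤ r → MatB x r →
    MatB (fun i j => T (x i j)) (C * r)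

/-- the functional `a ↦ ⟪v, a ξ⟫` is a faithful tracial state on the corner `e M e` -/
structure Trc (e : Alg M) (ξ v : H) : Prop where
  one : ⟪v, (e : Op H) ξ⟫_ℂ = 1
  trace : ∀ x y : Alg M, Cor e x → Cor e y →
    ⟪v, ((x * y : Alg M) : Op H) ξ⟫_ℂ = ⟪v, ((y * x : Alg M) : Op H) ξ⟫_ℂ
  pos : ∀ x : Alg M, Cor e x → 0 ≤ ⟪v, ((star x * x : Alg M) : Op H) ξ⟫_ℂ
  faith : ∀ x : Alg M, Cor e x → ⟪v, ((star x * x : Alg M) : Op H) ξ⟫_ℂ = 0 → x = 0

/-- the vector state of `ξ` is faithful and quasi-invariant on the corner `g M g` -/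
structure Quasi (g : Alg M) (ξ : H) : Prop where
  ne : g ≠ 0
  sep : ∀ x : Alg M, Cor g x → (x : Op H) ξ = 0 → x = 0
  inv : ∀ w : Alg M, Cor g w → w * star w * w = w →
    ‖(w : Op H) ξ‖ ^ 2 ≤ 2 * ‖((star w : Alg M) : Op H) ξ‖ ^ 2

/-- pairing of a formal sum `∑ x ⊗ η` with a map `T` and a vector `ζ` -/
noncomputable def pair (z : Alg M →₀ H) (T : Alg M → Alg M) (ζ : H) : ℂ :=
  z.sum fun x η => ⟪η, (T x : Op H) ζ⟫_ℂ

/-- a Hilbertian seminorm (squared) on formal sums, compatible with the right module structure -/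
structure QForm (Q : (Alg M →₀ H) → ℝ) (C : ℝ) : Prop where
  nonneg : ∀ z, 0 ≤ Q z
  par : ∀ z z', Q (z + z') + Q (z - z') = 2 * Q z + 2 * Q z'
  smul : ∀ (c : ℂ) z, Q (c • z) = ‖c‖ ^ 2 * Q z
  col : ∀ (L : Type) [Fintype L] (m : L → Alg M), ∑ l, star (m l) * m l = 1 →
    ∀ z, ∑ l, Q (z.mapDomain fun x => x * star (m l)) ≤ Q z
  single : ∀ x η, Q (Finsupp.single x η) ≤ (C * ‖x‖ * ‖η‖) ^ 2

end vn

/-! ## statements -/

/-- passage between lists and `Fin`-indexed continuous multilinear maps -/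
def BridgeStmt : Prop :=
  ∀ (A : Type u) [NormedRing A] [NormedAlgebra ℂ A] (n : ℕ),
    (∀ (C : ℝ) (f : List A → A), 0 ≤ C → BML (n + 1) C f →
      (∀ l : List A, l.length = n + 2 → dd f l = 0) → Cob 1 n f) →
    ∀ f : ContinuousMultilinearMap ℂ (fun _ : Fin (n + 1) => A) A,
      (∀ a : Fin (n + 2) → A, Crest.OpAlg.hochschildDiff f a = 0) →
      ∃ g : ContinuousMultilinearMap ℂ (fun _ : Fin n => A) A,
        ∀ a : Fin (n + 1) → A, Crest.OpAlg.hochschildDiff g a = f a

/-- an invariant mean trivialises cocycles -/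
def CocStmt : Prop :=
  ∀ (A : Type u) [NormedRing A] [NormedAlgebra ℂ A] (Bd : (A → A) → ℝ → Prop) (z : A)
    (ρ : (A → A) → A), Cls Bd → Rho Bd z ρ → ∀ (k : ℕ) (C : ℝ) (f : List A → A),
    BML (k + 1) C f → (∀ l : List A, l.length = k → Bd (fun y => f (l ++ [y])) (C * nprod l)) →
    (∀ l : List A, l.length = k + 2 → dd f l = 0) → Cob z k f

/-- `d ∘ d = 0` -/
def DDStmt : Prop :=
  ∀ (A : Type u) [NormedRing A] [NormedAlgebra ℂ A] (g : List A → A) (l : List A),
    2 ≤ l.length → dd (dd g) l = 0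

/-- in a properly infinite summand every cocycle is cohomologous to one that is completely bounded
in the last variable -/
def AmpStmt : Prop :=
  ∀ (H : Type u) [NormedAddCommGroup H] [InnerProductSpace ℂ H] [CompleteSpace H]
    (M : VonNeumannAlgebra H) (o w₁ w₂ : Alg M), CProj o → star w₁ * w₁ = o → star w₂ * w₂ = o →
    star w₁ * w₂ = 0 → ∀ (k : ℕ) (C : ℝ) (f : List (Alg M) → Alg M), 0 ≤ C → BML (k + 1) C f →
    (∀ l : List (Alg M), l.length = k + 2 → dd f l = 0) →
    ∃ (g f' : List (Alg M) → Alg M) (C' : ℝ), BML k C' g ∧ BML (k + 1) C f' ∧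
      (∀ l : List (Alg M), l.length = k + 1 → dd g l = o * f l - f' l) ∧
      ∀ l : List (Alg M), l.length = k → CB (fun y => f' (l ++ [y])) (C * nprod l)

/-- Wittstock–Haagerup–Paulsen domination -/
def QStmt : Prop :=
  ∀ (H : Type u) [NormedAddCommGroup H] [InnerProductSpace ℂ H] [CompleteSpace H]
    (M : VonNeumannAlgebra H) (T : Alg M → Alg M) (C : ℝ), CB T C →
    ∃ Q : (Alg M →₀ H) → ℝ, QForm Q C ∧ ∀ z ζ, ‖pair z T ζ‖ ^ 2 ≤ Q z * ‖ζ‖ ^ 2

/-- the Christensen–Sinclair mean on completely bounded maps -/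
def MinStmt : Prop :=
  ∀ (H : Type u) [NormedAddCommGroup H] [InnerProductSpace ℂ H] [CompleteSpace H]
    (M : VonNeumannAlgebra H), ∃ ρ : (Alg M → Alg M) → Alg M, Rho CB 1 ρ

/-- from a corner to its central cover -/
def MoritaStmt : Prop :=
  ∀ (H : Type u) [NormedAddCommGroup H] [InnerProductSpace ℂ H] [CompleteSpace H]
    (M : VonNeumannAlgebra H) (e : Alg M) (P : (Alg M → Alg M) → (Alg M → Alg M)),
    IsStarProjection e → Adm P → (∀ T C, BL T C → Modular e (P T)) →
    ∃ (z : Alg M) (ρ : (Alg M → Alg M) → Alg M), CProj z ∧ z * e = e ∧ Rho BL z ρ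

/-- the largest central projection carrying a mean -/
def GlueStmt : Prop :=
  ∀ (H : Type u) [NormedAddCommGroup H] [InnerProductSpace ℂ H] [CompleteSpace H]
    (M : VonNeumannAlgebra H), ∃ (z : Alg M) (ρ : (Alg M → Alg M) → Alg M), CProj z ∧ Rho BL z ρ ∧
      ∀ (z' : Alg M) (ρ' : (Alg M → Alg M) → Alg M), CProj z' → Rho BL z' ρ' → z * z' = z'

/-- abelian corners -/
def AbelStmt : Prop :=
  ∀ (H : Type u) [NormedAddCommGroup H] [InnerProductSpace ℂ H] [CompleteSpace H]
    (M : VonNeumannAlgebra H) (e : Alg M), IsStarProjection e →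
    (∀ a b, Cor e a → Cor e b → a * b = b * a) →
    ∃ P : (Alg M → Alg M) → (Alg M → Alg M), Adm P ∧ ∀ T C, BL T C → Modular e (P T)

/-- forward and backward means along the powers of a unitary agree -/
def FourierStmt : Prop :=
  ∃ K : ℝ, ∀ L : ℝ, ∃ (J : ℕ) (c : ℕ → ℝ), (∀ j, 0 ≤ c j) ∧ L ≤ ∑ j ∈ range J, c j ∧
    ∀ (N : Type u) [CStarAlgebra N] (τ : N →ₗ[ℂ] ℂ), Tr τ → ∀ (T : N → N) (C : ℝ), BL T C →
    ∀ S ∈ unitary N, ‖∑ j ∈ range J, (c j : ℂ) *
      (τ (T (S ^ (j + 1)) * star S ^ (j + 1)) - τ (T (star S ^ (j + 1)) * S ^ (j + 1)))‖ ≤ K * C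

/-- the core estimate -/
def CoreStmt : Prop :=
  ∀ ε : ℝ, 0 < ε → ∃ n₀ : ℕ, ∀ (N : Type u) [CStarAlgebra N] (τ : N →ₗ[ℂ] ℂ), Tr τ →
    ∀ (ι κ : Type) [Fintype ι] [DecidableEq ι] [Fintype κ] [Nonempty κ] (e : ι → ι → N)
      (γ : κ → N) (T : N → N) (C : ℝ), n₀ ≤ Fintype.card ι → Setup e γ T C →
      ∀ U ∈ unitary N, InSpan e γ U → InSpan e γ (star U) →
        ‖τ (T U * star U) - τ (T 1)‖ ≤ ε * C

/-- tracial divisible corners -/
def TraceAvgStmt : Prop :=
  ∀ (H : Type u) [NormedAddCommGroup H] [InnerProductSpace ℂ H] [CompleteSpace H]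
    (M : VonNeumannAlgebra H) (e : Alg M) (ξ v : H), IsStarProjection e → Trc e ξ v → Divis e →
    ∃ P : (Alg M → Alg M) → (Alg M → Alg M), Adm P ∧ ∀ T C, BL T C → Modular e (P T)

/-- a quasi-invariant state gives a trace -/
def QuasiStmt : Prop :=
  ∀ (H : Type u) [NormedAddCommGroup H] [InnerProductSpace ℂ H] [CompleteSpace H]
    (M : VonNeumannAlgebra H) (g : Alg M) (ξ : H), IsStarProjection g → Quasi g ξ →
    ∃ v, Trc g ξ v

/-- without quasi-invariant states a projection is properly infinite -/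
def InfStmt : Prop :=
  ∀ (H : Type u) [NormedAddCommGroup H] [InnerProductSpace ℂ H] [CompleteSpace H]
    (M : VonNeumannAlgebra H) (o : Alg M), IsStarProjection o →
    (∀ (g : Alg M) (ξ : H), IsStarProjection g → o * g = g → ¬ Quasi g ξ) →
    ∃ w₁ w₂ : Alg M, star w₁ * w₁ = o ∧ star w₂ * w₂ = o ∧ star w₁ * w₂ = 0

end Crest.Agent.R121
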