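import Crest.Agent.R121.Basic

/-!
# Row 121: the mean on completely bounded maps (`MinStmt`)
-/

set_option autoImplicit false

namespace Crest.Agent.R121

open scoped InnerProductSpace ComplexOrder BigOperators _root_.Topology
open Finset Filter
open Crest.Agent.R124 (Op)

universe u

namespace Min

variable {H : Type*} [NormedAddCommGroup H] [InnerProductSpace ℂ H] [CompleteSpace H]
  {M : VonNeumannAlgebra H}

/-! ### the pairing -/

lemma pair_zero (T : Alg M → Alg M) (ζ : H) : pair (0 : Alg M →₀ H) T ζ = 0 := by simp [pair]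

lemma pair_add (z z' : Alg M →₀ H) (T : Alg M → Alg M) (ζ : H) :
    pair (z + z') T ζ = pair z T ζ + pair z' T ζ :=
  Finsupp.sum_add_index' (fun _ => inner_zero_left _) (fun _ _ _ => inner_add_left _ _ _)

lemma pair_smul (c : ℂ) (z : Alg M →₀ H) (T : Alg M → Alg M) (ζ : H) :
    pair (c • z) T ζ = (starRingEnd ℂ) c * pair z T ζ := by
  unfold pair
  rw [Finsupp.sum_smul_index' (h := fun x η => ⟪η, (T x : Op H) ζ⟫_ℂ) (fun _ => inner_zero_left _)]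
  simp only [inner_smul_left, Finsupp.sum, Finset.mul_sum]

lemma pair_sub (z z' : Alg M →₀ H) (T : Alg M → Alg M) (ζ : H) :
    pair (z - z') T ζ = pair z T ζ - pair z' T ζ := by
  rw [eq_sub_iff_add_eq, ← pair_add, sub_add_cancel]

lemma pair_single (x : Alg M) (η : H) (T : Alg M → Alg M) (ζ : H) :
    pair (Finsupp.single x η) T ζ = ⟪η, (T x : Op H) ζ⟫_ℂ :=
  Finsupp.sum_single_index (inner_zero_left _)

lemma pair_mapDomain (g : Alg M → Alg M) (z : Alg M →₀ H) (T : Alg M → Alg M) (ζ : H) :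
    pair (z.mapDomain g) T ζ = pair z (fun x => T (g x)) ζ :=
  Finsupp.sum_mapDomain_index (fun _ => inner_zero_left _) (fun _ _ _ => inner_add_left _ _ _)

lemma pair_tendsto {I : Type*} {l : Filter I} {T : I → Alg M → Alg M} {T' : Alg M → Alg M}
    (h : ∀ y, WLim l (fun i => T i y) (T' y)) (z : Alg M →₀ H) (ζ : H) :
    Tendsto (fun i => pair z (T i) ζ) l (𝓝 (pair z T' ζ)) :=
  tendsto_finsetSum _ fun x _ => h x ζ (z x)

/-! ### columns -/

/-- `m` is an isometric column -/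
def Col {L : Type} [Fintype L] (m : L → Alg M) : Prop := ∑ l, star (m l) * m l = 1

lemma Col.sum_sq {L : Type} [Fintype L] {m : L → Alg M} (h : Col m) (ξ : H) :
    ∑ l, ‖(m l : Op H) ξ‖ ^ 2 = ‖ξ‖ ^ 2 := by
  rw [sum_norm_app_sq, h, one_app, inner_self_eq_norm_sq_to_K]; norm_cast

lemma Col.row {L : Type} [Fintype L] {m : L → Alg M} (h : Col m) (α : L → H) :
    ‖∑ l, ((star (m l) : Alg M) : Op H) (α l)‖ ^ 2 ≤ ∑ l, ‖α l‖ ^ 2 := by
  set η := ∑ l, ((star (m l) : Alg M) : Op H) (α l) with hη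
  have h1 : ((‖η‖ ^ 2 : ℝ) : ℂ) = ∑ l, ⟪(m l : Op H) η, α l⟫_ℂ := by
    have : ⟪η, η⟫_ℂ = ∑ l, ⟪(m l : Op H) η, α l⟫_ℂ := by
      nth_rewrite 2 [hη]
      rw [inner_sum]
      exact Finset.sum_congr rfl fun l _ => inner_star_r _ _ _
    rw [← this, inner_self_eq_norm_sq_to_K]; norm_cast
  have h2 := R124.norm_sum_inner_le univ (fun l => (m l : Op H) η) α
  rw [← h1, h.sum_sq, Complex.norm_real, Real.norm_of_nonneg (sq_nonneg _),
    Real.sqrt_sq (norm_nonneg _)] at h2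
  have h3 : 0 ≤ ∑ l, ‖α l‖ ^ 2 := Finset.sum_nonneg fun _ _ => sq_nonneg _
  have h4 := Real.sq_sqrt h3
  have h5 := Real.sqrt_nonneg (∑ l, ‖α l‖ ^ 2)
  nlinarith [norm_nonneg η, sq_nonneg (‖η‖ - √(∑ l, ‖α l‖ ^ 2))]

lemma Col.mul {L J : Type} [Fintype L] [Fintype J] {m : L → Alg M} {n : J → Alg M} (h : Col m)
    (h' : Col n) : Col (fun p : J × L => m p.2 * n p.1) := by
  unfold Col at *
  rw [Fintype.sum_prod_type, ← h']
  refine Finset.sum_congr rfl fun j _ => ?_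
  have : ∀ l, star (m l * n j) * (m l * n j) = star (n j) * (star (m l) * m l) * n j := fun l => by
    simp only [star_mul, mul_assoc]
  simp only [this, ← Finset.sum_mul, ← Finset.mul_sum, h, mul_one]

/-- averaging along a column -/
noncomputable def Av {L : Type} [Fintype L] (m : L → Alg M) (T : Alg M → Alg M) (y : Alg M) :
    Alg M := ∑ l, T (y * star (m l)) * m l

lemma pair_Av {L : Type} [Fintype L] (m : L → Alg M) (z : Alg M →₀ H) (T : Alg M → Alg M)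
    (ζ : H) : pair z (Av m T) ζ =
      ∑ l, pair (z.mapDomain fun x => x * star (m l)) T ((m l : Op H) ζ) := by
  simp only [pair_mapDomain]
  unfold pair Av Finsupp.sum
  rw [Finset.sum_comm]
  refine Finset.sum_congr rfl fun x _ => ?_
  simp only [sum_app, inner_sum, mul_app]

lemma cb_Av {L : Type} [Fintype L] {m : L → Alg M} (hm : Col m) {T : Alg M → Alg M} {C : ℝ}
    (h : CB T C) : CB (Av m T) C := by
  refine ⟨(BL.sum univ fun l _ => (h.bl.rarg (star (m l))).rmul (m l)).lin, h.nonneg,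
    fun I J _ _ x r hr hx α => ?_⟩
  have h1 : MatB (fun i (p : J × L) => x i p.1 * star (m p.2)) r := fun β => by
    have := hx fun j => ∑ l, ((star (m l) : Alg M) : Op H) (β (j, l))
    simp only [Fintype.sum_prod_type, mul_app, ← map_sum]
    refine this.trans (mul_le_mul_of_nonneg_left (Finset.sum_le_sum fun j _ => ?_) (sq_nonneg _))
    exact hm.row _
  have h2 := h.cb I (J × L) _ r hr h1 fun p => (m p.2 : Op H) (α p.1)
  simp only [Fintype.sum_prod_type, hm.sum_sq] at h2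
  simpa only [Av, sum_app, mul_app] using h2

/-! ### the seminorm `nu` -/

/-- `T` is dominated by `Q` -/
def Dom (Q : (Alg M →₀ H) → ℝ) (T : Alg M → Alg M) : Prop :=
  ∀ z ζ, ‖pair z T ζ‖ ^ 2 ≤ Q z * ‖ζ‖ ^ 2

noncomputable def nu (Q : (Alg M →₀ H) → ℝ) (T : Alg M → Alg M) (ζ : H) : ℝ :=
  sSup {s | ∃ z, Q z ≤ 1 ∧ s = ‖pair z T ζ‖ ^ 2}

variable {Q : (Alg M →₀ H) → ℝ} {C : ℝ}

lemma Q_zero (hQ : QForm Q C) : Q 0 = 0 := by simpa using hQ.smul 0 0

lemma nu_le (hQ : QForm Q C) {T : Alg M → Alg M} {ζ : H} {r : ℝ}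
    (h : ∀ z, Q z ≤ 1 → ‖pair z T ζ‖ ^ 2 ≤ r) : nu Q T ζ ≤ r :=
  csSup_le ⟨_, 0, by rw [Q_zero hQ]; exact zero_le_one, rfl⟩ (by rintro _ ⟨z, hz, rfl⟩; exact h z hz)

lemma le_nu {T : Alg M → Alg M} (hT : Dom Q T) {ζ : H} {z : Alg M →₀ H} (hz : Q z ≤ 1) :
    ‖pair z T ζ‖ ^ 2 ≤ nu Q T ζ :=
  le_csSup ⟨‖ζ‖ ^ 2, by
    rintro _ ⟨z, hz, rfl⟩
    exact (hT z ζ).trans (by nlinarith [sq_nonneg ‖ζ‖])⟩ ⟨z, hz, rfl⟩

lemma nu_nonneg (hQ : QForm Q C) {T : Alg M → Alg M} (hT : Dom Q T) (ζ : H) : 0 ≤ nu Q T ζ :=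
  (sq_nonneg _).trans (le_nu hT (z := 0) (by rw [Q_zero hQ]; exact zero_le_one))

lemma nu_le_sq (hQ : QForm Q C) {T : Alg M → Alg M} (hT : Dom Q T) (ζ : H) :
    nu Q T ζ ≤ ‖ζ‖ ^ 2 :=
  nu_le hQ fun z hz => (hT z ζ).trans (by nlinarith [sq_nonneg ‖ζ‖])

lemma le_nu_mul (hQ : QForm Q C) {T : Alg M → Alg M} (hT : Dom Q T) (ζ : H) (z : Alg M →₀ H) :
    ‖pair z T ζ‖ ^ 2 ≤ nu Q T ζ * Q z := by
  rcases (hQ.nonneg z).eq_or_lt with h0 | h0
  · have := hT z ζ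
    rw [← h0] at this ⊢
    simpa using this
  · have hs : 0 < √(Q z) := Real.sqrt_pos.2 h0
    have hn : ‖(((√(Q z))⁻¹ : ℝ) : ℂ)‖ ^ 2 = (Q z)⁻¹ := by
      rw [Complex.norm_real, Real.norm_of_nonneg (by positivity), inv_pow, Real.sq_sqrt h0.le]
    have := le_nu hT (ζ := ζ) (z := (((√(Q z))⁻¹ : ℝ) : ℂ) • z)
      (by rw [hQ.smul, hn, inv_mul_cancel₀ h0.ne'])
    rw [pair_smul, norm_mul, mul_pow, Complex.norm_conj, hn, inv_mul_le_iff₀ h0] at this
    linarith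

lemma sq_sum_le {L : Type} [Fintype L] (x : L → ℂ) (a b : L → ℝ) (ha : ∀ l, 0 ≤ a l)
    (hb : ∀ l, 0 ≤ b l) (h : ∀ l, ‖x l‖ ^ 2 ≤ a l * b l) :
    ‖∑ l, x l‖ ^ 2 ≤ (∑ l, a l) * ∑ l, b l :=
  (pow_le_pow_left₀ (norm_nonneg _) (norm_sum_le _ _) 2).trans
    (Finset.sum_sq_le_sum_mul_sum_of_sq_le_mul univ (fun l _ => ha l) (fun l _ => hb l)
      fun l _ => h l)

lemma dom_Av (hQ : QForm Q C) {L : Type} [Fintype L] {m : L → Alg M} (hm : Col m)
    {T : Alg M → Alg M} (hT : Dom Q T) : Dom Q (Av m T) := fun z ζ => by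
  rw [pair_Av, ← hm.sum_sq]
  refine (sq_sum_le _ _ _ (fun l => hQ.nonneg _) (fun l => sq_nonneg _) fun l => hT _ _).trans ?_
  exact mul_le_mul_of_nonneg_right (hQ.col L m hm z) (Finset.sum_nonneg fun _ _ => sq_nonneg _)

lemma nu_Av (hQ : QForm Q C) {L : Type} [Fintype L] {m : L → Alg M} (hm : Col m)
    {T : Alg M → Alg M} (hT : Dom Q T) (ζ : H) :
    nu Q (Av m T) ζ ≤ ∑ l, nu Q T ((m l : Op H) ζ) := nu_le hQ fun z hz => by
  rw [pair_Av]
  refine (sq_sum_le _ _ _ (fun l => nu_nonneg hQ hT _) (fun l => hQ.nonneg _)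
    fun l => le_nu_mul hQ hT _ _).trans ?_
  have h1 := hQ.col L m hm z
  have h2 : 0 ≤ ∑ l, nu Q T ((m l : Op H) ζ) := Finset.sum_nonneg fun _ _ => nu_nonneg hQ hT _
  nlinarith

lemma dom_wlim {I : Type*} {l : Filter I} [l.NeBot] {T : I → Alg M → Alg M} {T' : Alg M → Alg M}
    (h : ∀ y, WLim l (fun i => T i y) (T' y)) (hT : ∀ i, Dom Q (T i)) : Dom Q T' := fun z ζ =>
  le_of_tendsto ((pair_tendsto h z ζ).norm.pow 2) (Eventually.of_forall fun i => hT i z ζ)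

/-- lower semicontinuity -/
lemma nu_lsc (hQ : QForm Q C) {I : Type*} {l : Filter I} {T : I → Alg M → Alg M}
    {T' : Alg M → Alg M} (h : ∀ y, WLim l (fun i => T i y) (T' y)) (hT : ∀ i, Dom Q (T i))
    {L : Type} [Fintype L] (ζ : L → H) {s : ℝ} (hs : s < ∑ j, nu Q T' (ζ j)) :
    ∀ᶠ i in l, s < ∑ j, nu Q (T i) (ζ j) := by
  set δ := (∑ j, nu Q T' (ζ j) - s) / (Fintype.card L + 1) with hδ
  have hδ0 : 0 < δ := div_pos (sub_pos.2 hs) (by positivity)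
  have hδ1 : δ * (Fintype.card L + 1) = ∑ j, nu Q T' (ζ j) - s := by
    rw [hδ]; field_simp
  have h1 : ∀ j, ∃ z, Q z ≤ 1 ∧ nu Q T' (ζ j) - δ < ‖pair z T' (ζ j)‖ ^ 2 := fun j => by
    by_contra hc
    push Not at hc
    have := nu_le hQ hc
    linarith
  choose z hz hz' using h1
  have h2 : s < ∑ j, ‖pair (z j) T' (ζ j)‖ ^ 2 := by
    have := Finset.sum_le_sum fun j (_ : j ∈ univ) => (hz' j).le
    rw [Finset.sum_sub_distrib, Finset.sum_const, card_univ, nsmul_eq_mul] at this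
    linarith
  have h3 := tendsto_finsetSum univ fun j _ => (pair_tendsto h (z j) (ζ j)).norm.pow 2
  filter_upwards [h3.eventually (lt_mem_nhds h2)] with i hi
  exact hi.trans_le (Finset.sum_le_sum fun j _ => le_nu (hT i) (hz j))

/-- parallelogram inequality -/
lemma par (hQ : QForm Q C) {T T' : Alg M → Alg M} (hT : Dom Q T) (hT' : Dom Q T') (ζ : H)
    {z₁ z₂ : Alg M →₀ H} {s : ℝ} (h₁ : Q z₁ ≤ 1) (h₂ : Q z₂ ≤ s) (hs : 0 < s) :
    ‖pair z₁ T ζ + pair z₁ T' ζ‖ ^ 2 + ‖pair z₂ T ζ - pair z₂ T' ζ‖ ^ 2 / s ≤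
      2 * (nu Q T ζ + nu Q T' ζ) := by
  set x := pair z₁ T ζ + pair z₁ T' ζ with hx
  set y := pair z₂ T ζ - pair z₂ T' ζ with hy
  set w := ‖x‖ ^ 2 + ‖y‖ ^ 2 / s with hw
  have hw0 : 0 ≤ w := by positivity
  have hs' : (s : ℂ) ≠ 0 := by exact_mod_cast hs.ne'
  have e : (w : ℂ) = pair (x • z₁ + (y / s) • z₂) T ζ + pair (x • z₁ - (y / s) • z₂) T' ζ := by
    simp only [pair_add, pair_sub, pair_smul]
    have : (w : ℂ) = (starRingEnd ℂ) x * x + (starRingEnd ℂ) (y / s) * y := by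
      rw [hw, map_div₀, Complex.conj_ofReal, div_mul_eq_mul_div, Complex.conj_mul', Complex.conj_mul']
      push_cast; ring
    rw [this]
    nth_rewrite 2 [hx]
    nth_rewrite 3 [hy]
    ring
  have hp := hQ.par (x • z₁) ((y / s) • z₂)
  rw [hQ.smul, hQ.smul, norm_div, Complex.norm_real, Real.norm_of_nonneg hs.le] at hp
  have hq : Q (x • z₁ + (y / s) • z₂) + Q (x • z₁ - (y / s) • z₂) ≤ 2 * w := by
    rw [hp, hw]
    have a1 : ‖x‖ ^ 2 * Q z₁ ≤ ‖x‖ ^ 2 := by nlinarith [sq_nonneg ‖x‖]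
    have a2 : (‖y‖ / s) ^ 2 * Q z₂ ≤ ‖y‖ ^ 2 / s := by
      calc (‖y‖ / s) ^ 2 * Q z₂ ≤ (‖y‖ / s) ^ 2 * s := by gcongr
        _ = _ := by field_simp
    linarith
  have h3 := sq_sum_le ![pair (x • z₁ + (y / s) • z₂) T ζ, pair (x • z₁ - (y / s) • z₂) T' ζ]
    ![nu Q T ζ, nu Q T' ζ] ![Q (x • z₁ + (y / s) • z₂), Q (x • z₁ - (y / s) • z₂)]
    (Fin.forall_fin_two.2 ⟨nu_nonneg hQ hT ζ, nu_nonneg hQ hT' ζ⟩)
    (Fin.forall_fin_two.2 ⟨hQ.nonneg _, hQ.nonneg _⟩)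
    (Fin.forall_fin_two.2 ⟨le_nu_mul hQ hT ζ _, le_nu_mul hQ hT' ζ _⟩)
  simp only [Fin.sum_univ_two, Matrix.cons_val_zero, Matrix.cons_val_one] at h3
  rw [← e, Complex.norm_real, Real.norm_of_nonneg hw0] at h3
  have hn : 0 ≤ nu Q T ζ + nu Q T' ζ := add_nonneg (nu_nonneg hQ hT ζ) (nu_nonneg hQ hT' ζ)
  have h4 : w ^ 2 ≤ (nu Q T ζ + nu Q T' ζ) * (2 * w) :=
    h3.trans (mul_le_mul_of_nonneg_left hq hn)
  rcases hw0.eq_or_lt with h0 | h0
  · rw [← h0]; positivity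
  · nlinarith

/-- the parallelogram inequality for the mean `T₁` of `T` and `T'` -/
lemma par' (hQ : QForm Q C) (hC : 0 ≤ C) {T T' T₁ : Alg M → Alg M} (hT : Dom Q T) (hT' : Dom Q T')
    (h₁ : ∀ y, T₁ y = (1 / 2 : ℂ) • (T y + T' y)) (ζ : H) (y : Alg M) :
    ‖((T y - T' y : Alg M) : Op H) ζ‖ ^ 2 ≤
      (C * ‖y‖ + 1) ^ 2 * (2 * (nu Q T ζ + nu Q T' ζ) - 4 * nu Q T₁ ζ) := by
  set η := ((T y - T' y : Alg M) : Op H) ζ with hη
  set K := C * ‖y‖ + 1 with hK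
  have hK0 : 0 < K := by positivity
  have hp : ∀ z, ‖pair z T ζ + pair z T' ζ‖ ^ 2 = 4 * ‖pair z T₁ ζ‖ ^ 2 := fun z => by
    have : pair z T ζ + pair z T' ζ = 2 * pair z T₁ ζ := by
      unfold pair Finsupp.sum
      rw [← Finset.sum_add_distrib, Finset.mul_sum]
      refine Finset.sum_congr rfl fun x _ => ?_
      simp only [h₁, smul_app, add_app, inner_smul_right, inner_add_right]; ring
    rw [this, norm_mul, mul_pow]; norm_num
  have key : nu Q T₁ ζ ≤ (2 * (nu Q T ζ + nu Q T' ζ) - ‖η‖ ^ 2 / K ^ 2) / 4 := by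
    refine nu_le hQ fun z hz => ?_
    rcases eq_or_ne η 0 with h0 | h0
    · have := par hQ hT hT' ζ hz hz one_pos
      rw [hp] at this
      have h2 : 0 ≤ ‖pair z T ζ - pair z T' ζ‖ ^ 2 / 1 := by positivity
      rw [h0, norm_zero]; simp only [ne_eq, OfNat.ofNat_ne_zero, not_false_eq_true, zero_pow,
        zero_div, sub_zero]
      linarith
    · have hη0 : 0 < ‖η‖ := norm_pos_iff.2 h0
      have := par hQ hT hT' ζ (z₂ := Finsupp.single y η) (s := (K * ‖η‖) ^ 2) hz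
        ((hQ.single y η).trans (by gcongr; rw [hK]; linarith)) (by positivity)
      rw [hp, pair_single, pair_single, ← inner_sub_right, ← sub_app, ← hη,
        inner_self_eq_norm_sq_to_K] at this
      have e : ‖((‖η‖ : ℂ)) ^ 2‖ ^ 2 / (K * ‖η‖) ^ 2 = ‖η‖ ^ 2 / K ^ 2 := by
        rw [norm_pow, Complex.norm_real, norm_norm]; field_simp
      have e' : (‖η‖ : ℂ) = RCLike.ofReal ‖η‖ := rfl
      rw [← e', e] at this
      linarith
  have : ‖η‖ ^ 2 / K ^ 2 ≤ 2 * (nu Q T ζ + nu Q T' ζ) - 4 * nu Q T₁ ζ := by linarith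
  rwa [div_le_iff₀ (by positivity), mul_comm] at this

/-! ### the functional `N` -/

noncomputable def NN (Q : (Alg M →₀ H) → ℝ) (T : Alg M → Alg M) (ξ : H) : ℝ :=
  sSup {s | ∃ (L : Type) (_ : Fintype L) (m : L → Alg M), Col m ∧
    s = ∑ l, nu Q T ((m l : Op H) ξ)}

lemma col_one : Col (fun _ : Unit => (1 : Alg M)) := by simp [Col]

lemma NN_le {T : Alg M → Alg M} {ξ : H} {r : ℝ}
    (h : ∀ (L : Type) [Fintype L] (m : L → Alg M), Col m → ∑ l, nu Q T ((m l : Op H) ξ) ≤ r) :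
    NN Q T ξ ≤ r :=
  csSup_le ⟨_, Unit, inferInstance, _, col_one, rfl⟩ (by
    rintro _ ⟨L, _, m, hm, rfl⟩; exact h L m hm)

lemma le_NN (hQ : QForm Q C) {T : Alg M → Alg M} (hT : Dom Q T) (ξ : H) {L : Type} [Fintype L]
    {m : L → Alg M} (hm : Col m) : ∑ l, nu Q T ((m l : Op H) ξ) ≤ NN Q T ξ :=
  le_csSup ⟨‖ξ‖ ^ 2, by
    rintro _ ⟨L, _, m, hm, rfl⟩
    rw [← hm.sum_sq]
    exact Finset.sum_le_sum fun l _ => nu_le_sq hQ hT _⟩ ⟨L, inferInstance, m, hm, rfl⟩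

lemma NN_nonneg (hQ : QForm Q C) {T : Alg M → Alg M} (hT : Dom Q T) (ξ : H) : 0 ≤ NN Q T ξ :=
  (Finset.sum_nonneg fun _ _ => nu_nonneg hQ hT _).trans (le_NN hQ hT ξ col_one)

lemma exists_lt_of_lt_NN {T : Alg M → Alg M} {ξ : H} {s : ℝ} (h : s < NN Q T ξ) :
    ∃ (L : Type) (_ : Fintype L) (m : L → Alg M), Col m ∧ s < ∑ l, nu Q T ((m l : Op H) ξ) := by
  by_contra hc
  push Not at hc
  exact absurd (NN_le fun L _ m hm => hc L _ m hm) (not_le.2 h)

lemma NN_Av (hQ : QForm Q C) {L : Type} [Fintype L] {m : L → Alg M} (hm : Col m)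
    {T : Alg M → Alg M} (hT : Dom Q T) (ξ : H) : NN Q (Av m T) ξ ≤ NN Q T ξ :=
  NN_le fun J _ n hn => by
    have := le_NN hQ hT ξ (hm.mul hn)
    rw [Fintype.sum_prod_type] at this
    exact (Finset.sum_le_sum fun j _ => nu_Av hQ hm hT _).trans this

lemma NN_wlim (hQ : QForm Q C) {I : Type*} {l : Filter I} [l.NeBot] {T : I → Alg M → Alg M}
    {T' : Alg M → Alg M} (h : ∀ y, WLim l (fun i => T i y) (T' y)) (hT : ∀ i, Dom Q (T i))
    {ξ : H} {r : ℝ} (hr : ∀ i, NN Q (T i) ξ ≤ r) : NN Q T' ξ ≤ r :=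
  NN_le fun L _ m hm => by
    by_contra hc
    obtain ⟨i, hi⟩ := (nu_lsc hQ h hT _ (not_le.1 hc)).exists
    exact absurd ((le_NN hQ (hT i) ξ hm).trans (hr i)) (not_le.2 hi)

/-! ### the class of averaging operators -/

structure SA (P : (Alg M → Alg M) → (Alg M → Alg M)) : Prop where
  cb : ∀ T C, CB T C → CB (P T) C
  add : ∀ T T' C C', CB T C → CB T' C' → P (fun y => T y + T' y) = fun y => P T y + P T' y
  smul : ∀ (c : ℂ) T C, CB T C → P (fun y => c • T y) = fun y => c • P T y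
  left : ∀ (c : Alg M) T C, CB T C → P (fun y => c * T y) = fun y => c * P T y
  right : ∀ (x : Alg M) T C, CB T C → P (fun y => T (x * y)) = fun y => P T (x * y)
  mul : ∀ a : Alg M, P (fun y => a * y) = fun y => a * y
  dom : ∀ Q C', QForm Q C' → ∀ T C, CB T C → Dom Q T → Dom Q (P T)
  dec : ∀ Q C', QForm Q C' → ∀ T C, CB T C → Dom Q T → ∀ ξ, NN Q (P T) ξ ≤ NN Q T ξ

lemma SA.id : SA (fun T : Alg M → Alg M => T) :=
  ⟨fun _ _ h => h, fun _ _ _ _ _ _ => rfl, fun _ _ _ _ => rfl, fun _ _ _ _ => rfl,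
    fun _ _ _ _ => rfl, fun _ => rfl, fun _ _ _ _ _ _ h => h, fun _ _ _ _ _ _ _ _ => le_rfl⟩

lemma SA.comp {P P' : (Alg M → Alg M) → (Alg M → Alg M)} (h : SA P) (h' : SA P') :
    SA (fun T => P (P' T)) :=
  ⟨fun T C hT => h.cb _ _ (h'.cb T C hT),
    fun T T' C C' hT hT' => by
      rw [h'.add T T' C C' hT hT', h.add _ _ _ _ (h'.cb T C hT) (h'.cb T' C' hT')],
    fun c T C hT => by rw [h'.smul c T C hT, h.smul c _ _ (h'.cb T C hT)],
    fun c T C hT => by rw [h'.left c T C hT, h.left c _ _ (h'.cb T C hT)],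
    fun x T C hT => by rw [h'.right x T C hT, h.right x _ _ (h'.cb T C hT)],
    fun a => by rw [h'.mul, h.mul],
    fun Q C' hQ T C hT hD => h.dom Q C' hQ _ C (h'.cb T C hT) (h'.dom Q C' hQ T C hT hD),
    fun Q C' hQ T C hT hD ξ =>
      (h.dec Q C' hQ _ C (h'.cb T C hT) (h'.dom Q C' hQ T C hT hD) ξ).trans
        (h'.dec Q C' hQ T C hT hD ξ)⟩

lemma SA.av {L : Type} [Fintype L] {m : L → Alg M} (hm : Col m) : SA (Av m) := by
  refine ⟨fun T C hT => cb_Av hm hT, fun T T' C C' _ _ => ?_, fun c T C _ => ?_,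
    fun c T C _ => ?_, fun x T C _ => ?_, fun a => ?_, fun Q C' hQ T C _ hD => dom_Av hQ hm hD,
    fun Q C' hQ T C _ hD ξ => NN_Av hQ hm hD ξ⟩
  · funext y; simp only [Av, add_mul, Finset.sum_add_distrib]
  · funext y; simp only [Av, smul_mul_assoc, Finset.smul_sum]
  · funext y; simp only [Av, mul_assoc, Finset.mul_sum]
  · funext y; simp only [Av, mul_assoc]
  · funext y
    simp only [Av, mul_assoc, ← Finset.mul_sum]
    rw [hm, mul_one]

lemma SA.wlim_spec {I : Type*} (𝒰 : Ultrafilter I) {P : I → (Alg M → Alg M) → (Alg M → Alg M)}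
    (h : ∀ i, SA (P i)) {T : Alg M → Alg M} {C : ℝ} (hT : CB T C) (y : Alg M) :
    WLim (𝒰 : Filter I) (fun i => P i T y) (wlim 𝒰 fun i => P i T y) :=
  BL.wlim_spec 𝒰 (fun i => ((h i).cb T C hT).bl) y

lemma SA.wlim {I : Type*} (𝒰 : Ultrafilter I) {P : I → (Alg M → Alg M) → (Alg M → Alg M)}
    (h : ∀ i, SA (P i)) : SA (fun T y => wlim 𝒰 fun i => P i T y) := by
  refine ⟨fun T C hT => CB.wlim 𝒰 fun i => (h i).cb T C hT, fun T T' C C' hT hT' => ?_,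
    fun c T C hT => ?_, fun c T C hT => ?_, fun x T C hT => ?_, fun a => ?_,
    fun Q C' hQ T C hT hD => dom_wlim (SA.wlim_spec 𝒰 h hT) fun i => (h i).dom Q C' hQ T C hT hD,
    fun Q C' hQ T C hT hD ξ => NN_wlim hQ (SA.wlim_spec 𝒰 h hT)
      (fun i => (h i).dom Q C' hQ T C hT hD) fun i => (h i).dec Q C' hQ T C hT hD ξ⟩
  · funext y
    simp only [(h _).add T T' C C' hT hT']
    exact ((SA.wlim_spec 𝒰 h hT y).add (SA.wlim_spec 𝒰 h hT' y)).wlim_eq
  · funext y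
    simp only [(h _).smul c T C hT]
    exact ((SA.wlim_spec 𝒰 h hT y).smul c).wlim_eq
  · funext y
    simp only [(h _).left c T C hT]
    exact ((SA.wlim_spec 𝒰 h hT y).mul_left c).wlim_eq
  · funext y
    simp only [(h _).right x T C hT]
  · funext y
    simp only [(h _).mul a]
    exact (WLim.const _ _).wlim_eq

/-! ### the two special columns -/

/-- the column `(c, c u)` with `|c|² = 1/2` -/
noncomputable def half (u : Alg M) : Fin 2 → Alg M :=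
  ![((1 + Complex.I) / 2) • 1, ((1 + Complex.I) / 2) • u]

lemma half_sq : star ((1 + Complex.I) / 2) * ((1 + Complex.I) / 2) = (1 / 2 : ℂ) := by
  simp [Complex.ext_iff]; norm_num

lemma col_half {u : Alg M} (hu : u ∈ unitary (Alg M)) : Col (half u) := by
  simp only [Col, half, Fin.sum_univ_two, Matrix.cons_val_zero, Matrix.cons_val_one, star_smul,
    star_one, smul_mul_smul_comm, half_sq, Unitary.star_mul_self_of_mem hu, mul_one, ← add_smul]
  norm_num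

lemma av_half (u : Alg M) {T : Alg M → Alg M} (hT : IsLinearMap ℂ T) (y : Alg M) :
    Av (half u) T y = (1 / 2 : ℂ) • (T y + Av (fun _ : Unit => u) T y) := by
  simp only [Av, half, Fin.sum_univ_two, Matrix.cons_val_zero, Matrix.cons_val_one, star_smul,
    star_one, mul_smul_comm, hT.map_smul, smul_mul_assoc, smul_smul, mul_one, univ_unique,
    sum_singleton, smul_add]
  rw [mul_comm ((1 + Complex.I) / 2), half_sq]

/-- the column `(u a)*, 1 - p` -/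
noncomputable def gsc {n : ℕ} (u : Fin n → Alg M) : Option (Fin n) → Alg M
  | none => 1 - ∑ a, u a * star (u a)
  | some a => star (u a)

lemma col_gsc {n : ℕ} {u : Fin n → Alg M} (h : IsStarProjection (∑ a, u a * star (u a))) :
    Col (gsc u) := by
  simp only [Col, Fintype.sum_option, gsc, star_star]
  rw [h.one_sub.isSelfAdjoint.star_eq, h.one_sub.isIdempotentElem.eq, sub_add_cancel]

/-- the Gram–Schmidt projections converge strongly to the identity on the closure of `M q H` -/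
lemma tendsto_gs {q : Alg M} (hq : IsStarProjection q) (p : Finset (Alg M) → Alg M)
    (hp : ∀ Y, IsStarProjection (p Y)) (h : ∀ Y, ∀ y ∈ Y, y * q = y → p Y * y = y) {ψ : H}
    (hψ : ψ ∈ (spn q).topologicalClosure) :
    Tendsto (fun Y => (p Y : Op H) ψ) atTop (𝓝 ψ) := by
  have h1 : ∀ ψ ∈ spn q, ∀ᶠ Y in atTop, (p Y : Op H) ψ = ψ := by
    intro ψ hψ
    induction hψ using Submodule.span_induction with
    | mem ψ hψ =>
      obtain ⟨x, k, rfl⟩ := hψ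
      filter_upwards [eventually_ge_atTop {x * q}] with Y hY
      rw [← mul_app, h Y _ (hY (mem_singleton_self _)) (by rw [mul_assoc, hq.isIdempotentElem.eq])]
    | zero => simp
    | add x y _ _ hx hy => filter_upwards [hx, hy] with Y h1 h2; rw [map_add, h1, h2]
    | smul c x _ hx => filter_upwards [hx] with Y h1; rw [map_smul, h1]
  rw [Metric.tendsto_nhds]
  intro δ hδ
  obtain ⟨ψ', hψ', hd⟩ := Metric.mem_closure_iff.1 hψ (δ / 2) (half_pos hδ)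
  filter_upwards [h1 ψ' hψ'] with Y hY
  rw [dist_eq_norm] at hd ⊢
  have e : (p Y : Op H) ψ - ψ = (p Y : Op H) (ψ - ψ') - (ψ - ψ') := by rw [map_sub, hY]; abel
  have := proj_norm_app_le (hp Y) (ψ - ψ')
  rw [e]
  exact (norm_sub_le _ _).trans_lt (by linarith)

/-! ### near-minimisers are nearly modular -/

lemma key (hQ : QForm Q C) {T : Alg M → Alg M} (hT : CB T C) (hD : Dom Q T) {ξ : H} {ε : ℝ}
    (hε : 0 < ε) (hmin : ∀ R, SA R → NN Q T ξ - ε ≤ NN Q (R T) ξ) {u : Alg M}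
    (hu : u ∈ unitary (Alg M)) (y : Alg M) {t : ℝ} (ht : 0 < t) :
    ‖((T y - T (y * star u) * u : Alg M) : Op H) ξ‖ ^ 2 ≤
      (2 * C * ‖y‖) ^ 2 * ((C * ‖y‖ + 1) ^ 2 * (8 * ε) / t) + t * ‖ξ‖ ^ 2 := by
  classical
  have hcu : Col (fun _ : Unit => u) := by
    simp only [Col, univ_unique, sum_singleton, Unitary.star_mul_self_of_mem hu]
  set Tu := Av (fun _ : Unit => u) T with hTu
  have hTu' : ∀ y, Tu y = T (y * star u) * u := fun y => by simp [hTu, Av]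
  have hDu : Dom Q Tu := dom_Av hQ hcu hD
  set T₁ := Av (half u) T with hT₁
  have hD₁ : Dom Q T₁ := dom_Av hQ (col_half hu) hD
  have hC₁ : CB T₁ C := cb_Av (col_half hu) hT
  rw [← hTu']
  set Δ := T y - Tu y with hΔ
  set K := (C * ‖y‖ + 1) ^ 2 with hK
  have hK0 : 0 ≤ K := sq_nonneg _
  obtain ⟨q, hq, -, hq1, hq0, -⟩ := exists_spec (IsSelfAdjoint.star_mul_self Δ) t
  obtain ⟨z, hz, hzq, hzc, -⟩ := exists_cover q
  choose n v v1 v2 v3 v4 v5 using exists_gs q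
  let 𝒰 : Ultrafilter (Finset (Alg M)) := Ultrafilter.of atTop
  have h𝒰 : (𝒰 : Filter (Finset (Alg M))) ≤ atTop := Ultrafilter.of_le _
  have hS : ∀ Y, SA fun T' => Av (gsc (v Y)) (Av (half u) T') := fun Y =>
    (SA.av (col_gsc (v4 Y))).comp (SA.av (col_half hu))
  have h1 := hmin _ (SA.wlim 𝒰 hS)
  obtain ⟨L, _, m, hm, h2⟩ := exists_lt_of_lt_NN
    ((show NN Q T ξ - 2 * ε < NN Q T ξ - ε by linarith).trans_le h1)
  have h3 := nu_lsc hQ (SA.wlim_spec 𝒰 hS hT) (fun Y => (hS Y).dom Q C hQ T C hT hD) _ h2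
  -- the estimate for a fixed `Y`
  have h4 : ∀ᶠ Y in (𝒰 : Filter (Finset (Alg M))), t * ∑ l, ‖((∑ a, v Y a * star (v Y a) : Alg M) : Op H)
      ((z : Op H) ((m l : Op H) ξ))‖ ^ 2 ≤ K * (8 * ε) := by
    filter_upwards [h3] with Y hY
    have a1 : NN Q T ξ - 2 * ε <
        ∑ l, ∑ b, nu Q T₁ ((gsc (v Y) b : Op H) ((m l : Op H) ξ)) :=
      hY.trans_le (Finset.sum_le_sum fun l _ => nu_Av hQ (col_gsc (v4 Y)) hD₁ _)
    have a2 := le_NN hQ hD ξ ((col_gsc (v4 Y)).mul hm)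
    have a3 := (le_NN hQ hDu ξ ((col_gsc (v4 Y)).mul hm)).trans (NN_Av hQ hcu hD ξ)
    simp only [Fintype.sum_prod_type, mul_app] at a2 a3
    have a4 : ∑ l, ∑ b, ‖(Δ : Op H) ((gsc (v Y) b : Op H) ((m l : Op H) ξ))‖ ^ 2 ≤
        K * (8 * ε) := by
      refine (Finset.sum_le_sum fun l _ => Finset.sum_le_sum fun b _ =>
        par' hQ hT.nonneg hD hDu (av_half u hT.lin) _ y).trans ?_
      simp only [← Finset.mul_sum, Finset.sum_sub_distrib, Finset.sum_add_distrib]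
      exact mul_le_mul_of_nonneg_left (by linarith) hK0
    refine le_trans ?_ a4
    rw [Finset.mul_sum]
    refine Finset.sum_le_sum fun l _ => ?_
    set ψ := (m l : Op H) ξ
    rw [Fintype.sum_option]
    refine le_trans ?_ (le_add_of_nonneg_left (sq_nonneg _))
    have b1 : ‖((∑ a, v Y a * star (v Y a) : Alg M) : Op H) ((z : Op H) ψ)‖ ≤
        ‖((∑ a, v Y a * star (v Y a) : Alg M) : Op H) ψ‖ := by
      rw [← mul_app, ← hz.comm, mul_app]; exact proj_norm_app_le hz.proj _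
    have b2 : ‖((∑ a, v Y a * star (v Y a) : Alg M) : Op H) ψ‖ ^ 2 =
        ∑ a, ‖((star (v Y a) : Alg M) : Op H) ψ‖ ^ 2 := by
      rw [sum_norm_app_sq, norm_app_sq, (v4 Y).isSelfAdjoint.star_eq, (v4 Y).isIdempotentElem.eq]
      simp only [star_star]
    calc _ ≤ t * ∑ a, ‖((star (v Y a) : Alg M) : Op H) ψ‖ ^ 2 := by rw [← b2]; gcongr
      _ ≤ _ := by
        rw [Finset.mul_sum]
        refine Finset.sum_le_sum fun a _ => ?_
        rw [norm_app_sq Δ]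
        refine hq1 _ ?_
        have : q * star (v Y a) = star (v Y a) := by
          rw [← hq.isSelfAdjoint.star_eq, ← star_mul, v1]
        change (q : Op H) (((star (v Y a) : Alg M) : Op H) ψ) = ((star (v Y a) : Alg M) : Op H) ψ
        rw [← mul_app, this]
  have h5 : t * ‖(z : Op H) ξ‖ ^ 2 ≤ K * (8 * ε) := by
    have c1 : Tendsto (fun Y => t * ∑ l, ‖((∑ a, v Y a * star (v Y a) : Alg M) : Op H)
        ((z : Op H) ((m l : Op H) ξ))‖ ^ 2) 𝒰 (𝓝 (t * ∑ l, ‖(z : Op H) ((m l : Op H) ξ)‖ ^ 2)) :=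
      (tendsto_finsetSum _ fun l _ => ((tendsto_gs hq _ v4 v5 ((hzc _).1 (by
        rw [← mul_app, hz.proj.isIdempotentElem.eq]))).mono_left h𝒰).norm.pow 2).const_mul t
    have c2 := le_of_tendsto c1 h4
    have c3 : ∀ l, (z : Op H) ((m l : Op H) ξ) = (m l : Op H) ((z : Op H) ξ) := fun l => by
      rw [← mul_app, hz.comm, mul_app]
    simpa only [c3, hm.sum_sq] using c2
  have h6 : ‖Δ‖ ≤ 2 * C * ‖y‖ := by
    have := hT.bl.bd y
    have := (cb_Av hcu hT).bl.bd y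
    exact (norm_sub_le _ _).trans (by linarith)
  have h7 : ‖(Δ : Op H) (((1 - z : Alg M) : Op H) ξ)‖ ^ 2 ≤ t * ‖ξ‖ ^ 2 := by
    rw [norm_app_sq Δ]
    refine (hq0 _ ?_).trans ?_
    · rw [← mul_app, mul_sub, mul_one, ← hz.comm, hzq, sub_self, zero_app]
    · have := proj_norm_app_le hz.proj.one_sub ξ
      gcongr
  have h8 : ‖(Δ : Op H) ((z : Op H) ξ)‖ ^ 2 ≤ (2 * C * ‖y‖) ^ 2 * (K * (8 * ε) / t) := by
    have c1 : ‖(z : Op H) ξ‖ ^ 2 ≤ K * (8 * ε) / t := by rw [le_div_iff₀ ht]; linarith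
    calc _ ≤ (‖Δ‖ * ‖(z : Op H) ξ‖) ^ 2 := pow_le_pow_left₀ (norm_nonneg _) (norm_app_le _ _) 2
      _ = ‖Δ‖ ^ 2 * ‖(z : Op H) ξ‖ ^ 2 := by ring
      _ ≤ _ := by gcongr
  have h9 := proj_pyth hz.proj ((Δ : Op H) ξ)
  have e1 : (z : Op H) ((Δ : Op H) ξ) = (Δ : Op H) ((z : Op H) ξ) := by
    rw [← mul_app, hz.comm, mul_app]
  have e2 : ((1 - z : Alg M) : Op H) ((Δ : Op H) ξ) = (Δ : Op H) (((1 - z : Alg M) : Op H) ξ) := by
    rw [← mul_app, ← mul_app, sub_mul 1 z, mul_sub Δ, hz.comm, one_mul, mul_one]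
  rw [e1, e2] at h9
  linarith

/-- completely bounded maps with a bound and a vector -/
abbrev Idx (M : VonNeumannAlgebra H) : Type _ :=
  {p : (Alg M → Alg M) × ℝ × H // CB p.1 p.2.1}

lemma exists_near (Qf : Idx M → (Alg M →₀ H) → ℝ) (hQ : ∀ p, QForm (Qf p) p.1.2.1)
    (hD : ∀ p, Dom (Qf p) p.1.1) (F : Finset (Idx M)) {ε : ℝ} (hε : 0 < ε) :
    ∃ P, SA P ∧ ∀ p ∈ F, ∀ R, SA R →
      NN (Qf p) (P p.1.1) p.1.2.2 - ε ≤ NN (Qf p) (R (P p.1.1)) p.1.2.2 := by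
  classical
  set Φ : ((Alg M → Alg M) → (Alg M → Alg M)) → ℝ :=
    fun P => ∑ p ∈ F, NN (Qf p) (P p.1.1) p.1.2.2 with hΦ
  have hb : BddBelow (Φ '' {P | SA P}) := ⟨0, by
    rintro _ ⟨P, hP, rfl⟩
    exact Finset.sum_nonneg fun p _ => NN_nonneg (hQ p) (hP.dom _ _ (hQ p) _ _ p.2 (hD p)) _⟩
  obtain ⟨_, ⟨P, hP, rfl⟩, h1⟩ := exists_lt_of_csInf_lt (s := Φ '' {P | SA P})
    ⟨_, _, SA.id, rfl⟩ (lt_add_of_pos_right _ hε)
  refine ⟨P, hP, fun p hp R hR => ?_⟩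
  have h2 := csInf_le hb ⟨_, hR.comp hP, rfl⟩
  have h3 : ∑ p' ∈ F.erase p, NN (Qf p') (R (P p'.1.1)) p'.1.2.2 ≤
      ∑ p' ∈ F.erase p, NN (Qf p') (P p'.1.1) p'.1.2.2 := Finset.sum_le_sum fun p' _ =>
    hR.dec _ _ (hQ p') _ _ (hP.cb _ _ p'.2) (hP.dom _ _ (hQ p') _ _ p'.2 (hD p')) _
  simp only [hΦ, ← Finset.add_sum_erase F _ hp] at h1 h2
  linarith

end Min

open _root_.Crest.Agent.R121.Min in
theorem minStmt_of (h : QStmt.{u}) : MinStmt.{u} := by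
  classical
  intro H _ _ _ M
  have h0 : ∀ p : Idx M, ∃ Q : (Alg M →₀ H) → ℝ, QForm Q p.1.2.1 ∧ Dom Q p.1.1 :=
    fun p => h H M _ _ p.2
  choose Qf hQ hD using h0
  have h1 : ∀ i : Finset (Idx M) × ℕ, ∃ P, SA P ∧ ∀ p ∈ i.1, ∀ R, SA R →
      NN (Qf p) (P p.1.1) p.1.2.2 - (1 / ((i.2 : ℝ) + 1)) ^ 2 ≤
        NN (Qf p) (R (P p.1.1)) p.1.2.2 := fun i => exists_near Qf hQ hD i.1 (by positivity)
  choose P hP hmin using h1
  let 𝒰 : Ultrafilter (Finset (Idx M) × ℕ) := Ultrafilter.of (atTop ×ˢ atTop)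
  have h𝒰 : (𝒰 : Filter (Finset (Idx M) × ℕ)) ≤ atTop ×ˢ atTop := Ultrafilter.of_le _
  have hS := SA.wlim 𝒰 hP
  set R : (Alg M → Alg M) → (Alg M → Alg M) := fun T y => wlim 𝒰 fun i => P i T y with hR
  have hu : ∀ T C, CB T C → ∀ u ∈ unitary (Alg M), ∀ y, R T y = R T (y * star u) * u := by
    intro T C hT u hu y
    have a1 := (SA.wlim_spec 𝒰 hP hT y).sub ((SA.wlim_spec 𝒰 hP hT (y * star u)).mul_right u)
    have a2 : WLim (𝒰 : Filter (Finset (Idx M) × ℕ)) (fun i => P i T y - P i T (y * star u) * u) 0 := by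
      refine WLim.of_tendsto fun ξ => ?_
      rw [zero_app, tendsto_zero_iff_norm_tendsto_zero]
      set B := (2 * C * ‖y‖) ^ 2 * ((C * ‖y‖ + 1) ^ 2 * 8) + ‖ξ‖ ^ 2 with hB
      have b1 : Tendsto (fun i : Finset (Idx M) × ℕ => √(B * (1 / ((i.2 : ℝ) + 1)))) 𝒰 (𝓝 0) := by
        have := ((tendsto_one_div_add_atTop_nhds_zero_nat (𝕜 := ℝ)).const_mul B).sqrt
        rw [mul_zero, Real.sqrt_zero] at this
        exact (this.comp tendsto_snd).mono_left h𝒰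
      refine squeeze_zero' (Eventually.of_forall fun _ => norm_nonneg _) ?_ b1
      have b2 : ∀ᶠ i in (𝒰 : Filter (Finset (Idx M) × ℕ)), {(⟨(T, C, ξ), hT⟩ : Idx M)} ≤ i.1 :=
        (tendsto_fst.eventually (eventually_ge_atTop _)).filter_mono h𝒰
      filter_upwards [b2] with i hi
      have ht : (0 : ℝ) < 1 / ((i.2 : ℝ) + 1) := by positivity
      have := key (hQ ⟨(T, C, ξ), hT⟩) ((hP i).cb T C hT)
        ((hP i).dom _ _ (hQ ⟨(T, C, ξ), hT⟩) T C hT (hD ⟨(T, C, ξ), hT⟩)) (by positivity)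
        (hmin i _ (hi (mem_singleton_self _))) hu y ht
      refine Real.le_sqrt_of_sq_le (this.trans (le_of_eq ?_))
      rw [hB]; field_simp
    exact sub_eq_zero.1 (a1.unique a2)
  have hmod : ∀ T C, CB T C → ∀ x y, R T (y * x) = R T y * x := by
    intro T C hT x y
    obtain ⟨u, c, rfl, -⟩ := CStarAlgebra.exists_sum_four_unitary x
    have hl := (hS.cb T C hT).bl
    rw [Finset.mul_sum, Finset.mul_sum, hl.map_sum]
    refine Finset.sum_congr rfl fun i _ => ?_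
    rw [mul_smul_comm, mul_smul_comm, hl.map_smul, hu T C hT _ (u i).2, mul_assoc,
      Unitary.mul_star_self_of_mem (u i).2, mul_one]
  refine ⟨fun T => R T 1, fun T C hT => ?_, fun T T' C C' hT hT' => ?_, fun c T C hT => ?_,
    fun c T C hT => ?_, fun x T C hT => ?_, fun a => ?_⟩
  · have := norm_unitary_le (one_mem (unitary (Alg M)))
    have h2 := hT.nonneg
    exact ((hS.cb T C hT).bl.bd 1).trans (by nlinarith)
  · rw [hS.add T T' C C' hT hT']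
  · rw [hS.smul c T C hT]
  · rw [hS.left c T C hT]
  · rw [hS.right x T C hT, ← hmod T C hT]; simp only [mul_one, one_mul]
  · rw [hS.mul a]; simp only [mul_one, one_mul]

end Crest.Agent.R121
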