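import Crest.Agent.R121.Basic

/-!
# Row 121: from a corner to its central cover; the largest central projection carrying a mean
-/

set_option autoImplicit false

namespace Crest.Agent.R121

open scoped InnerProductSpace ComplexOrder BigOperators _root_.Topology
open Finset Filter
open Crest.Agent.R124 (Op)

universe u

namespace MoritaAux

variable {H : Type*} [NormedAddCommGroup H] [InnerProductSpace ℂ H] [CompleteSpace H]
  {M : VonNeumannAlgebra H}

lemma pi_norm_le {w : Alg M} (hw : w * star w * w = w) : ‖w‖ ≤ 1 :=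
  norm_le_of_app zero_le_one fun ξ => by
    rw [pi_norm_app hw, one_mul]; exact proj_norm_app_le (pi_proj₁ hw) ξ

/-- a bounded right module map over the corner is dominated pointwise -/
lemma app_le {e : Alg M} (he : IsStarProjection e) {S : Alg M → Alg M} {C : ℝ} (hS : BL S C)
    (hm : ∀ y n, Cor e n → S (y * n) = S y * n) (x : Alg M) (hx : x * e = x) (ζ : H) :
    ‖(S x : Op H) ζ‖ ≤ C * ‖(x : Op H) ζ‖ := by
  obtain ⟨w, h1, h2, -, h4⟩ := exists_polar x
  have hwe : w * e = w := by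
    have := h4 (e - 1) (by rw [mul_sub, hx, mul_one, sub_self])
    rwa [mul_sub, mul_one, sub_eq_zero] at this
  have hew : e * star w = star w := by
    have := congrArg star hwe
    rwa [star_mul, he.isSelfAdjoint.star_eq] at this
  have hn : Cor e (star w * x) := ⟨by rw [← mul_assoc, hew], by rw [mul_assoc, hx]⟩
  have e1 : S x = S w * (star w * x) := by rw [← hm w _ hn, ← mul_assoc, h2]
  have hw := pi_norm_le h1
  have hC := hS.nonneg
  have h5 : ‖S w‖ ≤ C := (hS.bd w).trans (by nlinarith)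
  have h6 : ‖((star w * x : Alg M) : Op H) ζ‖ ≤ ‖(x : Op H) ζ‖ := by
    rw [mul_app]
    refine (norm_app_le _ _).trans ?_
    rw [norm_star]
    have := norm_nonneg ((x : Op H) ζ)
    nlinarith
  rw [e1, mul_app]
  exact (norm_app_le _ _).trans (by gcongr)

/-- representation on finitely many elements -/
lemma exists_rep_fin {e : Alg M} (he : IsStarProjection e) {S : Alg M → Alg M} {C : ℝ}
    (hS : BL S C) (hm : ∀ y n, Cor e n → S (y * n) = S y * n) (Y : Finset (Alg M)) :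
    ∃ a : Alg M, ‖a‖ ≤ C ∧ ∀ y ∈ Y, y * e = y → a * y = S y := by
  obtain ⟨n, u, h1, h2, h3, h4, h5⟩ := exists_gs e Y
  set p := ∑ a, u a * star (u a) with hp
  have hpu : ∀ a, p * u a = u a := fun a => by
    rw [hp, Finset.sum_mul, Finset.sum_eq_single a, h2]
    · intro b _ hb; rw [mul_assoc, h3 b a hb, mul_zero]
    · simp
  have hup : ∀ a, star (u a) * p = star (u a) := fun a => by
    have := congrArg star (hpu a)
    rwa [star_mul, h4.isSelfAdjoint.star_eq] at this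
  have heu : ∀ a, e * star (u a) = star (u a) := fun a => by
    have := congrArg star (h1 a)
    rwa [star_mul, he.isSelfAdjoint.star_eq] at this
  set a₀ := ∑ a, S (u a) * star (u a) with ha₀
  have key : ∀ y, y * e = y → a₀ * y = S (p * y) := fun y hy => by
    rw [ha₀, hp, Finset.sum_mul, Finset.sum_mul, hS.map_sum]
    refine Finset.sum_congr rfl fun a _ => ?_
    rw [mul_assoc, mul_assoc, hm _ _ ⟨by rw [← mul_assoc, heu], by rw [mul_assoc, hy]⟩]
  have hap : a₀ * p = a₀ := by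
    rw [ha₀, Finset.sum_mul]
    exact Finset.sum_congr rfl fun a _ => by rw [mul_assoc, hup]
  have hC := hS.nonneg
  refine ⟨a₀, norm_le_of_app hC fun ξ => ?_, fun y hy hye => by rw [key y hye, h5 y hy hye]⟩
  have main : ∀ t : ℝ, C ^ 2 < t → ‖(a₀ : Op H) ξ‖ ^ 2 ≤ t * ‖ξ‖ ^ 2 := by
    intro t ht
    obtain ⟨q, hq, -, q1, q2, -⟩ := exists_spec (IsSelfAdjoint.star_mul_self a₀) t
    have hqu : ∀ a, q * u a = 0 := fun a => ext_app fun ζ => by
      have hy : q * u a * e = q * u a := by rw [mul_assoc, h1]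
      have e1 := q1 (((q * u a : Alg M) : Op H) ζ)
        (by rw [← mul_app, ← mul_assoc, hq.isIdempotentElem.eq])
      rw [← norm_app_sq, ← mul_app a₀, key _ hy] at e1
      have e2 := app_le he hS hm (p * (q * u a)) (by rw [mul_assoc, hy]) ζ
      have e3 : ‖((p * (q * u a) : Alg M) : Op H) ζ‖ ≤ ‖((q * u a : Alg M) : Op H) ζ‖ := by
        rw [mul_app p]; exact proj_norm_app_le h4 _
      have e4 : ‖(S (p * (q * u a)) : Op H) ζ‖ ^ 2 ≤ (C * ‖((q * u a : Alg M) : Op H) ζ‖) ^ 2 :=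
        pow_le_pow_left₀ (norm_nonneg _) (e2.trans (by gcongr)) 2
      rw [zero_app, ← norm_eq_zero]
      by_contra hne
      have hpos : 0 < ‖((q * u a : Alg M) : Op H) ζ‖ ^ 2 := by positivity
      nlinarith
    have hqp : q * p = 0 := by
      rw [hp, Finset.mul_sum]
      exact Finset.sum_eq_zero fun a _ => by rw [← mul_assoc, hqu, zero_mul]
    have e1 := q2 ((p : Op H) ξ) (by rw [← mul_app, hqp, zero_app])
    rw [← norm_app_sq, ← mul_app, hap] at e1
    have e2 := pow_le_pow_left₀ (norm_nonneg _) (proj_norm_app_le h4 ξ) 2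
    have : 0 ≤ t := (sq_nonneg C).trans ht.le
    exact e1.trans (by gcongr)
  have h6 : ‖(a₀ : Op H) ξ‖ ^ 2 ≤ C ^ 2 * ‖ξ‖ ^ 2 := by
    refine le_of_forall_pos_le_add fun δ hδ => ?_
    have hx : 0 < ‖ξ‖ ^ 2 + 1 := by positivity
    refine (main (C ^ 2 + δ / (‖ξ‖ ^ 2 + 1)) (by have := div_pos hδ hx; linarith)).trans ?_
    rw [add_mul]
    gcongr
    rw [div_mul_eq_mul_div, div_le_iff₀ hx]
    nlinarith
  rw [← mul_pow] at h6
  exact (pow_le_pow_iff_left₀ (norm_nonneg _) (by positivity) two_ne_zero).1 h6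

/-- a bounded right module map over the corner is a left multiplication -/
lemma exists_rep {e : Alg M} (he : IsStarProjection e) {S : Alg M → Alg M} {C : ℝ}
    (hS : BL S C) (hm : ∀ y n, Cor e n → S (y * n) = S y * n) :
    ∃ a : Alg M, ‖a‖ ≤ C ∧ ∀ y, y * e = y → a * y = S y := by
  classical
  choose a ha hay using exists_rep_fin he hS hm
  let 𝒰 : Ultrafilter (Finset (Alg M)) := Ultrafilter.of atTop
  have h𝒰 : (𝒰 : Filter (Finset (Alg M))) ≤ atTop := Ultrafilter.of_le atTop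
  have hw := wlim_spec 𝒰 a (Eventually.of_forall ha)
  refine ⟨wlim 𝒰 a, hw.norm_le (Eventually.of_forall ha), fun y hy => ?_⟩
  refine (hw.mul_right y).unique ((WLim.const _ (S y)).congr' ?_)
  filter_upwards [h𝒰 (eventually_ge_atTop {y})] with Y hY
  exact (hay Y y (hY (mem_singleton_self y)) hy).symm

lemma norm_glue {z a b : Alg M} (hz : CProj z) {C : ℝ} (ha : ‖a‖ ≤ C) (hb : ‖b‖ ≤ C) :
    ‖z * a + (1 - z) * b‖ ≤ C := by
  have hC : 0 ≤ C := (norm_nonneg _).trans ha
  have hzz := hz.proj.isIdempotentElem.eq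
  refine norm_le_of_app hC fun ξ => ?_
  have h1 := proj_pyth hz.proj (((z * a + (1 - z) * b : Alg M) : Op H) ξ)
  have e1 : z * (z * a + (1 - z) * b) = a * z := by
    rw [mul_add, ← mul_assoc, ← mul_assoc, hzz, mul_sub, mul_one, hzz, sub_self, zero_mul,
      add_zero, hz.comm]
  have e2 : (1 - z) * (z * a + (1 - z) * b) = b * (1 - z) := by
    rw [mul_add, ← mul_assoc, ← mul_assoc, hz.proj.one_sub.isIdempotentElem.eq, sub_mul, one_mul,
      hzz, sub_self, zero_mul, zero_add, sub_mul, mul_sub, hz.comm, one_mul, mul_one]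
  rw [← mul_app, ← mul_app, e1, e2, mul_app, mul_app] at h1
  have h2 := proj_pyth hz.proj ξ
  have h3 : ‖(a : Op H) ((z : Op H) ξ)‖ ^ 2 ≤ (C * ‖(z : Op H) ξ‖) ^ 2 :=
    pow_le_pow_left₀ (norm_nonneg _) ((norm_app_le _ _).trans (by gcongr)) 2
  have h4 : ‖(b : Op H) (((1 - z : Alg M) : Op H) ξ)‖ ^ 2 ≤
      (C * ‖((1 - z : Alg M) : Op H) ξ‖) ^ 2 :=
    pow_le_pow_left₀ (norm_nonneg _) ((norm_app_le _ _).trans (by gcongr)) 2
  refine (pow_le_pow_iff_left₀ (norm_nonneg _) (by positivity) two_ne_zero).1 ?_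
  rw [← h1, mul_pow, ← h2]
  nlinarith

/-- two central projections with means are dominated by a third -/
lemma exists_join {z₁ z₂ : Alg M} {ρ₁ ρ₂ : (Alg M → Alg M) → Alg M} (h₁ : CProj z₁)
    (h₂ : CProj z₂) (r₁ : Rho BL z₁ ρ₁) (r₂ : Rho BL z₂ ρ₂) :
    ∃ (z : Alg M) (ρ : (Alg M → Alg M) → Alg M), CProj z ∧ Rho BL z ρ ∧ z * z₁ = z₁ ∧
      z * z₂ = z₂ := by
  have e₁ := h₁.proj.isIdempotentElem.eq
  have e₂ := h₂.proj.isIdempotentElem.eq
  have c₁ : ∀ a, (1 - z₁) * a = a * (1 - z₁) := fun a => by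
    rw [sub_mul, mul_sub, h₁.comm, one_mul, mul_one]
  refine ⟨z₁ + (1 - z₁) * z₂, fun T => z₁ * ρ₁ T + (1 - z₁) * ρ₂ T, ⟨?_, fun a => ?_⟩,
    ⟨fun T C hT => norm_glue h₁ (r₁.norm T C hT) (r₂.norm T C hT), fun T T' C C' hT hT' => ?_,
      fun c T C hT => ?_, fun c T C hT => ?_, fun x T C hT => ?_, fun a => ?_⟩, ?_, ?_⟩
  · refine h₁.proj.add (h₁.proj.one_sub.mul h₂.proj (c₁ z₂)) ?_
    rw [← mul_assoc, mul_sub, mul_one, e₁, sub_self, zero_mul]
  · rw [add_mul, mul_add, h₁.comm, mul_assoc, h₂.comm, ← mul_assoc, c₁, mul_assoc]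
  · rw [r₁.add T T' C C' hT hT', r₂.add T T' C C' hT hT', mul_add, mul_add]; abel
  · rw [r₁.smul c T C hT, r₂.smul c T C hT, smul_add, mul_smul_comm, mul_smul_comm]
  · rw [r₁.left c T C hT, r₂.left c T C hT, mul_add, ← mul_assoc, ← mul_assoc, h₁.comm, c₁,
      mul_assoc, mul_assoc]
  · rw [r₁.right x T C hT, r₂.right x T C hT, add_mul, mul_assoc, mul_assoc]
  · rw [r₁.mul, r₂.mul, ← mul_assoc, e₁, add_mul, mul_assoc]
  · rw [add_mul, e₁, mul_assoc, h₂.comm, ← mul_assoc, sub_mul, one_mul, e₁, sub_self, zero_mul,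
      add_zero]
  · rw [add_mul, mul_assoc, e₂, sub_mul, one_mul, add_sub_cancel]

end MoritaAux

open MoritaAux

theorem moritaStmt : MoritaStmt.{u} := by
  intro H _ _ _ M e P he hP hmod
  classical
  obtain ⟨z, hz, hze, -, huniq⟩ := exists_cover e
  have hee := he.isIdempotentElem.eq
  have hzz := hz.proj.isIdempotentElem.eq
  let R : (Alg M → Alg M) → Alg M → Prop :=
    fun T a => a * z = a ∧ ∀ y, a * y * e = P T (y * e) * e
  have uniq : ∀ T a b, R T a → R T b → a = b := fun T a b ha hb => by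
    have := huniq (a - b) fun x => by rw [sub_mul, sub_mul, ha.2, hb.2, sub_self]
    rwa [sub_mul, ha.1, hb.1, sub_eq_zero] at this
  have ex : ∀ T C, BL T C → ∃ a, ‖a‖ ≤ C ∧ R T a := fun T C hT => by
    have hn := he.norm_le
    have hC := hT.nonneg
    have hS : BL (fun y => P T (y * e) * e) C :=
      (((hP.bl T C hT).rarg e).rmul e).mono (by
        calc C * ‖e‖ * ‖e‖ ≤ C * 1 * 1 := by gcongr
          _ = C := by ring)
    obtain ⟨a, ha, hay⟩ := exists_rep he hS fun y n hn => by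
      rw [mul_assoc y n e, hn.2, hmod T C hT y n hn, mul_assoc, hn.1]
    refine ⟨a * z, (norm_mul_le _ _).trans ?_, by rw [mul_assoc, hzz], fun y => ?_⟩
    · have := hz.proj.norm_le
      have := norm_nonneg a
      nlinarith
    · rw [mul_assoc a, hz.comm, mul_assoc, mul_assoc, hze,
        hay (y * e) (by rw [mul_assoc, hee]), mul_assoc y, hee]
  let ρ : (Alg M → Alg M) → Alg M := fun T => if h : ∃ a, R T a then h.choose else 0
  have hρ : ∀ T a, R T a → ρ T = a := fun T a ha => by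
    have h : ∃ a, R T a := ⟨a, ha⟩
    simp only [ρ, dif_pos h]
    exact uniq T _ _ h.choose_spec ha
  have sp : ∀ T C, BL T C → ‖ρ T‖ ≤ C ∧ R T (ρ T) := fun T C hT => by
    obtain ⟨a, h1, h2⟩ := ex T C hT
    rw [hρ T a h2]; exact ⟨h1, h2⟩
  refine ⟨z, ρ, hz, hze, fun T C hT => (sp T C hT).1, fun T T' C C' hT hT' => ?_,
    fun c T C hT => ?_, fun c T C hT => ?_, fun x T C hT => ?_, fun a => ?_⟩
  · obtain ⟨-, h1, h2⟩ := sp T C hT
    obtain ⟨-, h3, h4⟩ := sp T' C' hT'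
    refine hρ _ _ ⟨by rw [add_mul, h1, h3], fun y => ?_⟩
    rw [hP.add T T' C C' hT hT', add_mul, add_mul, add_mul, h2, h4]
  · obtain ⟨-, h1, h2⟩ := sp T C hT
    refine hρ _ _ ⟨by rw [smul_mul_assoc, h1], fun y => ?_⟩
    rw [hP.smul c T C hT, smul_mul_assoc, smul_mul_assoc, smul_mul_assoc, h2]
  · obtain ⟨-, h1, h2⟩ := sp T C hT
    refine hρ _ _ ⟨by rw [mul_assoc, h1], fun y => ?_⟩
    rw [hP.left c T C hT, mul_assoc c, mul_assoc c, mul_assoc c, h2]
  · obtain ⟨-, h1, h2⟩ := sp T C hT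
    refine hρ _ _ ⟨by rw [mul_assoc, ← hz.comm, ← mul_assoc, h1], fun y => ?_⟩
    rw [hP.right x T C hT, mul_assoc (ρ T) x y, h2, mul_assoc x]
  · refine hρ _ _ ⟨by rw [mul_assoc, ← hz.comm, ← mul_assoc, hzz], fun y => ?_⟩
    rw [hP.mul a, mul_assoc z, hz.comm, mul_assoc _ z, hze, mul_assoc a (y * e), mul_assoc y, hee,
      mul_assoc]

theorem glueStmt : GlueStmt.{u} := by
  intro H _ _ _ M
  classical
  let G := {p : Alg M × ((Alg M → Alg M) → Alg M) // CProj p.1 ∧ Rho BL p.1 p.2}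
  have hfin : ∀ Y : Finset G, ∃ g : G, ∀ g₀ ∈ Y, g.1.1 * g₀.1.1 = g₀.1.1 := by
    intro Y
    induction Y using Finset.induction_on with
    | empty =>
      exact ⟨⟨(0, fun _ => 0), ⟨IsStarProjection.zero _, by simp⟩,
        ⟨fun T C hT => by simpa using hT.nonneg, by simp, by simp, by simp, by simp, by simp⟩⟩,
        by simp⟩
    | insert g₁ Y _ ih =>
      obtain ⟨g₂, h₂⟩ := ih
      obtain ⟨z, ρ, hz, hρ, e₁, e₂⟩ := exists_join g₁.2.1 g₂.2.1 g₁.2.2 g₂.2.2
      refine ⟨⟨(z, ρ), hz, hρ⟩, fun g₀ hg₀ => ?_⟩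
      rcases mem_insert.1 hg₀ with rfl | hg₀
      · exact e₁
      · change z * _ = _
        rw [← h₂ g₀ hg₀, ← mul_assoc, e₂]
  choose g hg using hfin
  let 𝒰 : Ultrafilter (Finset G) := Ultrafilter.of atTop
  have h𝒰 : (𝒰 : Filter (Finset G)) ≤ atTop := Ultrafilter.of_le atTop
  have hw := wlim_spec 𝒰 (fun Y => (g Y).1.1)
    (Eventually.of_forall fun Y => (g Y).2.1.proj.norm_le)
  set z := wlim 𝒰 fun Y => (g Y).1.1 with hzd
  have hdom : ∀ g₀ : G, z * g₀.1.1 = g₀.1.1 := fun g₀ => by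
    refine (hw.mul_right g₀.1.1).unique ((WLim.const _ g₀.1.1).congr' ?_)
    filter_upwards [h𝒰 (eventually_ge_atTop {g₀})] with Y hY
    exact (hg Y g₀ (hY (mem_singleton_self g₀))).symm
  have hcomm : ∀ a, z * a = a * z := fun a =>
    (hw.mul_right a).unique ((hw.mul_left a).congr'
      (Eventually.of_forall fun Y => ((g Y).2.1.comm a).symm))
  have hsz : star z * z = z := by
    refine (hw.mul_left (star z)).unique (hw.congr' (Eventually.of_forall fun Y => ?_))
    have := congrArg star (hdom (g Y))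
    rw [star_mul, (g Y).2.1.proj.isSelfAdjoint.star_eq, (g Y).2.1.comm] at this
    exact this.symm
  have hsa : star z = z := by rw [← hsz, star_mul, star_star]
  have sp : ∀ T C, BL T C → WLim (𝒰 : Filter _) (fun Y => (g Y).1.2 T)
      (wlim 𝒰 fun Y => (g Y).1.2 T) := fun T C hT =>
    wlim_spec 𝒰 _ (Eventually.of_forall fun Y => (g Y).2.2.norm T C hT)
  refine ⟨z, fun T => wlim 𝒰 fun Y => (g Y).1.2 T, ⟨⟨?_, hsa⟩, hcomm⟩,
    ⟨fun T C hT => (sp T C hT).norm_le (Eventually.of_forall fun Y => (g Y).2.2.norm T C hT),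
      fun T T' C C' hT hT' => ?_, fun c T C hT => ?_, fun c T C hT => ?_, fun x T C hT => ?_,
      fun a => ?_⟩, fun z' ρ' h1 h2 => hdom ⟨(z', ρ'), h1, h2⟩⟩
  · rw [IsIdempotentElem]; conv_lhs => rw [← hsa]
    rw [hsa] at hsz ⊢; exact hsz
  · simp only [(g _).2.2.add T T' C C' hT hT']
    exact ((sp T C hT).add (sp T' C' hT')).wlim_eq
  · simp only [(g _).2.2.smul c T C hT]
    exact ((sp T C hT).smul c).wlim_eq
  · simp only [(g _).2.2.left c T C hT]
    exact ((sp T C hT).mul_left c).wlim_eq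
  · simp only [(g _).2.2.right x T C hT]
    exact ((sp T C hT).mul_right x).wlim_eq
  · simp only [(g _).2.2.mul a]
    exact (hw.mul_right a).wlim_eq

end Crest.Agent.R121
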