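import Crest.Agent.R121.Basic

/-!
# Row 121, part C: Wittstock–Haagerup–Paulsen domination
-/

set_option autoImplicit false

namespace Crest.Agent.R121

open scoped InnerProductSpace ComplexOrder BigOperators _root_.Topology
open Finset Filter
open Crest.Agent.R124 (Op inner_star_left inner_star_right norm_sum_inner_le)

universe u

namespace QF

/-- Hahn–Banach for a cone of upper bounds -/
lemma cone {V : Type*} [AddCommGroup V] [Module ℝ V] (K : Set (V × ℝ)) (h0 : (0 : V × ℝ) ∈ K)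
    (hadd : ∀ p ∈ K, ∀ q ∈ K, p + q ∈ K) (hsm : ∀ t : ℝ, 0 ≤ t → ∀ p ∈ K, t • p ∈ K)
    (hd : ∀ v, ∃ r, (v, r) ∈ K) (hp : ∀ r, ((0 : V), r) ∈ K → 0 ≤ r) :
    ∃ s : V →ₗ[ℝ] ℝ, ∀ p ∈ K, s p.1 ≤ p.2 := by
  let S : PointedCone ℝ (V × ℝ) :=
    { carrier := K
      zero_mem' := h0
      add_mem' := fun hx hy => hadd _ hx _ hy
      smul_mem' := fun c x hx => hsm c c.2 x hx }
  obtain ⟨g, hg1, hg2⟩ := riesz_extension S
    ((LinearMap.snd ℝ V ℝ).toPMap (LinearMap.ker (LinearMap.fst ℝ V ℝ)))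
    (by
      rintro ⟨⟨v, r⟩, hv⟩ hx
      have hv' : v = 0 := hv
      subst hv'
      exact hp r hx)
    (by
      rintro ⟨v, t⟩
      obtain ⟨r, hr⟩ := hd v
      refine ⟨⟨(0, r - t), rfl⟩, ?_⟩
      change ((0 : V), r - t) + (v, t) ∈ K
      simpa using hr)
  refine ⟨-(g ∘ₗ LinearMap.inl ℝ V ℝ), fun p hp' => ?_⟩
  have h1 := hg2 p hp'
  have h2 : g (0, p.2) = p.2 := hg1 ⟨(0, p.2), rfl⟩
  have h3 : g p = g (p.1, 0) + g (0, p.2) := by rw [← map_add]; simp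
  change -g (p.1, 0) ≤ p.2
  linarith

variable {H : Type u} [NormedAddCommGroup H] [InnerProductSpace ℂ H]

lemma isq (v : H) : ⟪v, v⟫_ℂ = ((‖v‖ ^ 2 : ℝ) : ℂ) := by
  rw [inner_self_eq_norm_sq_to_K, Complex.ofReal_pow]; rfl

/-- diagonalisation of `∑ |η⟩⟨η|` -/
lemma diag {S : Type} [Fintype S] (η : S → H) (F : Set H) (hF : F.Finite) :
    ∃ (n : ℕ) (e : Fin n → H) (l : Fin n → ℝ), (∀ v ∈ F, ∑ i, ⟪e i, v⟫_ℂ • e i = v) ∧
      (∀ i, ‖e i‖ = 1) ∧
      (∀ α : Fin n → H, ∑ s, ‖∑ i, ⟪e i, η s⟫_ℂ • α i‖ ^ 2 = ∑ i, l i * ‖α i‖ ^ 2) ∧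
      (∀ i, 0 ≤ l i) ∧ ∑ i, l i ≤ ∑ s, ‖η s‖ ^ 2 := by
  classical
  let V : Submodule ℂ H := Submodule.span ℂ (F ∪ Set.range η)
  have : FiniteDimensional ℂ V :=
    FiniteDimensional.span_of_finite ℂ (hF.union (Set.finite_range η))
  let η' : S → V := fun s => ⟨η s, Submodule.subset_span (Or.inr ⟨s, rfl⟩)⟩
  let G : V →ₗ[ℂ] V := ∑ s, (innerₛₗ ℂ (η' s)).smulRight (η' s)
  have hG : ∀ v w : V, ⟪w, G v⟫_ℂ = ∑ s, ⟪η' s, v⟫_ℂ * ⟪w, η' s⟫_ℂ := fun v w => by
    simp only [G, LinearMap.sum_apply, inner_sum, inner_smul_right, LinearMap.smulRight_apply,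
      innerₛₗ_apply_apply]
  have hsym : G.IsSymmetric := fun v w => by
    rw [← inner_conj_symm, hG, hG, map_sum]
    exact Finset.sum_congr rfl fun s _ => by
      rw [map_mul, inner_conj_symm, inner_conj_symm, mul_comm]
  let b := hsym.eigenvectorBasis rfl
  have hon : Orthonormal ℂ fun i => (b i : H) := b.orthonormal.comp_linearIsometry V.subtypeₗᵢ
  have hoff : ∀ i j, i ≠ j → ∑ s, ⟪η s, (b i : H)⟫_ℂ * ⟪(b j : H), η s⟫_ℂ = 0 := fun i j hij => by
    have h1 := hG (b i) (b j)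
    rw [hsym.apply_eigenvectorBasis, inner_smul_right, b.orthonormal.2 hij.symm, mul_zero] at h1
    exact h1.symm
  refine ⟨_, fun i => (b i : H), fun i => ∑ s, ‖⟪(b i : H), η s⟫_ℂ‖ ^ 2, fun v hv => ?_, hon.1,
    fun α => ?_, fun i => by positivity, ?_⟩
  · have := congrArg (fun x : V => (x : H))
      (b.sum_repr' (⟨v, Submodule.subset_span (Or.inl hv)⟩ : V))
    simpa using this
  · have h1 : ∑ s, ⟪∑ i, ⟪(b i : H), η s⟫_ℂ • α i, ∑ i, ⟪(b i : H), η s⟫_ℂ • α i⟫_ℂ =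
        ∑ i, (∑ s, (‖⟪(b i : H), η s⟫_ℂ‖ : ℂ) ^ 2) * ⟪α i, α i⟫_ℂ := by
      simp only [sum_inner, inner_sum, inner_smul_left, inner_smul_right, Finset.mul_sum]
      rw [Finset.sum_comm]
      refine Finset.sum_congr rfl fun i _ => ?_
      rw [Finset.sum_comm, Finset.sum_eq_single i]
      · rw [Finset.sum_mul]
        exact Finset.sum_congr rfl fun s _ => by rw [← mul_assoc, Complex.mul_conj']
      · intro j _ hji
        simp only [← mul_assoc]
        rw [← Finset.sum_mul]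
        simp only [inner_conj_symm]
        rw [Finset.sum_congr rfl fun s _ => mul_comm _ _, hoff _ _ (by assumption), zero_mul]
      · simp
    simp only [isq] at h1
    exact_mod_cast h1
  · rw [Finset.sum_comm]
    exact Finset.sum_le_sum fun s _ => hon.sum_inner_products_le _

variable [CompleteSpace H] {M : VonNeumannAlgebra H}

lemma adj {I J : Type} [Fintype I] [Fintype J] {x : I → J → Alg M} {r : ℝ} (h : MatB x r) :
    MatB (fun j i => star (x i j)) r := fun β => by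
  set γ : J → H := fun j => ∑ i, ((star (x i j) : Alg M) : Op H) (β i) with hγ
  have h1 : (∑ j, ⟪γ j, γ j⟫_ℂ) = ∑ i, ⟪β i, ∑ j, (x i j : Op H) (γ j)⟫_ℂ := by
    simp only [inner_sum]
    rw [Finset.sum_comm]
    refine Finset.sum_congr rfl fun j _ => ?_
    conv_lhs => enter [2]; rw [hγ]
    simp only [sum_inner, inner_star_l]
  have h2 : ‖∑ j, ⟪γ j, γ j⟫_ℂ‖ = ∑ j, ‖γ j‖ ^ 2 := by
    simp only [isq]
    rw [← Complex.ofReal_sum, Complex.norm_real, Real.norm_of_nonneg (by positivity)]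
  have h3 := norm_sum_inner_le Finset.univ β fun i => ∑ j, (x i j : Op H) (γ j)
  rw [← h1, h2, ← Real.sqrt_mul (by positivity)] at h3
  have h4 := h γ
  have hA : 0 ≤ ∑ j, ‖γ j‖ ^ 2 := by positivity
  have hB : 0 ≤ ∑ i, ‖β i‖ ^ 2 := by positivity
  have h5 := (Real.le_sqrt hA (by positivity)).1 h3
  change ∑ j, ‖γ j‖ ^ 2 ≤ _
  generalize ∑ j, ‖γ j‖ ^ 2 = A at *
  rcases hA.eq_or_lt with h0 | h0
  · rw [← h0]; positivity
  · have := mul_le_mul_of_nonneg_left h4 hB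
    nlinarith

/-- test objects -/
abbrev Θ (H : Type u) : Type u := Σ n : ℕ, Fin n → H × H

noncomputable def Z (θ : Θ H) : (Alg M →₀ H) →ₗ[ℂ] H :=
  Finsupp.lsum ℂ fun x =>
    ∑ i, (innerₛₗ ℂ (θ.2 i).1).smulRight (((star x : Alg M) : Op H) (θ.2 i).2)

noncomputable def Th (T : Alg M → Alg M) : (Alg M →₀ H) →ₗ[ℂ] H :=
  Finsupp.lsum ℂ fun x => (((star (T x) : Alg M) : Op H) : H →ₗ[ℂ] H)

lemma Z_single (θ : Θ H) (x : Alg M) (v : H) : Z θ (Finsupp.single x v) =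
    ∑ i, ⟪(θ.2 i).1, v⟫_ℂ • ((star x : Alg M) : Op H) (θ.2 i).2 := by
  simp [Z]

lemma Z_apply (θ : Θ H) (z : Alg M →₀ H) : Z θ z =
    ∑ x ∈ z.support, ∑ i, ⟪(θ.2 i).1, z x⟫_ℂ • ((star x : Alg M) : Op H) (θ.2 i).2 := by
  simp [Z, LinearMap.sum_apply, Finsupp.sum]

lemma Th_apply (T : Alg M → Alg M) (z : Alg M →₀ H) :
    Th T z = ∑ x ∈ z.support, ((star (T x) : Alg M) : Op H) (z x) := by
  simp [Th, Finsupp.sum]

lemma Z_map (θ : Θ H) (m : Alg M) (z : Alg M →₀ H) :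
    Z θ (z.mapDomain fun x => x * star m) = (m : Op H) (Z θ z) := by
  induction z using Finsupp.induction_linear with
  | zero => simp
  | add f g hf hg => rw [Finsupp.mapDomain_add, map_add, map_add, map_add, hf, hg]
  | single x v =>
    rw [Finsupp.mapDomain_single, Z_single, Z_single, map_sum]
    exact Finset.sum_congr rfl fun i _ => by rw [star_mul, star_star, mul_app, map_smul]

lemma Z_single_le (θ : Θ H) (x : Alg M) (v : H) :
    ‖Z θ (Finsupp.single x v)‖ ≤ ‖Z θ (Finsupp.single (1 : Alg M) ((‖x‖ : ℂ) • v))‖ := by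
  have := Z_map θ (star x) (Finsupp.single (1 : Alg M) v)
  rw [Finsupp.mapDomain_single, star_star, one_mul] at this
  rw [this, ← Finsupp.smul_single, map_smul, norm_smul, Complex.norm_real, norm_norm]
  exact (norm_app_le _ _).trans (by rw [norm_star])

lemma key {T : Alg M → Alg M} {C : ℝ} (hT : CB T C) {R S : Type} [Fintype R] [Fintype S]
    (z : R → Alg M →₀ H) (η : S → H)
    (h : ∀ θ : Θ H, ∑ r, ‖Z θ (z r)‖ ^ 2 ≤ ∑ s, ‖Z θ (Finsupp.single (1 : Alg M) (η s))‖ ^ 2) :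
    ∑ r, ‖Th T (z r)‖ ^ 2 ≤ C ^ 2 * ∑ s, ‖η s‖ ^ 2 := by
  obtain ⟨n, e, l, h1, h2, h3, h4, h5⟩ :=
    diag η (⋃ r, Set.range (z r)) (Set.finite_iUnion fun r => (z r).finite_range)
  refine le_of_forall_pos_le_add fun δ hδ => ?_
  obtain ⟨ε, hε, hε'⟩ : ∃ ε : ℝ, 0 < ε ∧ C ^ 2 * (n * ε) ≤ δ := by
    refine ⟨δ / (C ^ 2 * n + 1), by positivity, ?_⟩
    rw [← mul_assoc, ← mul_div_assoc, div_le_iff₀ (by positivity)]
    nlinarith
  let μ : Fin n → ℝ := fun i => √(l i + ε)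
  have hμ : ∀ i, 0 < μ i := fun i => Real.sqrt_pos.2 (by linarith [h4 i])
  have hμ2 : ∀ i, μ i ^ 2 = l i + ε := fun i => Real.sq_sqrt (by linarith [h4 i])
  let w : R → Fin n → Alg M := fun r i =>
    ∑ x ∈ (z r).support, (((μ i)⁻¹ : ℝ) * ⟪z r x, e i⟫_ℂ : ℂ) • x
  have hA : MatB (fun r i => star (w r i)) 1 := fun α => by
    have h6 := h ⟨n, fun i => (e i, (((μ i)⁻¹ : ℝ) : ℂ) • α i)⟩
    simp only [Z_single, star_one, one_app] at h6
    rw [h3] at h6
    refine le_trans (le_of_eq ?_) (h6.trans ?_)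
    · refine Finset.sum_congr rfl fun r _ => ?_
      rw [Z_apply, Finset.sum_comm]
      congr 2
      refine Finset.sum_congr rfl fun i _ => ?_
      simp only [w]
      rw [star_sum, sum_app]
      refine Finset.sum_congr rfl fun x _ => ?_
      rw [star_smul, smul_app, map_smul, smul_smul, star_mul', Complex.star_def, inner_conj_symm,
        Complex.conj_ofReal, mul_comm]
    · rw [one_pow, one_mul]
      refine Finset.sum_le_sum fun i _ => ?_
      rw [norm_smul, Complex.norm_real, Real.norm_of_nonneg (inv_pos.2 (hμ i)).le, mul_pow,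
        ← mul_assoc, inv_pow, hμ2]
      refine mul_le_of_le_one_left (by positivity) ?_
      rw [← div_eq_mul_inv, div_le_one (by linarith [h4 i])]
      linarith
  have hB := adj hA
  simp only [star_star] at hB
  have hC := adj (hT.cb _ _ _ _ zero_le_one hB) fun i => (μ i : ℂ) • e i
  have e1 : ∀ r, ∑ i, ((star (T (w r i)) : Alg M) : Op H) ((μ i : ℂ) • e i) = Th T (z r) := by
    intro r
    rw [Th_apply]
    simp only [w, lin_sum hT.lin, hT.lin.map_smul, star_sum, sum_app]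
    rw [Finset.sum_comm]
    refine Finset.sum_congr rfl fun x _ => ?_
    conv_rhs => rw [← h1 (z r x) (Set.mem_iUnion.2 ⟨r, x, rfl⟩), map_sum]
    refine Finset.sum_congr rfl fun i _ => ?_
    rw [star_smul, smul_app, map_smul, map_smul, smul_smul, star_mul', Complex.star_def,
      inner_conj_symm, Complex.conj_ofReal, mul_right_comm, ← Complex.ofReal_mul,
      inv_mul_cancel₀ (hμ i).ne', Complex.ofReal_one, one_mul]
  have e2 : ∑ i, ‖(μ i : ℂ) • e i‖ ^ 2 = ∑ i, l i + n * ε := by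
    simp only [norm_smul, h2, Complex.norm_real, Real.norm_eq_abs, mul_one, sq_abs, hμ2,
      Finset.sum_add_distrib]
    simp
  simp only [e1, e2, mul_one] at hC
  have := mul_le_mul_of_nonneg_left h5 (sq_nonneg C)
  linarith

noncomputable def ev (θ : Θ H) : ((Alg M →₀ H) →₀ ℝ) →ₗ[ℝ] ℝ :=
  Finsupp.linearCombination ℝ fun z => ‖Z θ z‖ ^ 2

lemma ev_single (θ : Θ H) (z : Alg M →₀ H) (c : ℝ) :
    ev θ (Finsupp.single z c) = c * ‖Z θ z‖ ^ 2 := by simp [ev]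

/-- the cone of upper bounds -/
def K (T : Alg M → Alg M) (C : ℝ) : Set (((Alg M →₀ H) →₀ ℝ) × ℝ) :=
  {p | ∃ (R S : Type) (_ : Fintype R) (_ : Fintype S)
    (z : R → Alg M →₀ H) (η : S → H), (∀ θ, ev θ p.1 + ∑ r, ‖Z θ (z r)‖ ^ 2 ≤
      ∑ s, ‖Z θ (Finsupp.single (1 : Alg M) (η s))‖ ^ 2) ∧
      C ^ 2 * ∑ s, ‖η s‖ ^ 2 - ∑ r, ‖Th T (z r)‖ ^ 2 ≤ p.2}

variable {T : Alg M → Alg M} {C : ℝ}

lemma K_neg (F : (Alg M →₀ H) →₀ ℝ) (hF : ∀ θ, ev θ F ≤ 0) : (F, (0 : ℝ)) ∈ K T C :=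
  ⟨Empty, Empty, inferInstance, inferInstance, Empty.elim, Empty.elim, by simpa using hF, by simp⟩

lemma K_add {F F' : (Alg M →₀ H) →₀ ℝ} {r r' : ℝ} (h : (F, r) ∈ K T C) (h' : (F', r') ∈ K T C) :
    (F + F', r + r') ∈ K T C := by
  obtain ⟨R, S, _, _, z, η, h1, h2⟩ := h
  obtain ⟨R', S', _, _, z', η', h1', h2'⟩ := h'
  refine ⟨R ⊕ R', S ⊕ S', inferInstance, inferInstance, Sum.elim z z', Sum.elim η η',
    fun θ => ?_, ?_⟩
  · simp only [Fintype.sum_sum_type, Sum.elim_inl, Sum.elim_inr, map_add]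
    linarith [h1 θ, h1' θ]
  · simp only [Fintype.sum_sum_type, Sum.elim_inl, Sum.elim_inr]
    linarith

lemma K_smul {F : (Alg M →₀ H) →₀ ℝ} {r : ℝ} (t : ℝ) (ht : 0 ≤ t) (h : (F, r) ∈ K T C) :
    (t • F, t * r) ∈ K T C := by
  obtain ⟨R, S, _, _, z, η, h1, h2⟩ := h
  have e : ‖((√t : ℝ) : ℂ)‖ ^ 2 = t := by
    rw [Complex.norm_real, Real.norm_eq_abs, sq_abs, Real.sq_sqrt ht]
  refine ⟨R, S, inferInstance, inferInstance, fun r => ((√t : ℝ) : ℂ) • z r,
    fun s => ((√t : ℝ) : ℂ) • η s, fun θ => ?_, ?_⟩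
  · simp only [← Finsupp.smul_single, map_smul, norm_smul, mul_pow, e, ← Finset.mul_sum,
      smul_eq_mul]
    linarith [mul_le_mul_of_nonneg_left (h1 θ) ht]
  · simp only [map_smul, norm_smul, mul_pow, e, ← Finset.mul_sum]
    linarith [mul_le_mul_of_nonneg_left h2 ht]

lemma K_mono {F F' : (Alg M →₀ H) →₀ ℝ} {r : ℝ} (h : (F', r) ∈ K T C)
    (hF : ∀ θ, ev θ F ≤ ev θ F') : (F, r) ∈ K T C := by
  obtain ⟨R, S, _, _, z, η, h1, h2⟩ := h
  exact ⟨R, S, inferInstance, inferInstance, z, η, fun θ => by linarith [h1 θ, hF θ], h2⟩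

lemma K_single (x : Alg M) (v : H) :
    (Finsupp.single (Finsupp.single x v) (1 : ℝ), (C * ‖x‖ * ‖v‖) ^ 2) ∈ K T C := by
  refine ⟨Empty, Unit, inferInstance, inferInstance, Empty.elim, fun _ => (‖x‖ : ℂ) • v,
    fun θ => ?_, ?_⟩
  · simp only [ev_single, Finset.univ_eq_empty, Finset.sum_empty, add_zero, Finset.univ_unique,
      Finset.sum_singleton, one_mul]
    gcongr
    exact Z_single_le θ x v
  · simp [norm_smul, mul_pow, mul_assoc]

lemma K_one (z : Alg M →₀ H) : ∃ r, (Finsupp.single z (1 : ℝ), r) ∈ K T C := by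
  induction z using Finsupp.induction_linear with
  | zero => exact ⟨0, K_neg _ fun θ => by simp [ev_single]⟩
  | add f g hf hg =>
    obtain ⟨r, hr⟩ := hf
    obtain ⟨r', hr'⟩ := hg
    refine ⟨_, K_mono (K_smul 2 zero_le_two (K_add hr hr')) fun θ => ?_⟩
    simp only [map_smul, map_add, ev_single, smul_eq_mul]
    nlinarith [parallelogram_law_with_norm ℂ (Z θ f) (Z θ g), norm_nonneg (Z θ f - Z θ g)]
  | single x v => exact ⟨_, K_single x v⟩

lemma K_all (F : (Alg M →₀ H) →₀ ℝ) : ∃ r, (F, r) ∈ K T C := by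
  induction F using Finsupp.induction_linear with
  | zero => exact ⟨0, K_neg _ fun θ => by simp⟩
  | add f g hf hg =>
    obtain ⟨r, hr⟩ := hf
    obtain ⟨r', hr'⟩ := hg
    exact ⟨_, K_add hr hr'⟩
  | single z c =>
    rcases le_total 0 c with hc | hc
    · obtain ⟨r, hr⟩ := K_one (T := T) (C := C) z
      exact ⟨c * r, by simpa using K_smul c hc hr⟩
    · refine ⟨0, K_neg _ fun θ => ?_⟩
      rw [ev_single]
      exact mul_nonpos_of_nonpos_of_nonneg hc (sq_nonneg _)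

lemma exists_s (hT : CB T C) : ∃ s : ((Alg M →₀ H) →₀ ℝ) →ₗ[ℝ] ℝ, ∀ p ∈ K T C, s p.1 ≤ p.2 := by
  refine cone (K T C) (K_neg 0 fun θ => by simp) (fun p hp q hq => K_add hp hq)
    (fun t ht p hp => K_smul t ht hp) K_all ?_
  rintro r ⟨R, S, _, _, z, η, h1, h2⟩
  have := key hT z η fun θ => by simpa using h1 θ
  linarith

end QF

open QF in
theorem qStmt : QStmt.{u} := by
  intro H _ _ _ M T C hT
  obtain ⟨s, hs⟩ := exists_s hT
  have hle : ∀ F F', (∀ θ, ev θ F ≤ ev θ F') → s F ≤ s F' := fun F F' h => by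
    have := hs _ (K_neg (F - F') fun θ => by rw [map_sub]; linarith [h θ])
    rw [map_sub] at this
    linarith
  have heq : ∀ F F', (∀ θ, ev θ F = ev θ F') → s F = s F' := fun F F' h =>
    le_antisymm (hle _ _ fun θ => (h θ).le) (hle _ _ fun θ => (h θ).ge)
  have hTh : ∀ z, ‖Th T z‖ ^ 2 ≤ s (Finsupp.single z 1) := fun z => by
    have := hs (-Finsupp.single z 1, -‖Th T z‖ ^ 2) ⟨Unit, Empty, inferInstance, inferInstance,
      fun _ => z, Empty.elim, fun θ => by simp [map_neg, ev_single], by simp⟩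
    simpa using this
  refine ⟨fun z => s (Finsupp.single z 1), ⟨fun z => (sq_nonneg _).trans (hTh z), fun z z' => ?_,
    fun c z => ?_, fun L _ m hm z => ?_, fun x v => hs _ (K_single x v)⟩, fun z ζ => ?_⟩
  · rw [← smul_eq_mul, ← smul_eq_mul, ← map_smul, ← map_smul, ← map_add, ← map_add]
    refine heq _ _ fun θ => ?_
    simp only [map_add, map_sub, map_smul, ev_single, smul_eq_mul]
    nlinarith [parallelogram_law_with_norm ℂ (Z θ z) (Z θ z')]
  · rw [← smul_eq_mul, ← map_smul]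
    refine heq _ _ fun θ => ?_
    simp only [map_smul, ev_single, smul_eq_mul, norm_smul, mul_pow, one_mul]
  · rw [← map_sum]
    refine hle _ _ fun θ => ?_
    simp only [map_sum, ev_single, Z_map, one_mul]
    rw [sum_norm_app_sq, hm, one_app, isq, Complex.ofReal_re]
  · have : pair z T ζ = ⟪Th T z, ζ⟫_ℂ := by
      simp only [pair, Th_apply, Finsupp.sum, sum_inner, inner_star_l]
    rw [this]
    calc _ ≤ (‖Th T z‖ * ‖ζ‖) ^ 2 := by gcongr; exact norm_inner_le_norm _ _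
      _ ≤ _ := by rw [mul_pow]; gcongr; exact hTh z

end Crest.Agent.R121
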