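import Crest.Agent.R121.Core
import Crest.Agent.R121.Coc
import Crest.Agent.R121.Amp
import Crest.Agent.R121.QF
import Crest.Agent.R121.Min
import Crest.Agent.R121.Morita
import Crest.Agent.R121.Avg

/-!
# Row 121, assembly
-/

set_option autoImplicit false

namespace Crest.Agent.R121

open scoped InnerProductSpace ComplexOrder BigOperators _root_.Topology
open Crest.Agent.R124 (Op)

universe u

variable {H : Type u} [NormedAddCommGroup H] [InnerProductSpace ℂ H] [CompleteSpace H]

lemma divis_of {M : VonNeumannAlgebra H} {g : Alg M} (hg : IsStarProjection g)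
    (hab : ∀ e : Alg M, IsStarProjection e → g * e = e →
      (∀ a b, Cor e a → Cor e b → a * b = b * a) → e = 0) : Divis g := by
  have h := R124.VN.divis (P := M) (coe_mem g) (proj_coe.2 hg) fun q hq hgq => by
    have := hab ⟨q, hq.mem⟩ (proj_coe.1 hq.proj) (Subtype.ext hgq) fun a b ha hb => by
      have h1 := (hq.comm a a.2 b b.2).eq
      have ha' : q * a * q = a := congrArg Subtype.val (show _ * a * _ = a by rw [ha.1, ha.2])
      have hb' : q * b * q = b := congrArg Subtype.val (show _ * b * _ = b by rw [hb.1, hb.2])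
      rw [ha', hb'] at h1
      exact Subtype.ext h1
    exact congrArg Subtype.val this
  intro m₀
  obtain ⟨ι, _, _, _, e, h1, h2, h3⟩ := h m₀
  refine ⟨ι, inferInstance, inferInstance, fun a b => ⟨e a b, h3 a b⟩, h1, fun a b c d => ?_,
    fun a b => Subtype.ext (h2.star a b), Subtype.ext ?_⟩
  · apply Subtype.ext
    have := h2.mul a b c d
    split_ifs at this ⊢ <;> exact this
  · rw [← h2.sum]; simp

theorem cob_all (hF : FourierStmt.{u}) (hQ : QuasiStmt.{u}) (hI : InfStmt.{u})
    (M : VonNeumannAlgebra H) (k : ℕ) (C : ℝ) (f : List (Alg M) → Alg M) (hC : 0 ≤ C)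
    (hf : BML (k + 1) C f) (hd : ∀ l : List (Alg M), l.length = k + 2 → dd f l = 0) :
    Cob 1 k f := by
  obtain ⟨z, ρ, hz, hρ, hmax⟩ := glueStmt H M
  have ho : CProj (1 - z) := ⟨hz.proj.one_sub, fun a => by rw [sub_mul, mul_sub, hz.comm]; simp⟩
  have hzero : ∀ (e : Alg M) (P : (Alg M → Alg M) → (Alg M → Alg M)), IsStarProjection e →
      (1 - z) * e = e → Adm P → (∀ T C, BL T C → Modular e (P T)) → e = 0 := by
    intro e P he hoe hP hm
    obtain ⟨z', ρ', hz', hze, hρ'⟩ := moritaStmt H M e P he hP hm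
    have h1 : z * e = e := by rw [← hze, ← mul_assoc, hmax z' ρ' hz' hρ']
    rw [sub_mul, one_mul, h1, sub_self] at hoe
    exact hoe.symm
  have hnq : ∀ (g : Alg M) (ξ : H), IsStarProjection g → (1 - z) * g = g → ¬ Quasi g ξ := by
    intro g ξ hg hog hq
    obtain ⟨v, hv⟩ := hQ H M g ξ hg hq
    have hdiv : Divis g := divis_of hg fun e he hge hc => by
      obtain ⟨P, hP, hm⟩ := abelStmt H M e he hc
      exact hzero e P he (by rw [← hge, ← mul_assoc, hog]) hP hm
    obtain ⟨P, hP, hm⟩ := traceAvgStmt_of (coreStmt_of hF) H M g ξ v hg hv hdiv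
    exact hq.ne (hzero g P hg hog hP hm)
  obtain ⟨w₁, w₂, h1, h2, h12⟩ := hI H M (1 - z) ho.proj hnq
  obtain ⟨g, f', C', hg, hf', hdg, hcb⟩ := ampStmt H M (1 - z) w₁ w₂ ho h1 h2 h12 k C f hC hf hd
  have hd' : ∀ l : List (Alg M), l.length = k + 2 → dd f' l = 0 := by
    intro l hl
    rw [dd_congr (g := fun l' => (1 - z) * f l' - dd g l') l fun l' hl' => by
      rw [hdg l' (by omega)]; abel]
    rw [dd_sub, dd_central ho.comm, hd l hl, ddStmt (Alg M) g l (by omega)]
    simp
  obtain ⟨ρ', hρ'⟩ := minStmt_of qStmt H M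
  obtain ⟨g', C'', hg', hdg'⟩ := cocStmt (Alg M) CB 1 ρ' cls_CB hρ' k C f' hf' hcb hd'
  have c1 : Cob (1 - z) k f := ⟨_, _, hg.add hg', fun l hl => by
    rw [dd_add, hdg l hl, hdg' l hl, one_mul, sub_add_cancel]⟩
  have c2 : Cob z k f := cocStmt (Alg M) BL z ρ cls_BL hρ k C f hf
    (fun l hl => BML.bl_last l hC (hl ▸ hf)) hd
  simpa using c2.add c1

end Crest.Agent.R121
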