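import Crest.Agent.R121.Defs
import Crest.Agent.R124.Phase

/-!
# Row 121: forward and backward means along the powers of a unitary
-/

set_option autoImplicit false

namespace Crest.Agent.R121

open scoped InnerProductSpace ComplexOrder BigOperators _root_.Topology
open Finset Filter

universe u

namespace FourierAux

/-- uniform bound of the truncated conjugate series -/
lemma scalar_bound (J : ℕ) (hJ : 1 ≤ J) {z : ℂ} (hz : ‖z‖ = 1) :
    ‖∑ j ∈ range J, (((1 - 1 / (2 * J)) ^ (j + 1) / (j + 1) : ℝ) : ℂ) *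
      (z ^ (j + 1) - star z ^ (j + 1))‖ ≤ 2 * (Real.pi + 2) := by
  set r : ℝ := 1 - 1 / (2 * J) with hr
  have hJ' : (1 : ℝ) ≤ J := by exact_mod_cast hJ
  have h0 : 0 < 1 / (2 * (J : ℝ)) := by positivity
  have h1 : 1 / (2 * (J : ℝ)) ≤ 1 / 2 := by
    rw [div_le_div_iff₀ (by positivity) (by positivity)]; linarith
  have hr0 : 0 ≤ r := by linarith
  have hr1 : r < 1 := by linarith
  set p : ℂ := ∑ j ∈ range J, ((r : ℂ) * z) ^ (j + 1) / (j + 1) with hp
  have hn : ‖-((r : ℂ) * z)‖ = r := by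
    rw [norm_neg, norm_mul, hz, mul_one, Complex.norm_real, Real.norm_of_nonneg hr0]
  have hb := Complex.norm_log_sub_logTaylor_le J (z := -((r : ℂ) * z)) (by rw [hn]; exact hr1)
  have hT : Complex.logTaylor (J + 1) (-((r : ℂ) * z)) = -p := by
    simp only [Complex.logTaylor, hp]
    rw [Finset.sum_range_succ', ← Finset.sum_neg_distrib]
    simp only [Nat.cast_zero, div_zero, add_zero]
    refine Finset.sum_congr rfl fun j _ => ?_
    rw [neg_pow ((r : ℂ) * z), ← mul_assoc, ← pow_add,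
      Odd.neg_one_pow ⟨j + 1, by ring⟩]
    push_cast; ring
  rw [hT, hn, sub_neg_eq_add] at hb
  have hb2 : r ^ (J + 1) * (1 - r)⁻¹ / (J + 1) ≤ 2 := by
    have e : (1 - r)⁻¹ = 2 * J := by rw [hr]; simp
    rw [e, div_le_iff₀ (by positivity)]
    have := pow_le_one₀ (n := J + 1) hr0 hr1.le
    nlinarith
  have him : |p.im| ≤ Real.pi + 2 := by
    have h2 := (Complex.abs_im_le_norm _).trans (hb.trans hb2)
    rw [Complex.add_im, Complex.log_im] at h2
    have h3 := Complex.abs_arg_le_pi (1 + -((r : ℂ) * z))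
    rw [abs_le] at h2 h3 ⊢
    constructor <;> linarith [h2.1, h2.2, h3.1, h3.2]
  have e : ∑ j ∈ range J, ((r ^ (j + 1) / (j + 1) : ℝ) : ℂ) * (z ^ (j + 1) - star z ^ (j + 1)) =
      p - (starRingEnd ℂ) p := by
    rw [hp, map_sum, ← Finset.sum_sub_distrib]
    refine Finset.sum_congr rfl fun j _ => ?_
    simp only [map_div₀, map_pow, map_mul, Complex.conj_ofReal, map_add, map_natCast, map_one,
      Complex.star_def]
    push_cast; ring
  rw [e, Complex.sub_conj, norm_mul, Complex.norm_I, mul_one, Complex.norm_real,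
    Real.norm_eq_abs, abs_mul, abs_two]
  linarith

variable {N : Type u} [CStarAlgebra N]

lemma op_bound (J : ℕ) (a : ℕ → ℂ) {K : ℝ} (hK : 0 ≤ K)
    (h : ∀ z : ℂ, ‖z‖ = 1 → ‖∑ j ∈ range J, a j * (z ^ (j + 1) - star z ^ (j + 1))‖ ≤ K)
    {U : N} (hU : U ∈ unitary N) :
    ‖∑ j ∈ range J, a j • (U ^ (j + 1) - star U ^ (j + 1))‖ ≤ K := by
  have hn : IsStarNormal U := isStarNormal_of_mem_unitary hU
  have e : ∑ j ∈ range J, a j • (U ^ (j + 1) - star U ^ (j + 1)) =
      cfc (fun z : ℂ => ∑ j ∈ range J, a j * (z ^ (j + 1) - star z ^ (j + 1))) U := by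
    rw [← Finset.sum_fn, cfc_sum _ U _ (fun j _ => by fun_prop)]
    refine Finset.sum_congr rfl fun j _ => ?_
    rw [cfc_const_mul _ _ U, cfc_sub _ _ U, cfc_pow_id U, cfc_pow (fun z : ℂ => star z) _ U,
      cfc_star_id U]
  rw [e]
  exact norm_cfc_le hK fun z hz => h z (spectrum.norm_eq_one_of_unitary hU hz)

lemma tr_bound {τ : N →ₗ[ℂ] ℂ} (hτ : Tr τ) (x F : N) :
    ‖τ (x * (star F * F))‖ ≤ 4 * (τ (star F * F)).re * ‖x‖ := by
  let _ := CStarAlgebra.spectralOrder N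
  have _ := CStarAlgebra.spectralOrderedRing N
  let g : N →ₗ[ℂ] ℂ := τ ∘ₗ LinearMap.mulRight ℂ (star F * F)
  have hg : ∀ y, g y = τ (y * (star F * F)) := fun y => rfl
  let f : N →ₚ[ℂ] ℂ := PositiveLinearMap.mk₀ g fun y hy => by
    obtain ⟨w, rfl⟩ := CStarAlgebra.nonneg_iff_eq_star_mul_self.1 hy
    have := hτ.pos (w * star F)
    rw [star_mul, star_star, mul_assoc, hτ.trace] at this
    rw [hg]
    simpa only [mul_assoc] using this
  have hf : ∀ y, f y = τ (y * (star F * F)) := fun y => rfl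
  have h1 : ‖f 1‖ = (τ (star F * F)).re := by
    rw [hf, one_mul]
    obtain ⟨h1, h2⟩ := Complex.nonneg_iff.1 (hτ.pos F)
    rw [← Complex.abs_re_eq_norm.2 h2.symm, abs_of_nonneg h1]
  obtain ⟨y, hy0, hy1, hy⟩ := CStarAlgebra.exists_sum_four_nonneg x
  rw [← hf, ← h1]
  conv_lhs => rw [hy]
  simp only [map_sum, map_smul]
  refine (norm_sum_le _ _).trans ?_
  simp only [norm_smul, norm_pow, Complex.norm_I, one_pow, one_mul]
  refine (Finset.sum_le_sum (g := fun _ => ‖f 1‖ * ‖x‖) fun i _ => ?_).trans (by simp [mul_assoc])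
  exact (f.norm_apply_le_of_nonneg _ (hy0 i)).trans (by gcongr; exact hy1 i)

lemma orth {R : ℕ} (hR : R ≠ 0) {ζ : ℂ} (hζ : IsPrimitiveRoot ζ R) {a b : ℕ} (ha : a < R)
    (hb : b < R) : ∑ t : Fin R, (ζ ^ (t : ℕ)) ^ a * (starRingEnd ℂ) ((ζ ^ (t : ℕ)) ^ b) =
      if a = b then (R : ℂ) else 0 := by
  split_ifs with h
  · subst h
    have hn : ‖ζ‖ = 1 := hζ.norm'_eq_one hR
    simp only [Complex.mul_conj', norm_pow, hn]
    simp
  · exact R124.geom_root hR hζ ha hb h

/-- the Fejér kernel -/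
noncomputable def Fe (S : N) (K : ℕ) (ρ : ℂ) : N := ∑ d ∈ range K, (ρ • S) ^ d

lemma Fe_eq (S : N) (K : ℕ) (ρ : ℂ) : star (Fe S K ρ) * Fe S K ρ =
    ∑ d' ∈ range K, ∑ d ∈ range K,
      (ρ ^ d * (starRingEnd ℂ) (ρ ^ d')) • (star S ^ d' * S ^ d) := by
  simp only [Fe, star_sum, Finset.sum_mul_sum, smul_pow, star_smul, star_pow,
    smul_mul_smul_comm, map_pow, Complex.star_def, mul_comm]

lemma star_pow_mul {S : N} (hS : S ∈ unitary N) (d : ℕ) : star S ^ d * S ^ d = 1 := by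
  rw [← star_pow]; exact Unitary.star_mul_self_of_mem (pow_mem hS d)

lemma avgA {R : ℕ} (hR : R ≠ 0) {ζ : ℂ} (hζ : IsPrimitiveRoot ζ R) (τ : N →ₗ[ℂ] ℂ) {S : N}
    (hS : S ∈ unitary N) {K m : ℕ} (hm : m ≤ K) (hK : K + m ≤ R) (X : N) :
    ∑ t : Fin R, τ (((ζ ^ (t : ℕ)) ^ m • X) * (star (Fe S K (ζ ^ (t : ℕ))) * Fe S K (ζ ^ (t : ℕ)))) =
      R * ((K - m : ℕ) * τ (X * star S ^ m)) := by
  simp only [Fe_eq, Finset.mul_sum, smul_mul_smul_comm, map_sum, map_smul, smul_eq_mul]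
  rw [Finset.sum_comm]
  simp_rw [Finset.sum_comm (s := (univ : Finset (Fin R))), ← Finset.sum_mul]
  rw [Finset.sum_comm]
  have h1 : ∀ d ∈ range K, ∑ d' ∈ range K, (∑ t : Fin R, (ζ ^ (t : ℕ)) ^ m *
      ((ζ ^ (t : ℕ)) ^ d * (starRingEnd ℂ) ((ζ ^ (t : ℕ)) ^ d'))) * τ (X * (star S ^ d' * S ^ d)) =
      if d < K - m then R * τ (X * star S ^ m) else 0 := by
    intro d hd
    rw [mem_range] at hd
    rw [Finset.sum_congr rfl (g := fun d' => if m + d = d' then R * τ (X * star S ^ m) else 0)]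
    · rw [Finset.sum_ite_eq]
      simp only [mem_range]
      congr 1
      exact propext (by omega)
    · intro d' hd'
      rw [mem_range] at hd'
      simp_rw [← mul_assoc, ← pow_add]
      rw [orth hR hζ (by omega) (by omega)]
      split_ifs with h
      · subst h
        rw [pow_add, mul_assoc, mul_assoc, star_pow_mul hS, mul_one]
      · rw [zero_mul]
  rw [Finset.sum_congr rfl h1, ← Finset.sum_filter, Finset.sum_const,
    show (range K).filter (fun d => d < K - m) = range (K - m) by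
      ext d; simp only [mem_filter, mem_range]; omega]
  simp only [card_range, nsmul_eq_mul]; ring

lemma avgB {R : ℕ} (hR : R ≠ 0) {ζ : ℂ} (hζ : IsPrimitiveRoot ζ R) (τ : N →ₗ[ℂ] ℂ) {S : N}
    (hS : S ∈ unitary N) {K m : ℕ} (hm : m ≤ K) (hK : K + m ≤ R) (X : N) :
    ∑ t : Fin R, τ (((starRingEnd ℂ) ((ζ ^ (t : ℕ)) ^ m) • X) *
      (star (Fe S K (ζ ^ (t : ℕ))) * Fe S K (ζ ^ (t : ℕ)))) =
      R * ((K - m : ℕ) * τ (X * S ^ m)) := by
  simp only [Fe_eq, Finset.mul_sum, smul_mul_smul_comm, map_sum, map_smul, smul_eq_mul]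
  rw [Finset.sum_comm]
  simp_rw [Finset.sum_comm (s := (univ : Finset (Fin R))), ← Finset.sum_mul]
  have h1 : ∀ d' ∈ range K, ∑ d ∈ range K, (∑ t : Fin R, (starRingEnd ℂ) ((ζ ^ (t : ℕ)) ^ m) *
      ((ζ ^ (t : ℕ)) ^ d * (starRingEnd ℂ) ((ζ ^ (t : ℕ)) ^ d'))) * τ (X * (star S ^ d' * S ^ d)) =
      if d' < K - m then R * τ (X * S ^ m) else 0 := by
    intro d' hd'
    rw [mem_range] at hd'
    rw [Finset.sum_congr rfl (g := fun d => if d' + m = d then R * τ (X * S ^ m) else 0)]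
    · rw [Finset.sum_ite_eq]
      simp only [mem_range]
      congr 1
      exact propext (by omega)
    · intro d hd
      rw [mem_range] at hd
      have e : ∀ w : ℂ, (starRingEnd ℂ) (w ^ m) * (w ^ d * (starRingEnd ℂ) (w ^ d')) =
          w ^ d * (starRingEnd ℂ) (w ^ (d' + m)) := fun w => by
        rw [pow_add, map_mul]; ring
      simp_rw [e]
      rw [orth hR hζ (by omega) (by omega)]
      by_cases h : d' + m = d
      · subst h
        rw [if_pos rfl, if_pos rfl, pow_add, ← mul_assoc (star S ^ d'), star_pow_mul hS, one_mul]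
      · rw [if_neg (Ne.symm h), if_neg h, zero_mul]
  rw [Finset.sum_congr rfl h1, ← Finset.sum_filter, Finset.sum_const,
    show (range K).filter (fun d => d < K - m) = range (K - m) by
      ext d; simp only [mem_filter, mem_range]; omega]
  simp only [card_range, nsmul_eq_mul]; ring

end FourierAux

open FourierAux

theorem fourierStmt : FourierStmt.{u} := by
  refine ⟨4 * (2 * (Real.pi + 2)), fun L => ?_⟩
  obtain ⟨J, hJL, hJ⟩ := ((Real.tendsto_sum_range_one_div_nat_succ_atTop.eventually_ge_atTop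
    (4 * L)).and (eventually_ge_atTop 1)).exists
  have hJ' : (1 : ℝ) ≤ J := by exact_mod_cast hJ
  set r : ℝ := 1 - 1 / (2 * J) with hr
  have h1 : 1 / (2 * (J : ℝ)) ≤ 1 / 2 := by
    rw [div_le_div_iff₀ (by positivity) (by positivity)]; linarith
  have hr0 : 0 ≤ r := by linarith
  let a : ℕ → ℝ := fun j => r ^ (j + 1) / (j + 1)
  refine ⟨J, fun j => a j * (((2 * J - (j + 1) : ℕ) : ℝ) / (2 * J)), fun j => by positivity, ?_, ?_⟩
  · have : ∑ j ∈ range J, (1 / 4 : ℝ) * (1 / ((j : ℝ) + 1)) ≤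
        ∑ j ∈ range J, a j * (((2 * J - (j + 1) : ℕ) : ℝ) / (2 * J)) := by
      refine Finset.sum_le_sum fun j hj => ?_
      rw [mem_range] at hj
      have hj' : (j : ℝ) + 1 ≤ J := by exact_mod_cast hj
      have h2 : 1 / 2 ≤ r ^ (j + 1) := by
        have := one_add_mul_le_pow (a := -(1 / (2 * (J : ℝ)))) (by linarith) (j + 1)
        rw [← sub_eq_add_neg] at this
        refine le_trans ?_ this
        have h3 : ((j : ℝ) + 1) * (1 / (2 * J)) ≤ 1 / 2 := by
          rw [mul_one_div, div_le_div_iff₀ (by positivity) (by positivity)]; linarith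
        push_cast; linarith
      have h3 : 1 / 2 ≤ ((2 * J - (j + 1) : ℕ) : ℝ) / (2 * J) := by
        rw [Nat.cast_sub (by omega), div_le_div_iff₀ (by positivity) (by positivity)]
        push_cast; linarith
      calc (1 / 4 : ℝ) * (1 / ((j : ℝ) + 1)) = (1 / 2) / (j + 1) * (1 / 2) := by ring
        _ ≤ _ := by simp only [a]; gcongr
    rw [← Finset.mul_sum] at this
    linarith
  intro N _ τ hτ T C hT S hS
  obtain ⟨ζ, hζ⟩ : ∃ ζ : ℂ, IsPrimitiveRoot ζ (3 * J) :=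
    ⟨_, Complex.isPrimitiveRoot_exp _ (by omega)⟩
  have hR : 3 * J ≠ 0 := by omega
  have hn : ‖ζ‖ = 1 := hζ.norm'_eq_one hR
  let T' : N →ₗ[ℂ] N := IsLinearMap.mk' T hT.lin
  have hT' : ∀ x, T' x = T x := fun x => rfl
  let A : ℂ → N := fun ρ => ∑ j ∈ range J, (a j : ℂ) • ((ρ • S) ^ (j + 1) - star (ρ • S) ^ (j + 1))
  let Φ : Fin (3 * J) → N := fun t => star (Fe S (2 * J) (ζ ^ (t : ℕ))) * Fe S (2 * J) (ζ ^ (t : ℕ))
  have hA : ∀ t : Fin (3 * J), ‖A (ζ ^ (t : ℕ))‖ ≤ 2 * (Real.pi + 2) := fun t => by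
    refine op_bound J (fun j => (a j : ℂ)) (by positivity) (fun z hz => scalar_bound J hJ hz) ?_
    have hρ : (ζ ^ (t : ℕ)) ∈ unitary ℂ := by
      rw [Unitary.mem_iff_self_mul_star, Complex.star_def, Complex.mul_conj', norm_pow, hn]; simp
    exact Unitary.smul_mem_of_mem hρ hS
  have hΦ : ∑ t, (τ (Φ t)).re = 3 * J * (2 * J) := by
    have := avgA hR hζ τ hS (K := 2 * J) (m := 0) (by omega) (by omega) 1
    simp only [pow_zero, one_smul, one_mul, hτ.one, mul_one, Nat.sub_zero] at this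
    have h2 := congrArg Complex.re this
    rw [Complex.re_sum] at h2
    rw [h2]; norm_cast
  have hmain : ∑ t : Fin (3 * J), τ (T (A (ζ ^ (t : ℕ))) * Φ t) = (3 * J * (2 * J) : ℝ) *
      ∑ j ∈ range J, ((a j * (((2 * J - (j + 1) : ℕ) : ℝ) / (2 * J)) : ℝ) : ℂ) *
      (τ (T (S ^ (j + 1)) * star S ^ (j + 1)) - τ (T (star S ^ (j + 1)) * S ^ (j + 1))) := by
    have e : ∀ t : Fin (3 * J), τ (T (A (ζ ^ (t : ℕ))) * Φ t) = ∑ j ∈ range J, (a j : ℂ) *
        (τ (((ζ ^ (t : ℕ)) ^ (j + 1) • T (S ^ (j + 1))) * Φ t) -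
          τ (((starRingEnd ℂ) ((ζ ^ (t : ℕ)) ^ (j + 1)) • T (star S ^ (j + 1))) * Φ t)) := by
      intro t
      simp only [← hT', A, map_sum, map_smul, map_sub, smul_pow, star_smul, Finset.sum_mul,
        smul_mul_assoc, sub_mul, smul_eq_mul, Complex.star_def, map_pow]
    simp only [e]
    rw [Finset.sum_comm, Finset.mul_sum]
    refine Finset.sum_congr rfl fun j hj => ?_
    rw [mem_range] at hj
    rw [← Finset.mul_sum, Finset.sum_sub_distrib, avgA hR hζ τ hS (by omega) (by omega),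
      avgB hR hζ τ hS (by omega) (by omega)]
    have : (J : ℂ) ≠ 0 := by exact_mod_cast (by omega : J ≠ 0)
    simp only [Complex.ofReal_mul, Complex.ofReal_div, Complex.ofReal_natCast,
      Complex.ofReal_ofNat, Nat.cast_mul, Nat.cast_ofNat]
    field_simp
  have hpos : (0 : ℝ) < 3 * J * (2 * J) := by positivity
  have hbd : ‖∑ t : Fin (3 * J), τ (T (A (ζ ^ (t : ℕ))) * Φ t)‖ ≤
      3 * J * (2 * J) * (4 * (2 * (Real.pi + 2)) * C) := by
    rw [← hΦ, Finset.sum_mul]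
    refine (norm_sum_le _ _).trans (Finset.sum_le_sum fun t _ => ?_)
    refine (tr_bound hτ _ _).trans ?_
    have h2 : 0 ≤ (τ (Φ t)).re := (Complex.nonneg_iff.1 (hτ.pos _)).1
    have h3 := (hT.bd _).trans (mul_le_mul_of_nonneg_left (hA t) hT.nonneg)
    calc 4 * (τ (Φ t)).re * ‖T (A (ζ ^ (t : ℕ)))‖ ≤
        4 * (τ (Φ t)).re * (C * (2 * (Real.pi + 2))) := by gcongr
      _ = _ := by ring
  rw [hmain, norm_mul, Complex.norm_real, Real.norm_of_nonneg hpos.le] at hbd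
  exact le_of_mul_le_mul_left hbd hpos

end Crest.Agent.R121
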