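import Crest.Agent.R121.Basic

/-!
# Row 121: without quasi-invariant states a projection is properly infinite
-/

set_option autoImplicit false

namespace Crest.Agent.R121

open scoped InnerProductSpace ComplexOrder BigOperators _root_.Topology
open Finset Filter
open Crest.Agent.R124 (Op)

universe u

namespace Inf

section alg
variable {A : Type*} [Ring A] [StarRing A]

/-- the star order -/
def SLe (a b : A) : Prop := star a * b = star a * a ∧ b * star a = a * star a

lemma SLe.star {a b : A} (h : SLe a b) : SLe (star a) (star b) := by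
  have h1 := congrArg Star.star h.1
  have h2 := congrArg Star.star h.2
  simp only [star_mul, star_star] at h1 h2
  exact ⟨by rw [star_star, h2], by rw [star_star, h1]⟩

lemma SLe.trans {a b c : A} (ha : a * Star.star a * a = a) (h : SLe a b) (h' : SLe b c) :
    SLe a c := by
  have hs := pi_star ha
  have k1 : a * Star.star b = a * Star.star a := by simpa only [star_star] using h.star.1
  have k2 : Star.star b * a = Star.star a * a := by simpa only [star_star] using h.star.2
  have e1 : Star.star a * a * Star.star b = Star.star a := by rw [mul_assoc, k1, ← mul_assoc, hs]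
  have e2 : Star.star b * (a * Star.star a) = Star.star a := by rw [← mul_assoc, k2, hs]
  constructor
  · calc Star.star a * c = Star.star a * a * (Star.star b * c) := by rw [← mul_assoc, e1]
      _ = _ := by rw [h'.1, ← mul_assoc, e1, h.1]
  · calc c * Star.star a = c * Star.star b * (a * Star.star a) := by rw [mul_assoc, e2]
      _ = _ := by rw [h'.2, mul_assoc, e2, h.2]

lemma st_left {p a : A} (hp : IsStarProjection p) (h : a * p = a) : p * star a = star a := by
  rw [← hp.isSelfAdjoint.star_eq, ← star_mul, h]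

lemma st_right {p a : A} (hp : IsStarProjection p) (h : p * a = a) : star a * p = star a := by
  rw [← hp.isSelfAdjoint.star_eq, ← star_mul, h]

lemma proj_comm {p q : A} (hp : IsStarProjection p) (hq : IsStarProjection q) (h : p * q = q) :
    q * p = q := by
  have := st_right hp h
  rwa [hq.isSelfAdjoint.star_eq] at this

lemma st_zero {a b : A} (h : star a * b = 0) : star b * a = 0 := by
  have := congrArg star h
  rwa [star_mul, star_star, star_zero] at this

lemma st_zero' {a b : A} (h : a * star b = 0) : b * star a = 0 := by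
  have := congrArg star h
  rwa [star_mul, star_star, star_zero] at this

lemma pi_add {v w : A} (hv : v * star v * v = v) (hw : w * star w * w = w) (h1 : w * star v = 0)
    (h2 : star w * v = 0) : (v + w) * star (v + w) * (v + w) = v + w := by
  have h3 := st_zero' h1
  have h4 := st_zero h2
  have e : (v + w) * star (v + w) = v * star v + w * star w := by
    simp only [star_add, add_mul, mul_add, h1, h3, add_zero, zero_add]
  rw [e, add_mul, mul_add, mul_add, hv, hw, mul_assoc v, h4, mul_assoc w, h2, mul_zero, mul_zero,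
    add_zero, zero_add]

lemma proj_pi {p : A} (hp : IsStarProjection p) : p * star p * p = p := by
  rw [hp.isSelfAdjoint.star_eq, hp.isIdempotentElem.eq, hp.isIdempotentElem.eq]

lemma proj_sub {p q : A} (hp : IsStarProjection p) (hq : IsStarProjection q) (h : p * q = q) :
    IsStarProjection (p - q) :=
  ⟨by rw [IsIdempotentElem, mul_sub, sub_mul, sub_mul, hp.isIdempotentElem.eq,
    hq.isIdempotentElem.eq, h, proj_comm hp hq h, sub_self, sub_zero],
    hp.isSelfAdjoint.sub hq.isSelfAdjoint⟩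

end alg

section vn
variable {H : Type*} [NormedAddCommGroup H] [InnerProductSpace ℂ H] [CompleteSpace H]
  {M : VonNeumannAlgebra H} {I : Type*}

lemma pi_app_le {w : Alg M} (hw : w * star w * w = w) (ξ : H) : ‖(w : Op H) ξ‖ ≤ ‖ξ‖ := by
  rw [pi_norm_app hw]; exact proj_norm_app_le (pi_proj₁ hw) ξ

lemma pi_star' {w : Alg M} (hw : w * star w * w = w) :
    star w * star (star w) * star w = star w := by rw [star_star, pi_star hw]

lemma pi_norm_le {w : Alg M} (hw : w * star w * w = w) : ‖w‖ ≤ 1 :=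
  norm_le_of_app zero_le_one fun ξ => by rw [one_mul]; exact pi_app_le hw ξ

lemma pyth {a b : Alg M} (h : star a * b = 0) (ξ : H) :
    ‖((a + b : Alg M) : Op H) ξ‖ ^ 2 = ‖(a : Op H) ξ‖ ^ 2 + ‖(b : Op H) ξ‖ ^ 2 := by
  rw [norm_app_sq, norm_app_sq, norm_app_sq, star_add, add_mul, mul_add, mul_add, h, st_zero h,
    add_zero, zero_add, add_app, inner_add_right, Complex.add_re]

lemma WLim_star {l : Filter I} {f : I → Alg M} {a : Alg M} (h : WLim l f a) :
    WLim l (fun i => star (f i)) (star a) := fun ξ η => by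
  simp only [inner_star_r]
  have := (Complex.continuous_conj.tendsto _).comp (h η ξ)
  simpa only [Function.comp_def, inner_conj_symm] using this

/-- strong convergence -/
def SLim (l : Filter I) (f : I → Alg M) (a : Alg M) : Prop :=
  ∀ ξ, Tendsto (fun i => (f i : Op H) ξ) l (𝓝 ((a : Op H) ξ))

lemma SLim.const (l : Filter I) (a : Alg M) : SLim l (fun _ => a) a := fun _ => tendsto_const_nhds

lemma SLim.mul {l : Filter I} {f g : I → Alg M} {a b : Alg M} {C : ℝ} (hf : SLim l f a)
    (hg : SLim l g b) (hC : ∀ᶠ i in l, ‖f i‖ ≤ C) : SLim l (fun i => f i * g i) (a * b) := by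
  intro ξ
  have h1 : Tendsto (fun i => (f i : Op H) ((g i : Op H) ξ - (b : Op H) ξ)) l (𝓝 0) := by
    refine squeeze_zero_norm' (a := fun i => C * ‖(g i : Op H) ξ - (b : Op H) ξ‖) ?_ ?_
    · filter_upwards [hC] with i hi
      exact (norm_app_le _ _).trans (by gcongr)
    · simpa using (tendsto_iff_norm_sub_tendsto_zero.1 (hg ξ)).const_mul C
  simpa only [map_sub, sub_add_cancel, zero_add, mul_app] using h1.add (hf ((b : Op H) ξ))

lemma SLim.eq {l : Filter I} [l.NeBot] {f g : I → Alg M} {a b : Alg M} (hf : SLim l f a)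
    (hg : SLim l g b) (h : ∀ᶠ i in l, f i = g i) : a = b :=
  ((WLim.of_tendsto hf).congr' h).unique (WLim.of_tendsto hg)

lemma SLim.of_le {l : Filter I} {f : I → Alg M} {a : Alg M} (h : WLim l f a)
    (hle : ∀ᶠ i in l, star (f i) * a = star (f i) * f i) : SLim l f a := by
  intro ξ
  rw [tendsto_iff_norm_sub_tendsto_zero]
  have h1 : Tendsto (fun i => ‖(a : Op H) ξ‖ ^ 2 - (⟪(a : Op H) ξ, (f i : Op H) ξ⟫_ℂ).re) l
      (𝓝 0) := by
    have := (tendsto_const_nhds (x := ‖(a : Op H) ξ‖ ^ 2)).sub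
      ((Complex.continuous_re.tendsto _).comp (h ξ ((a : Op H) ξ)))
    have e : (⟪(a : Op H) ξ, (a : Op H) ξ⟫_ℂ).re = ‖(a : Op H) ξ‖ ^ 2 := by
      rw [inner_self_eq_norm_sq_to_K]; norm_cast
    rwa [e, sub_self] at this
  have h2 : Tendsto (fun i => ‖(f i : Op H) ξ - (a : Op H) ξ‖ ^ 2) l (𝓝 0) := by
    refine h1.congr' ?_
    filter_upwards [hle] with i hi
    have e1 : (⟪(f i : Op H) ξ, (a : Op H) ξ⟫_ℂ).re = ‖(f i : Op H) ξ‖ ^ 2 := by
      rw [norm_app_sq, ← hi, mul_app, inner_star_r]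
    have e2 : (⟪(a : Op H) ξ, (f i : Op H) ξ⟫_ℂ).re = (⟪(f i : Op H) ξ, (a : Op H) ξ⟫_ℂ).re := by
      rw [← inner_conj_symm, Complex.conj_re]
    rw [@norm_sub_sq ℂ, e2]
    simp only [RCLike.re_to_complex, e1]
    ring
  have := h2.sqrt
  simpa only [Real.sqrt_sq (norm_nonneg _), Real.sqrt_zero] using this

/-- maximal families of partial isometries -/
theorem zorn_pi {ι : Type} (V : Set (ι → Alg M))
    (hpi : ∀ v ∈ V, ∀ i, v i * star (v i) * v i = v i) (h0 : 0 ∈ V)
    (hcl : ∀ l : Filter (ι → Alg M), l.NeBot → (∀ᶠ f in l, f ∈ V) → ∀ v : ι → Alg M,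
      (∀ i, v i * star (v i) * v i = v i) → (∀ i, SLim l (fun f => f i) (v i)) →
      (∀ i, SLim l (fun f => star (f i)) (star (v i))) → v ∈ V) :
    ∃ v ∈ V, ∀ u : ι → Alg M, (∀ i, u i * star (v i) = 0) → (∀ i, star (u i) * v i = 0) →
      v + u ∈ V → u = 0 := by
  let r : V → V → Prop := fun a b => ∀ i, SLe (a.1 i) (b.1 i)
  have hrefl : ∀ a, r a a := fun a i => ⟨rfl, rfl⟩
  have htr : ∀ {a b c}, r a b → r b c → r a c := fun {a b c} h h' i =>
    (h i).trans (hpi a.1 a.2 i) (h' i)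
  obtain ⟨m, hm⟩ := exists_maximal_of_chains_bounded (r := r) (fun c hc => by
    rcases c.eq_empty_or_nonempty with rfl | hne
    · exact ⟨⟨0, h0⟩, by simp⟩
    have : Nonempty c := hne.to_subtype
    let l : Filter V := ⨅ a : c, 𝓟 {b | b ∈ c ∧ r a.1 b}
    have hl : l.NeBot := by
      refine iInf_neBot_of_directed' ?_ fun a => principal_neBot_iff.2 ⟨a.1, a.2, hrefl _⟩
      intro a b
      by_cases hab : a.1 = b.1
      · exact ⟨b, principal_mono.2 fun x hx => ⟨hx.1, hab ▸ hx.2⟩, le_rfl⟩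
      rcases hc a.2 b.2 hab with h | h
      · exact ⟨b, principal_mono.2 fun x hx => ⟨hx.1, htr h hx.2⟩, le_rfl⟩
      · exact ⟨a, le_rfl, principal_mono.2 fun x hx => ⟨hx.1, htr h hx.2⟩⟩
    let U : Ultrafilter V := Ultrafilter.of l
    have hU : ∀ a ∈ c, ∀ᶠ b in (U : Filter V), b ∈ c ∧ r a b := fun a ha =>
      Ultrafilter.of_le l (mem_iInf_of_mem (⟨a, ha⟩ : c) (mem_principal_self _))
    obtain ⟨a₀, ha₀⟩ := hne
    have hc' : ∀ᶠ b in (U : Filter V), b ∈ c := (hU a₀ ha₀).mono fun b hb => hb.1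
    let w : ι → Alg M := fun i => wlim U fun b => b.1 i
    have hw : ∀ i, WLim (U : Filter V) (fun b => b.1 i) (w i) := fun i =>
      wlim_spec U _ (Eventually.of_forall fun b => pi_norm_le (hpi b.1 b.2 i))
    have hle : ∀ a ∈ c, ∀ i, SLe (a.1 i) (w i) := fun a ha i =>
      ⟨(((hw i).mul_left _).congr' ((hU a ha).mono fun b hb => (hb.2 i).1)).unique
          (WLim.const _ _),
        (((hw i).mul_right _).congr' ((hU a ha).mono fun b hb => (hb.2 i).2)).unique
          (WLim.const _ _)⟩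
    have hwpi : ∀ i, w i * star (w i) * w i = w i := fun i => by
      refine ((((WLim_star (hw i)).mul_left (w i)).mul_right (w i)).congr' ?_).unique (hw i)
      filter_upwards [hc'] with b hb
      rw [(hle b hb i).2, mul_assoc, (hle b hb i).1, ← mul_assoc, hpi b.1 b.2 i]
    have hwV : w ∈ V := by
      refine hcl ((U : Filter V).map Subtype.val) inferInstance
        (eventually_map.2 (Eventually.of_forall fun b => b.2)) w hwpi (fun i ξ => ?_)
        (fun i ξ => ?_)
      · exact SLim.of_le (hw i) (hc'.mono fun b hb => (hle b hb i).1) ξ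
      · exact SLim.of_le (WLim_star (hw i)) (hc'.mono fun b hb => (hle b hb i).star.1) ξ
    exact ⟨⟨w, hwV⟩, hle⟩) htr
  refine ⟨m.1, m.2, fun u h1 h2 hu => funext fun i => ?_⟩
  have h := (hm ⟨_, hu⟩ fun i => ⟨by
    simp only [Pi.add_apply, mul_add, st_zero (h2 i), add_zero], by
    simp only [Pi.add_apply, add_mul, h1 i, add_zero]⟩ ) i
  have h3 := h.1
  simp only [Pi.add_apply] at h3
  rw [mul_add, left_eq_add, star_add, add_mul, st_zero (h2 i), zero_add] at h3
  exact (CStarRing.star_mul_self_eq_zero_iff _).1 h3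

/-- the cyclic projection of a vector -/
theorem exists_cyc {p : Alg M} (hp : IsStarProjection p) (hp0 : p ≠ 0) :
    ∃ (e : Alg M) (ξ : H), IsStarProjection e ∧ e ≠ 0 ∧ p * e = e ∧
      ∀ x : Alg M, x * e = x → (x : Op H) ξ = 0 → x = 0 := by
  obtain ⟨ξ₀, hξ₀⟩ : ∃ ξ₀, (p : Op H) ξ₀ ≠ 0 := by
    by_contra h
    push Not at h
    exact hp0 (ext_app h)
  set ξ := (p : Op H) ξ₀ with hξ
  have hpξ : (p : Op H) ξ = ξ := by rw [hξ, ← mul_app, hp.isIdempotentElem.eq]
  let S₀ : Submodule ℂ H := Submodule.span ℂ {ψ : H | ∃ y ∈ M.commutant, ψ = y ξ}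
  let S := S₀.topologicalClosure
  have : CompleteSpace S := (Submodule.isClosed_topologicalClosure _).completeSpace_coe
  have hz : IsStarProjection S.starProjection := isStarProjection_starProjection
  have hm : S.starProjection ∈ M := by
    rw [VonNeumannAlgebra.IsStarProjection.mem_iff hz, Submodule.range_starProjection]
    intro y hy
    refine R124.VN.closure_inv (S := S₀) (y := y) fun ψ hψ => ?_
    have : S₀ ≤ S₀.comap (y : H →ₗ[ℂ] H) := by
      refine Submodule.span_le.2 ?_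
      rintro _ ⟨y', hy', rfl⟩
      exact Submodule.subset_span ⟨y * y', mul_mem hy hy', rfl⟩
    exact this hψ
  have key : ∀ x : Alg M, (x : Op H) ξ = 0 → x * ⟨_, hm⟩ = 0 := by
    intro x hx
    have hk : S ≤ (x : Op H).ker := by
      refine Submodule.topologicalClosure_minimal _ (Submodule.span_le.2 ?_) (x : Op H).isClosed_ker
      rintro _ ⟨y, hy, rfl⟩
      change (x : Op H) (y ξ) = 0
      have := congrArg (fun T : Op H => T ξ) (R124.VN.comm_of_mem (coe_mem x) hy)
      refine this.trans ?_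
      change y ((x : Op H) ξ) = 0
      rw [hx, map_zero]
    exact ext_app fun η => hk (S.starProjection_apply_mem η)
  have hξS : ξ ∈ S :=
    Submodule.le_topologicalClosure _ (Submodule.subset_span ⟨1, one_mem _, rfl⟩)
  refine ⟨⟨_, hm⟩, ξ, proj_coe.1 hz, fun h => hξ₀ ?_, ?_, fun x h1 h2 => by rw [← h1, key x h2]⟩
  · have := congrArg (fun T : Alg M => (T : Op H) ξ) h
    simp only [zero_app] at this
    rw [← this]
    exact (Submodule.starProjection_eq_self_iff.2 hξS).symm
  · have := key (p - 1) (by rw [sub_app, hpξ, one_app, sub_self])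
    rwa [sub_mul, one_mul, sub_eq_zero] at this

section loc
variable {e : Alg M} {ξ : H}

/-- partial isometries that shrink the state -/
theorem exists_small (he : IsStarProjection e)
    (hsep : ∀ x : Alg M, x * e = x → (x : Op H) ξ = 0 → x = 0)
    (hno : ∀ g : Alg M, IsStarProjection g → e * g = g → ¬ Quasi g ξ) {p q x : Alg M}
    (hp : IsStarProjection p) (hq : IsStarProjection q) (hep : e * p = p) (heq : e * q = q)
    (hx : q * x * p ≠ 0) {δ : ℝ} (hδ : 0 < δ) :
    ∃ w : Alg M, w ≠ 0 ∧ w * star w * w = w ∧ q * w = w ∧ w * p = w ∧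
      ‖((star w : Alg M) : Op H) ξ‖ ^ 2 ≤ δ * ‖(w : Op H) ξ‖ ^ 2 := by
  by_contra hcon
  push Not at hcon
  have hpe := proj_comm he hp hep
  let P : ℝ → Prop := fun t => ∀ y : Alg M, y * star y * y = y → q * y = y → y * p = y →
    ‖(y : Op H) ξ‖ ^ 2 ≤ t * ‖((star y : Alg M) : Op H) ξ‖ ^ 2
  have hP0 : P δ⁻¹ := by
    intro y h1 h2 h3
    by_cases hy : y = 0
    · simp [hy]
    · have := (hcon y hy h1 h2 h3).le
      rwa [← le_inv_mul_iff₀ hδ] at this
  obtain ⟨r, hr, hPr, hPr'⟩ : ∃ r, 0 < r ∧ P r ∧ ¬ P (r / 2) := by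
    by_contra h
    push Not at h
    have hn : ∀ n : ℕ, P (δ⁻¹ * (1 / 2) ^ n) := by
      intro n
      induction n with
      | zero => simpa using hP0
      | succ n ih =>
        have := h _ (by positivity) ih
        rwa [show δ⁻¹ * (1 / 2) ^ n / 2 = δ⁻¹ * (1 / 2) ^ (n + 1) by ring] at this
    obtain ⟨y, y0, y1, y2, y3⟩ := exists_pi (p := p) (q := q) (x := q * x * p)
      (by rw [← mul_assoc, ← mul_assoc, hq.isIdempotentElem.eq])
      (by rw [mul_assoc, hp.isIdempotentElem.eq]) hx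
    have ht : Tendsto (fun n : ℕ => δ⁻¹ * (1 / 2 : ℝ) ^ n * ‖((star y : Alg M) : Op H) ξ‖ ^ 2)
        atTop (𝓝 (δ⁻¹ * 0 * ‖((star y : Alg M) : Op H) ξ‖ ^ 2)) :=
      ((tendsto_pow_atTop_nhds_zero_of_lt_one (by norm_num) (by norm_num)).const_mul _).mul_const _
    have := ge_of_tendsto' ht fun n => hn n y y1 y2 y3
    rw [mul_zero, zero_mul] at this
    refine y0 (hsep y (by rw [← y3, mul_assoc, hpe]) ?_)
    exact norm_eq_zero.1 (pow_eq_zero_iff two_ne_zero |>.1 (le_antisymm this (sq_nonneg _)))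
  obtain ⟨w, w1, w2, w3, w4⟩ : ∃ w : Alg M, w * star w * w = w ∧ q * w = w ∧ w * p = w ∧
      r / 2 * ‖((star w : Alg M) : Op H) ξ‖ ^ 2 < ‖(w : Op H) ξ‖ ^ 2 := by
    by_contra h
    push Not at h
    exact hPr' h
  have ws := pi_star w1
  set η := ((star w : Alg M) : Op H) ξ with hη
  obtain ⟨s, ⟨s1, s2, s3⟩, smax⟩ := zorn_pi (ι := Unit)
    {s : Unit → Alg M | IsStarProjection (s ()) ∧ star w * w * s () = s () ∧
      ‖(s () : Op H) ξ‖ ^ 2 ≤ r / 2 * ‖(s () : Op H) η‖ ^ 2}
    (fun s hs _ => proj_pi hs.1) ⟨IsStarProjection.zero _, mul_zero _, by simp⟩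
    (fun l hl hV v v1 v2 v3 => by
      have hsa : star (v ()) = v () :=
        (v3 ()).eq (v2 ()) (hV.mono fun f hf => hf.1.isSelfAdjoint.star_eq)
      refine ⟨⟨((v2 ()).mul (v2 ()) (hV.mono fun f hf => hf.1.norm_le)).eq (v2 ())
        (hV.mono fun f hf => hf.1.isIdempotentElem.eq), hsa⟩,
        ((SLim.const l _).mul (v2 ()) (Eventually.of_forall fun _ => le_rfl)).eq (v2 ())
          (hV.mono fun f hf => hf.2.1), ?_⟩
      exact le_of_tendsto_of_tendsto ((v2 () ξ).norm.pow 2)
        (((v2 () η).norm.pow 2).const_mul _) (hV.mono fun f hf => hf.2.2))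
  set s₀ := s () with hs₀
  have hpp := proj_sub (pi_proj₁ w1) s1 s2
  set p' := star w * w - s₀ with hp'
  have hwp' : star w * w * p' = p' := by rw [hp', mul_sub, (pi_proj₁ w1).isIdempotentElem.eq, s2]
  have hp'w := proj_comm (pi_proj₁ w1) hpp hwp'
  have hsp' : s₀ * p' = 0 := by
    rw [hp', mul_sub, proj_comm (pi_proj₁ w1) s1 s2, s1.isIdempotentElem.eq, sub_self]
  have hp'0 : p' ≠ 0 := by
    intro h
    rw [hp', sub_eq_zero] at h
    rw [← h, ← pi_norm_app w1, hη, ← mul_app, ws, ← hη] at s3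
    linarith
  have hbig : ∀ s' : Alg M, IsStarProjection s' → p' * s' = s' →
      r / 2 * ‖(s' : Op H) η‖ ^ 2 ≤ ‖(s' : Op H) ξ‖ ^ 2 := by
    intro s' h1 h2
    by_contra h
    push Not at h
    have k1 : s₀ * s' = 0 := by rw [← h2, ← mul_assoc, hsp', zero_mul]
    have k2 : star s₀ * s' = 0 := by rwa [s1.isSelfAdjoint.star_eq]
    have := smax (fun _ => s') (fun _ => st_zero' (by rwa [h1.isSelfAdjoint.star_eq]))
      (fun _ => st_zero k2) ⟨s1.add h1 k1, by
        change star w * w * (s₀ + s') = s₀ + s'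
        rw [mul_add, s2, ← h2, ← mul_assoc, hwp'], by
        change ‖((s₀ + s' : Alg M) : Op H) ξ‖ ^ 2 ≤ r / 2 * ‖((s₀ + s' : Alg M) : Op H) η‖ ^ 2
        rw [pyth k2, pyth k2]; linarith⟩
    have h3 : s' = 0 := congrFun this ()
    simp [h3] at h
  have hg : IsStarProjection (w * p' * star w) := by
    have : w * p' * star w = w * p' * star (w * p') := by
      rw [star_mul, hpp.isSelfAdjoint.star_eq, ← mul_assoc, mul_assoc w p' p',
        hpp.isIdempotentElem.eq]
    rw [this]
    refine pi_proj₂ (pi_of_proj ?_)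
    rwa [star_mul, hpp.isSelfAdjoint.star_eq, mul_assoc, ← mul_assoc (star w), hwp',
      hpp.isIdempotentElem.eq]
  set g := w * p' * star w with hgd
  have hqg : q * g = g := by rw [hgd, ← mul_assoc, ← mul_assoc, w2]
  have heg : e * g = g := by rw [← hqg, ← mul_assoc, heq]
  have hge := proj_comm he hg heg
  have hwg : star w * g = p' * star w := by rw [hgd, ← mul_assoc, ← mul_assoc, hwp']
  have hgw : g * (w * star w) = g := by rw [hgd, mul_assoc, ← mul_assoc (star w), ws]
  refine hno g hg heg ⟨fun h => hp'0 ?_, fun y hy => hsep y (by rw [← hy.2, mul_assoc, hge]),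
    fun y hy y1 => ?_⟩
  · have : star w * g * w = p' := by rw [hwg, mul_assoc, hp'w]
    rw [← this, h, mul_zero, zero_mul]
  · have hyw : y * w * star w = y := by rw [← hy.2, mul_assoc, mul_assoc, hgw]
    have y2 : y * w * star (y * w) * (y * w) = y * w := by
      rw [star_mul, ← mul_assoc (y * w), hyw, ← mul_assoc, y1]
    have k1 := hPr (y * w) y2 (by rw [← mul_assoc, ← hy.1, ← mul_assoc, hqg])
      (by rw [mul_assoc, w3])
    have k2 := hbig _ (pi_proj₁ y2) (by
      rw [star_mul, ← mul_assoc p', ← mul_assoc p', ← hwg, mul_assoc (star w) g, (hy.star hg).1])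
    rw [← pi_norm_app y2, ← pi_norm_app y2, hη, ← mul_app, hyw] at k2
    have k3 : ‖((star (y * w) : Alg M) : Op H) ξ‖ ^ 2 ≤ ‖((star y : Alg M) : Op H) ξ‖ ^ 2 := by
      rw [star_mul, mul_app]
      exact pow_le_pow_left₀ (norm_nonneg _) (pi_app_le (pi_star' w1) _) 2
    have k4 := mul_le_mul_of_nonneg_left k3 hr.le
    refine le_of_mul_le_mul_left ?_ hr
    linarith

/-- comparison -/
theorem exists_cmp (he : IsStarProjection e)
    (hsep : ∀ x : Alg M, x * e = x → (x : Op H) ξ = 0 → x = 0)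
    (hno : ∀ g : Alg M, IsStarProjection g → e * g = g → ¬ Quasi g ξ) {q : Alg M}
    (hq : IsStarProjection q) (heq : e * q = q) (hq0 : q ≠ 0) :
    ∃ v z : Alg M, v * star v * v = v ∧ q * v = v ∧ CProj z ∧ q - v * star v ≠ 0 ∧
      z * (q - v * star v) = q - v * star v ∧ z * (star v * v) = z * e := by
  have hqe := proj_comm he hq heq
  have hqξ : 0 < ‖(q : Op H) ξ‖ := norm_pos_iff.2 fun h => hq0 (hsep q hqe h)
  have hξ : 0 < ‖ξ‖ := hqξ.trans_le (proj_norm_app_le hq ξ)
  set δ := ‖(q : Op H) ξ‖ ^ 2 / (2 * ‖ξ‖ ^ 2) with hδ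
  have hδ0 : 0 < δ := by positivity
  obtain ⟨s, ⟨s1, s2, s3, s4⟩, smax⟩ := zorn_pi (ι := Unit)
    {s : Unit → Alg M | s () * star (s ()) * s () = s () ∧ q * s () = s () ∧ s () * e = s () ∧
      ‖((star (s ()) : Alg M) : Op H) ξ‖ ^ 2 ≤ δ * ‖(s () : Op H) ξ‖ ^ 2}
    (fun s hs _ => hs.1) ⟨by simp, mul_zero _, zero_mul _, by simp⟩
    (fun l hl hV v v1 v2 v3 => ⟨v1 (),
      ((SLim.const l _).mul (v2 ()) (Eventually.of_forall fun _ => le_rfl)).eq (v2 ())
        (hV.mono fun f hf => hf.2.1),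
      ((v2 ()).mul (SLim.const l _) (hV.mono fun f hf => pi_norm_le hf.1)).eq (v2 ())
        (hV.mono fun f hf => hf.2.2.1),
      le_of_tendsto_of_tendsto ((v3 () ξ).norm.pow 2)
        (((v2 () ξ).norm.pow 2).const_mul _) (hV.mono fun f hf => hf.2.2.2)⟩)
  set v := s () with hv
  have hq₀ := proj_sub hq (pi_proj₂ s1) (by rw [← mul_assoc, s2])
  have hev := st_left he s3
  have hp₀ := proj_sub he (pi_proj₁ s1) (by rw [← mul_assoc, hev])
  have hz : ∀ x, (q - v * star v) * x * (e - star v * v) = 0 := by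
    intro x
    by_contra hx
    obtain ⟨w, w0, w1, w2, w3, w4⟩ := exists_small he hsep hno hp₀ hq₀
      (by rw [mul_sub, he.isIdempotentElem.eq, ← mul_assoc, hev])
      (by rw [mul_sub, heq, ← s2, ← mul_assoc, ← mul_assoc, heq]) hx hδ0
    have k1 : w * star v = 0 := by
      rw [← w3, mul_assoc, sub_mul, hev, pi_star s1, sub_self, mul_zero]
    have k2 : star v * w = 0 := by
      rw [← w2, ← mul_assoc, mul_sub, st_right hq s2, ← mul_assoc, pi_star s1, sub_self, zero_mul]
    refine w0 (congrFun (smax (fun _ => w) (fun _ => k1) (fun _ => st_zero k2)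
      ⟨pi_add s1 w1 k1 (st_zero k2), ?_, ?_, ?_⟩) ())
    · change q * (v + w) = v + w
      rw [mul_add, s2, ← w2, ← mul_assoc, mul_sub, hq.isIdempotentElem.eq, ← mul_assoc, s2]
    · change (v + w) * e = v + w
      rw [add_mul, s3, ← w3, mul_assoc, sub_mul, he.isIdempotentElem.eq, mul_assoc, s3]
    · change ‖((star (v + w) : Alg M) : Op H) ξ‖ ^ 2 ≤ δ * ‖((v + w : Alg M) : Op H) ξ‖ ^ 2
      rw [star_add, pyth k2, pyth (by rw [star_star]; exact st_zero' k1)]
      linarith
  obtain ⟨z, z1, z2, -, z3⟩ := exists_cover (q - v * star v)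
  refine ⟨v, z, s1, s2, z1, fun h => ?_, z2, ?_⟩
  · rw [sub_eq_zero] at h
    have k1 : ‖(q : Op H) ξ‖ = ‖((star v : Alg M) : Op H) ξ‖ := by
      rw [pi_norm_app (pi_star' s1), star_star, h]
    have k2 : ‖(v : Op H) ξ‖ ^ 2 ≤ ‖ξ‖ ^ 2 := pow_le_pow_left₀ (norm_nonneg _) (pi_app_le s1 ξ) 2
    have k3 : δ * ‖ξ‖ ^ 2 = ‖(q : Op H) ξ‖ ^ 2 / 2 := by rw [hδ]; field_simp
    have k4 := mul_le_mul_of_nonneg_left k2 hδ0.le
    rw [← k1] at s4
    have := pow_pos hqξ 2
    linarith
  · have := z3 (e - star v * v) fun x => by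
      have := congrArg star (hz (star x))
      rwa [star_mul, star_mul, star_star, hp₀.isSelfAdjoint.star_eq, hq₀.isSelfAdjoint.star_eq,
        star_zero, ← mul_assoc] at this
    rw [← z1.comm, mul_sub, sub_eq_zero] at this
    exact this.symm

/-- the local step -/
theorem exists_loc (he : IsStarProjection e) (he0 : e ≠ 0)
    (hsep : ∀ x : Alg M, x * e = x → (x : Op H) ξ = 0 → x = 0)
    (hno : ∀ g : Alg M, IsStarProjection g → e * g = g → ¬ Quasi g ξ) :
    ∃ e' u₁ u₂ : Alg M, e' ≠ 0 ∧ IsStarProjection e' ∧ e * e' = e' ∧ star u₁ * u₁ = e' ∧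
      star u₂ * u₂ = e' ∧ star u₁ * u₂ = 0 ∧ e' * u₁ = u₁ ∧ e' * u₂ = u₂ := by
  have hee := he.isIdempotentElem.eq
  obtain ⟨v₁, z₁, a1, a2, a3, a4, a5, a6⟩ := exists_cmp he hsep hno he hee he0
  have hq₁ := proj_sub he (pi_proj₂ a1) (by rw [← mul_assoc, a2])
  set q₁ := e - v₁ * star v₁ with hq₁d
  have heq₁ : e * q₁ = q₁ := by rw [hq₁d, mul_sub, hee, ← mul_assoc, a2]
  obtain ⟨v₂, z₂, b1, b2, b3, b4, b5, b6⟩ := exists_cmp he hsep hno hq₁ heq₁ a4
  have hqq : q₁ * (q₁ - v₂ * star v₂) = q₁ - v₂ * star v₂ := by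
    rw [mul_sub, hq₁.isIdempotentElem.eq, ← mul_assoc, b2]
  have hz : IsStarProjection (z₁ * z₂) := a3.proj.mul b3.proj (a3.comm _)
  have hzc : ∀ a, z₁ * z₂ * a = a * (z₁ * z₂) := fun a => by
    rw [mul_assoc, b3.comm, a3.comm, mul_assoc, ← a3.comm z₂]
  set z := z₁ * z₂ with hzd
  have hzz := hz.isIdempotentElem.eq
  have hsq : ∀ a b : Alg M, star (z * a) * (z * b) = z * (star a * b) := fun a b => by
    rw [star_mul, hz.isSelfAdjoint.star_eq, mul_assoc, ← mul_assoc z, hzz, ← mul_assoc, ← hzc,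
      mul_assoc]
  have hmul : ∀ a b : Alg M, z * a * (z * b) = z * (a * b) := fun a b => by
    rw [hzc a, mul_assoc, ← mul_assoc z, hzz, ← mul_assoc, ← hzc, mul_assoc]
  refine ⟨z * e, z * v₁, z * v₂, fun h => b4 ?_, hz.mul he (hzc e), ?_, ?_, ?_, ?_, ?_, ?_⟩
  · have : z * e * (q₁ - v₂ * star v₂) = q₁ - v₂ * star v₂ := by
      rw [← hqq, mul_assoc, ← mul_assoc e, heq₁, hqq, hzd, mul_assoc, b5, ← hqq, ← mul_assoc, a5]
    rw [← this, h, zero_mul]
  · rw [← mul_assoc, ← hzc, mul_assoc, hee]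
  · rw [hsq, hzd, a3.comm z₂, mul_assoc, a6, mul_assoc]
  · rw [hsq, hzd, mul_assoc, b6, mul_assoc]
  · rw [hsq, ← b2, ← mul_assoc (star v₁), hq₁d, mul_sub, st_right he a2, ← mul_assoc (star v₁),
      pi_star a1, sub_self, zero_mul, mul_zero]
  · rw [hmul, a2]
  · rw [hmul, ← b2, ← mul_assoc e, heq₁]

end loc

end vn

end Inf

open Inf in
theorem infStmt : InfStmt.{u} := by
  intro H _ _ _ M o ho hno
  obtain ⟨w, ⟨w1, w2, w3, w4, w5⟩, wmax⟩ := zorn_pi (ι := Bool)
    {w : Bool → Alg M | (∀ i, w i * star (w i) * w i = w i) ∧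
      (∀ i, star (w i) * w i = star (w true) * w true) ∧ star (w true) * w false = 0 ∧
      (∀ i, star (w true) * w true * w i = w i) ∧ w true * o = w true}
    (fun w hw => hw.1) ⟨by simp, by simp, by simp, by simp, by simp⟩
    (fun l hl hV v v1 v2 v3 => by
      have hs : ∀ i j, SLim l (fun f => star (f i) * f j) (star (v i) * v j) := fun i j =>
        (v3 i).mul (v2 j) (hV.mono fun f hf => pi_norm_le (pi_star' (hf.1 i)))
      exact ⟨v1, fun i => (hs i i).eq (hs true true) (hV.mono fun f hf => hf.2.1 i),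
        (hs true false).eq (SLim.const l 0) (hV.mono fun f hf => hf.2.2.1),
        fun i => ((hs true true).mul (v2 i)
          (hV.mono fun f hf => (pi_proj₁ (hf.1 true)).norm_le)).eq (v2 i)
          (hV.mono fun f hf => hf.2.2.2.1 i),
        ((v2 true).mul (SLim.const l o) (hV.mono fun f hf => pi_norm_le (hf.1 true))).eq (v2 true)
          (hV.mono fun f hf => hf.2.2.2.2)⟩)
  have hp := pi_proj₁ (w1 true)
  set p := star (w true) * w true with hpd
  have hop : o * p = p := by rw [hpd, ← mul_assoc, st_left ho w5]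
  suffices h : o - p = 0 by
    rw [sub_eq_zero] at h
    exact ⟨w true, w false, h.symm, (w2 false).trans h.symm, w3⟩
  by_contra h
  have hp₀ := proj_sub ho hp hop
  obtain ⟨e, ξ, he, he0, hpe, hsep⟩ := exists_cyc hp₀ h
  have hoe : o * e = e := by
    rw [← hpe, ← mul_assoc, mul_sub, ho.isIdempotentElem.eq, hop]
  obtain ⟨e', u₁, u₂, a0, a1, a2, a3, a4, a5, a6, a7⟩ := exists_loc he he0 hsep
    fun g hg heg => hno g ξ hg (by rw [← heg, ← mul_assoc, hoe])
  have hpe' : p * e' = 0 := by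
    rw [← a2, ← hpe, ← mul_assoc, ← mul_assoc, mul_sub, proj_comm ho hp hop,
      hp.isIdempotentElem.eq, sub_self, zero_mul, zero_mul]
  have he'p : e' * p = 0 := by
    have := congrArg star hpe'
    rwa [star_mul, hp.isSelfAdjoint.star_eq, a1.isSelfAdjoint.star_eq, star_zero] at this
  let u : Bool → Alg M := fun b => if b then u₁ else u₂
  have u1 : ∀ i, star (u i) * u i = e' := fun i => by cases i <;> simp [u, a3, a4]
  have u2 : ∀ i, e' * u i = u i := fun i => by cases i <;> simp [u, a6, a7]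
  have u3 : ∀ i, u i * star (u i) * u i = u i := fun i => pi_of_proj (by rw [u1]; exact a1)
  have u4 : ∀ i, u i * e' = u i := fun i => by rw [← u1 i, ← mul_assoc, u3]
  have w6 : ∀ i, w i * p = w i := fun i => by rw [← w2 i, ← mul_assoc, w1]
  have k1 : ∀ i, u i * star (w i) = 0 := fun i => by
    rw [← u4, ← st_left hp (w6 i), mul_assoc, ← mul_assoc e', he'p, zero_mul, mul_zero]
  have k2 : ∀ i j, star (u i) * w j = 0 := fun i j => by
    rw [← st_right a1 (u2 i), ← w4, mul_assoc, ← mul_assoc e', he'p, zero_mul, mul_zero]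
  have k3 : ∀ i j, star (w i + u i) * (w j + u j) = star (w i) * w j + star (u i) * u j :=
    fun i j => by
      simp only [star_add, add_mul, mul_add, k2, st_zero (k2 j i), add_zero, zero_add]
  have := wmax u k1 (fun i => k2 i i) ⟨fun i => pi_add (w1 i) (u3 i) (k1 i) (k2 i i),
    fun i => by simp only [Pi.add_apply, k3, u1, w2], by
      simp only [Pi.add_apply, k3, w3, zero_add]; simpa [u] using a5,
    fun i => by
      simp only [Pi.add_apply, k3, u1, ← hpd]
      rw [add_mul, mul_add, mul_add, w4, u2, ← u2 i, ← mul_assoc p, hpe', ← w4 i,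
        ← mul_assoc e', he'p, zero_mul, zero_mul, add_zero, zero_add], by
      simp only [Pi.add_apply]
      rw [add_mul, w5, ← u4, mul_assoc, proj_comm ho a1 (by rw [← a2, ← mul_assoc, hoe])]⟩
  exact a0 (by rw [← u1 true, this]; simp)

end Crest.Agent.R121
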