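import Crest.Agent.R121.Basic

/-!
# Row 121: calculus of cochains on lists
-/

set_option autoImplicit false

namespace Crest.Agent.R121

open Finset

set_option linter.unusedSectionVars false

variable {A : Type*} [NormedRing A] [NormedAlgebra ℂ A]

theorem D0_eq_def_realised : True := by
  have := @D0.eq_def.{0}; have := @dd.eq_def.{0}; have := @BML.eq_def.{0}
  have := @D0.eq_1.{0}; have := @D0.eq_2.{0}; have := @D0.eq_3.{0}; have := @dd.eq_1.{0}
  have := @dd.eq_2.{0}; have := @BML.eq_1.{0}; have := @BML.eq_2.{0}; trivial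

@[simp] lemma D0_nil (f : List A → A) : D0 [] f = 0 := by simp [D0]
@[simp] lemma D0_one (a : A) (f : List A → A) : D0 [a] f = -(f [] * a) := by simp [D0]
@[simp] lemma D0_two (a b : A) (l : List A) (f : List A → A) :
    D0 (a :: b :: l) f = -f (a * b :: l) - D0 (b :: l) (fun l' => f (a :: l')) := by simp [D0]
@[simp] lemma dd_nil (f : List A → A) : dd f [] = 0 := rfl
lemma dd_cons (f : List A → A) (a : A) (l : List A) : dd f (a :: l) = a * f l + D0 (a :: l) f := rfl
@[simp] lemma nprod_nil : nprod ([] : List A) = 1 := by simp [nprod]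
@[simp] lemma nprod_cons (a : A) (l : List A) : nprod (a :: l) = ‖a‖ * nprod l := by simp [nprod]
lemma nprod_nonneg (l : List A) : 0 ≤ nprod l := by
  induction l with
  | nil => simp
  | cons a l ih => rw [nprod_cons]; positivity

/-- induction principle following the recursion of `D0` -/
lemma D0_congr (l : List A) : ∀ (a : A) {f g : List A → A},
    (∀ l' : List A, l'.length = l.length → f l' = g l') → D0 (a :: l) f = D0 (a :: l) g := by
  induction l with
  | nil => intro a f g h; simp [h [] rfl]
  | cons b l ih =>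
    intro a f g h
    rw [D0_two, D0_two, h (a * b :: l) (by simp), ih b fun l' hl' => h (a :: l') (by simp [hl'])]

lemma dd_congr {f g : List A → A} (l : List A)
    (h : ∀ l' : List A, l'.length + 1 = l.length → f l' = g l') : dd f l = dd g l := by
  cases l with
  | nil => rfl
  | cons a l =>
    rw [dd_cons, dd_cons, h l (by simp), D0_congr l a fun l' hl' => h l' (by simp [hl'])]

lemma D0_add (l : List A) : ∀ (f g : List A → A),
    D0 l (fun l' => f l' + g l') = D0 l f + D0 l g := by
  induction l with
  | nil => simp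
  | cons a l ih =>
    intro f g
    cases l with
    | nil => simp [add_mul, add_comm]
    | cons b l => rw [D0_two, D0_two, D0_two, ih]; abel

lemma D0_left (c : A) (l : List A) : ∀ (f : List A → A),
    D0 l (fun l' => c * f l') = c * D0 l f := by
  induction l with
  | nil => simp
  | cons a l ih =>
    intro f
    cases l with
    | nil => simp [mul_assoc]
    | cons b l => rw [D0_two, D0_two, ih, mul_sub, mul_neg]

lemma D0_smul (c : ℂ) (l : List A) (f : List A → A) :
    D0 l (fun l' => c • f l') = c • D0 l f := by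
  have := D0_left (c • (1 : A)) l f
  simpa only [smul_mul_assoc, one_mul] using this

lemma D0_neg (l : List A) (f : List A → A) : D0 l (fun l' => -f l') = -D0 l f := by
  simpa using D0_left (-1 : A) l f

lemma D0_sub (l : List A) (f g : List A → A) :
    D0 l (fun l' => f l' - g l') = D0 l f - D0 l g := by
  simp only [sub_eq_add_neg, D0_add, D0_neg]

lemma D0_zero (l : List A) : D0 l (fun _ => (0 : A)) = 0 := by
  simpa using D0_left (0 : A) l fun _ => 0

lemma D0_sum {α : Type*} (s : Finset α) (l : List A) (f : α → List A → A) :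
    D0 l (fun l' => ∑ a ∈ s, f a l') = ∑ a ∈ s, D0 l (f a) := by
  classical
  induction s using Finset.induction_on with
  | empty => simpa using D0_zero l
  | insert a s ha ih => simp only [Finset.sum_insert ha, D0_add, ih]

lemma dd_add (f g : List A → A) (l : List A) :
    dd (fun l' => f l' + g l') l = dd f l + dd g l := by
  cases l with
  | nil => simp
  | cons a l => simp only [dd_cons, D0_add, mul_add]; abel

lemma dd_sub (f g : List A → A) (l : List A) :
    dd (fun l' => f l' - g l') l = dd f l - dd g l := by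
  cases l with
  | nil => simp
  | cons a l => simp only [dd_cons, D0_sub, mul_sub]; abel

lemma dd_smul (c : ℂ) (f : List A → A) (l : List A) :
    dd (fun l' => c • f l') l = c • dd f l := by
  cases l with
  | nil => simp
  | cons a l => simp only [dd_cons, D0_smul, mul_smul_comm, smul_add]

lemma dd_central {z : A} (hz : ∀ a, z * a = a * z) (f : List A → A) (l : List A) :
    dd (fun l' => z * f l') l = z * dd f l := by
  cases l with
  | nil => simp
  | cons a l => simp only [dd_cons, D0_left, mul_add, ← mul_assoc, hz a]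

lemma BML.norm_le : ∀ (l : List A) {C : ℝ} {f : List A → A}, BML l.length C f →
    ‖f l‖ ≤ C * nprod l
  | [], C, f, h => by simpa [BML] using h
  | a :: l, C, f, h => by
    have := BML.norm_le l (h.2 a)
    rwa [nprod_cons, ← mul_assoc]

lemma BML.congr : ∀ {k : ℕ} {C : ℝ} {f g : List A → A}, BML k C f →
    (∀ l : List A, l.length = k → f l = g l) → BML k C g
  | 0, C, f, g, h, e => by simpa [BML, ← e [] rfl] using h
  | k + 1, C, f, g, h, e => ⟨fun l hl => by
      have : (fun a => g (a :: l)) = fun a => f (a :: l) := funext fun a => (e _ (by simp [hl])).symm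
      rw [this]; exact h.1 l hl, fun a => (h.2 a).congr fun l hl => e _ (by simp [hl])⟩

lemma BML.mono : ∀ {k : ℕ} {C C' : ℝ} {f : List A → A}, BML k C f → C ≤ C' → BML k C' f
  | 0, _, _, _, h, e => le_trans h e
  | _ + 1, _, _, _, h, e => ⟨h.1, fun a => (h.2 a).mono (by gcongr)⟩

lemma BML.add : ∀ {k : ℕ} {C C' : ℝ} {f g : List A → A}, BML k C f → BML k C' g →
    BML k (C + C') (fun l => f l + g l)
  | 0, _, _, _, _, h, h' => (norm_add_le _ _).trans (add_le_add h h')
  | _ + 1, _, _, _, _, h, h' => ⟨fun l hl =>
      ⟨fun x y => by beta_reduce; rw [(h.1 l hl).map_add, (h'.1 l hl).map_add]; abel,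
        fun c x => by beta_reduce; rw [(h.1 l hl).map_smul, (h'.1 l hl).map_smul, smul_add]⟩,
      fun a => by rw [add_mul]; exact (h.2 a).add (h'.2 a)⟩

lemma BML.left (c : A) : ∀ {k : ℕ} {C : ℝ} {f : List A → A}, BML k C f →
    BML k (‖c‖ * C) (fun l => c * f l)
  | 0, _, _, h => (norm_mul_le _ _).trans (mul_le_mul_of_nonneg_left h (norm_nonneg _))
  | _ + 1, _, _, h => ⟨fun l hl =>
      ⟨fun x y => by beta_reduce; rw [(h.1 l hl).map_add, mul_add],
        fun d x => by beta_reduce; rw [(h.1 l hl).map_smul, mul_smul_comm]⟩,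
      fun a => by rw [mul_assoc]; exact (h.2 a).left c⟩

lemma BML.smul (c : ℂ) : ∀ {k : ℕ} {C : ℝ} {f : List A → A}, BML k C f →
    BML k (‖c‖ * C) (fun l => c • f l)
  | 0, _, _, h => (norm_smul_le _ _).trans (mul_le_mul_of_nonneg_left h (norm_nonneg _))
  | _ + 1, _, _, h => ⟨fun l hl =>
      ⟨fun x y => by beta_reduce; rw [(h.1 l hl).map_add, smul_add],
        fun d x => by beta_reduce; rw [(h.1 l hl).map_smul, smul_comm]⟩,
      fun a => by rw [mul_assoc]; exact (h.2 a).smul c⟩

lemma BML.zero : ∀ k : ℕ, BML k 0 (fun _ : List A => (0 : A))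
  | 0 => by simp [BML]
  | k + 1 => ⟨fun _ _ => ⟨by simp, by simp⟩, fun a => by rw [zero_mul]; exact BML.zero k⟩

lemma BML.sum {α : Type*} (s : Finset α) {k : ℕ} {C : α → ℝ} {f : α → List A → A}
    (h : ∀ a ∈ s, BML k (C a) (f a)) : BML k (∑ a ∈ s, C a) (fun l => ∑ a ∈ s, f a l) := by
  classical
  induction s using Finset.induction_on with
  | empty => simpa using BML.zero k
  | insert a s ha ih =>
    simp only [Finset.sum_insert ha]
    exact (h a (mem_insert_self _ _)).add (ih fun b hb => h b (mem_insert_of_mem hb))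

/-- the last variable -/
lemma BML.bl_last : ∀ (l : List A) {C : ℝ} {f : List A → A}, 0 ≤ C → BML (l.length + 1) C f →
    BL (fun y => f (l ++ [y])) (C * nprod l)
  | [], C, f, hC, h => ⟨h.1 [] rfl, by simpa using hC, fun y => by simpa [BML] using h.2 y⟩
  | a :: l, C, f, hC, h => by
    have := BML.bl_last l (mul_nonneg hC (norm_nonneg a)) (h.2 a)
    rwa [nprod_cons, ← mul_assoc]

lemma Cob.add {z z' : A} {k : ℕ} {f : List A → A} (h : Cob z k f) (h' : Cob z' k f) :
    Cob (z + z') k f := by
  obtain ⟨g, C, h1, h2⟩ := h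
  obtain ⟨g', C', h1', h2'⟩ := h'
  exact ⟨_, _, h1.add h1', fun l hl => by rw [dd_add, h2 l hl, h2' l hl, add_mul]⟩

end Crest.Agent.R121
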