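import Crest.Agent.R121.Basic

/-!
# Row 121: a quasi-invariant vector state on a corner gives a trace
-/

set_option autoImplicit false

namespace Crest.Agent.R121

open scoped InnerProductSpace ComplexOrder BigOperators _root_.Topology
open Finset Filter
open Crest.Agent.R124 (Op inner_star_left inner_star_right)

universe u

namespace Quasi'

section fix
variable {E : Type*} [NormedAddCommGroup E] [InnerProductSpace ℂ E] [CompleteSpace E]

/-- fixed point theorem for a uniformly bounded group of operators on a Hilbert space -/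
theorem fixed {ι : Type*} (S : ι → E →L[ℂ] E) {c : ℝ} (hS : ∀ i, ‖S i‖ ≤ c)
    (comp : ∀ i j, ∃ k, ∀ v, S k v = S i (S j v))
    (div : ∀ i w, ∃ j, ∀ v, S i v = S j (S w v))
    (e : ι) (he : ∀ i v, S e (S i v) = S i v)
    (K : Set E) (hK : IsClosed K) (hne : K.Nonempty)
    (mid : ∀ v ∈ K, ∀ v' ∈ K, (2⁻¹ : ℂ) • (v + v') ∈ K) (inv : ∀ i, ∀ v ∈ K, S i v ∈ K) :
    ∃ v ∈ K, ∀ i, S i v = v := by
  have hSv : ∀ i v, ‖S i v‖ ≤ c * ‖v‖ := fun i v =>
    ((S i).le_opNorm v).trans (by gcongr; exact hS i)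
  -- the set of bounds attained on `K`
  set B : Set ℝ := {r | ∃ v ∈ K, ∀ i, ‖S i v‖ ^ 2 ≤ r} with hB
  have hBne : B.Nonempty := by
    obtain ⟨v, hv⟩ := hne
    exact ⟨(c * ‖v‖) ^ 2, v, hv, fun i => pow_le_pow_left₀ (norm_nonneg _) (hSv i v) 2⟩
  have hBb : BddBelow B := ⟨0, fun r ⟨v, _, h⟩ => (sq_nonneg _).trans (h e)⟩
  set m := sInf B with hm
  have near : ∀ ε, 0 < ε → ∃ v ∈ K, ∀ i, ‖S i v‖ ^ 2 ≤ m + ε := by
    intro ε hε
    obtain ⟨r, ⟨v, hv, h⟩, hr⟩ := exists_lt_of_csInf_lt hBne (show m < m + ε by linarith)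
    exact ⟨v, hv, fun i => (h i).trans hr.le⟩
  have far : ∀ v ∈ K, ∀ ε, 0 < ε → ∃ w, m - ε ≤ ‖S w v‖ ^ 2 := by
    intro v hv ε hε
    by_contra hcon
    push Not at hcon
    have : m ≤ m - ε := csInf_le hBb ⟨v, hv, fun i => (hcon i).le⟩
    linarith
  have close : ∀ ε, 0 < ε → ∀ v ∈ K, ∀ v' ∈ K, (∀ i, ‖S i v‖ ^ 2 ≤ m + ε) →
      (∀ i, ‖S i v'‖ ^ 2 ≤ m + ε) → ∀ i, ‖S i v - S i v'‖ ^ 2 ≤ c ^ 2 * (8 * ε) := by
    intro ε hε v hv v' hv' h h' i
    obtain ⟨w, hw⟩ := far _ (mid v hv v' hv') ε hε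
    obtain ⟨j, hj⟩ := div i w
    have hp := parallelogram_law_with_norm ℂ (S w v) (S w v')
    have h1 : ‖S w ((2⁻¹ : ℂ) • (v + v'))‖ = 2⁻¹ * ‖S w v + S w v'‖ := by
      rw [map_smul, map_add, norm_smul]; simp
    rw [h1] at hw
    have h2 : ‖S w v - S w v'‖ ^ 2 ≤ 8 * ε := by
      have := h w; have := h' w; nlinarith
    rw [hj v, hj v', ← map_sub]
    calc ‖S j (S w v - S w v')‖ ^ 2 ≤ (c * ‖S w v - S w v'‖) ^ 2 :=
          pow_le_pow_left₀ (norm_nonneg _) (hSv _ _) 2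
      _ = c ^ 2 * ‖S w v - S w v'‖ ^ 2 := by ring
      _ ≤ _ := by gcongr
  choose v hvK hv using fun n : ℕ => near (1 / ((n : ℝ) + 1)) (by positivity)
  set b : ℕ → ℝ := fun n => √(c ^ 2 * (8 * (1 / ((n : ℝ) + 1)))) with hb
  have hb0 : Tendsto b atTop (𝓝 0) := by
    have := ((tendsto_one_div_add_atTop_nhds_zero_nat (𝕜 := ℝ)).const_mul 8).const_mul (c ^ 2)
    simpa [hb] using this.sqrt
  have hcau : CauchySeq fun n => S e (v n) := by
    refine cauchySeq_of_le_tendsto_0 b (fun n k N hn hk => ?_) hb0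
    rw [dist_eq_norm]
    refine Real.le_sqrt_of_sq_le (close _ (by positivity) _ (hvK n) _ (hvK k)
      (fun i => (hv n i).trans ?_) (fun i => (hv k i).trans ?_) e)
    · have : (N : ℝ) ≤ n := by exact_mod_cast hn
      gcongr
    · have : (N : ℝ) ≤ k := by exact_mod_cast hk
      gcongr
  obtain ⟨y, hy⟩ := cauchySeq_tendsto_of_complete hcau
  refine ⟨y, hK.mem_of_tendsto hy (Eventually.of_forall fun n => inv e _ (hvK n)), fun i => ?_⟩
  have h1 : Tendsto (fun n => S i (S e (v n)) - S e (v n)) atTop (𝓝 (S i y - y)) :=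
    (((S i).continuous.tendsto y).comp hy).sub hy
  have h2 : Tendsto (fun n => S i (S e (v n)) - S e (v n)) atTop (𝓝 0) := by
    refine squeeze_zero_norm (fun n => ?_) hb0
    obtain ⟨k, hk⟩ := comp i e
    rw [← hk, ← he k]
    refine Real.le_sqrt_of_sq_le (close _ (by positivity) _ (inv k _ (hvK n)) _ (hvK n)
      (fun j => ?_) (hv n) e)
    obtain ⟨l, hl⟩ := comp j k
    rw [← hl]; exact hv n l
  exact sub_eq_zero.1 (tendsto_nhds_unique h1 h2)

/-- the dual form of the fixed point theorem -/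
theorem fixed' {ι V : Type*} [AddCommGroup V] [Module ℂ V] (T : V →ₗ[ℂ] E) (φ : ι → V →ₗ[ℂ] V)
    {c : ℝ} (hc : 0 ≤ c) (hφ : ∀ i a, ‖T (φ i a)‖ ≤ c * ‖T a‖)
    (comp : ∀ i j, ∃ k, ∀ a, φ k a = φ j (φ i a))
    (div : ∀ i w, ∃ j, ∀ a, φ i a = φ w (φ j a))
    (e : ι) (he : ∀ a, T (φ e a) = T a)
    (K : Set E) (hK : IsClosed K) (hne : K.Nonempty)
    (mid : ∀ v ∈ K, ∀ v' ∈ K, (2⁻¹ : ℂ) • (v + v') ∈ K)
    (inv : ∀ i, ∀ v ∈ K, ∀ v', (∀ a, ⟪v', T a⟫_ℂ = ⟪v, T (φ i a)⟫_ℂ) → v' ∈ K) :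
    ∃ v ∈ K, ∀ i a, ⟪v, T (φ i a)⟫_ℂ = ⟪v, T a⟫_ℂ := by
  choose G hG1 hG2 hG3 using fun i => R124.douglas T (T ∘ₗ φ i) hc (hφ i)
  set S : ι → E →L[ℂ] E := fun i => ContinuousLinearMap.adjoint (G i) with hS
  have hS1 : ∀ i v a, ⟪S i v, T a⟫_ℂ = ⟪v, T (φ i a)⟫_ℂ := fun i v a => by
    rw [hS, ContinuousLinearMap.adjoint_inner_left, hG2]; rfl
  have hS2 : ∀ i v η, (∀ a, ⟪T a, η⟫_ℂ = 0) → ⟪S i v, η⟫_ℂ = 0 := fun i v η h => by
    rw [hS, ContinuousLinearMap.adjoint_inner_left, hG3 i η h, inner_zero_right]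
  have ext : ∀ i j v v', (∀ a, ⟪S i v, T a⟫_ℂ = ⟪S j v', T a⟫_ℂ) → S i v = S j v' := by
    intro i j v v' h
    have h0 : ∀ a, ⟪T a, S i v - S j v'⟫_ℂ = 0 := fun a => by
      rw [← inner_conj_symm, inner_sub_left, h, sub_self, map_zero]
    have : ⟪S i v - S j v', S i v - S j v'⟫_ℂ = 0 := by
      rw [inner_sub_left, hS2 i v _ h0, hS2 j v' _ h0, sub_self]
    exact sub_eq_zero.1 (inner_self_eq_zero.1 this)
  obtain ⟨v, hv, h⟩ := fixed S (fun i => by
      rw [hS, LinearIsometryEquiv.norm_map]; exact hG1 i)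
    (fun i j => by
      obtain ⟨k, hk⟩ := comp i j
      exact ⟨k, fun v => ext _ _ _ _ fun a => by rw [hS1, hS1, hS1, hk]⟩)
    (fun i w => by
      obtain ⟨j, hj⟩ := div i w
      exact ⟨j, fun v => ext _ _ _ _ fun a => by rw [hS1, hS1, hS1, hj]⟩)
    e (fun i v => ext _ _ _ _ fun a => by rw [hS1, he]) K hK hne mid
    (fun i v hv => inv i v hv _ (hS1 i v))
  exact ⟨v, hv, fun i a => by rw [← hS1, h]⟩

end fix

section vn
variable {H : Type*} [NormedAddCommGroup H] [InnerProductSpace ℂ H] [CompleteSpace H]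
  {M : VonNeumannAlgebra H}

/-- an inequality between vector states passes from projections to positive elements -/
theorem proj_to_pos {g : Alg M} (hg : IsStarProjection g) (ξ η : H)
    (h : ∀ s : Alg M, IsStarProjection s → Cor g s →
      ‖(s : Op H) η‖ ^ 2 ≤ 2 * ‖(s : Op H) ξ‖ ^ 2) (x : Alg M) (hx : Cor g x) :
    ‖(x : Op H) η‖ ^ 2 ≤ 2 * ‖(x : Op H) ξ‖ ^ 2 := by
  set R := ‖x‖ ^ 2 with hR
  have hR0 : 0 ≤ R := sq_nonneg _
  have hq2 : ∀ q : Alg M, IsStarProjection q → ∀ ζ,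
      (⟪ζ, (q : Op H) ζ⟫_ℂ).re = ‖(q : Op H) ζ‖ ^ 2 := fun q hq ζ => by
    rw [norm_app_sq, hq.isSelfAdjoint.star_eq, hq.isIdempotentElem.eq]
  have key : ∀ n : ℕ, ∀ a : Alg M, Cor g a → IsSelfAdjoint a →
      (∀ ζ, 0 ≤ (⟪ζ, (a : Op H) ζ⟫_ℂ).re ∧ (⟪ζ, (a : Op H) ζ⟫_ℂ).re ≤ R * ‖ζ‖ ^ 2) →
      (⟪η, (a : Op H) η⟫_ℂ).re - 2 * (⟪ξ, (a : Op H) ξ⟫_ℂ).re ≤ R * ‖η‖ ^ 2 * (1 / 2) ^ n := by
    intro n
    induction n with
    | zero => intro a _ _ ha; have := (ha η).2; have := (ha ξ).1; simp only [pow_zero]; linarith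
    | succ n ih =>
      intro a hca hsa ha
      obtain ⟨q, hq, hqa, h1, h2, h3⟩ := exists_spec hsa (R / 2)
      have hgq : g * q = q := h3 g hg hca.1 (by positivity)
      have hcq : Cor g q := ⟨hgq, by
        have := congrArg star hgq
        rwa [star_mul, hq.isSelfAdjoint.star_eq, hg.isSelfAdjoint.star_eq] at this⟩
      have hqq := hq.isIdempotentElem.eq
      set a' : Alg M := (2 : ℂ) • a - (R : ℂ) • q with ha'
      have hin : ∀ ζ, (⟪ζ, (a' : Op H) ζ⟫_ℂ).re =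
          2 * (⟪ζ, (a : Op H) ζ⟫_ℂ).re - R * ‖(q : Op H) ζ‖ ^ 2 := fun ζ => by
        rw [ha', sub_app, smul_app, smul_app, inner_sub_right, inner_smul_right, inner_smul_right,
          Complex.sub_re, Complex.re_ofReal_mul, hq2 q hq]
        simp
      have hsplit : ∀ ζ, (⟪ζ, (a : Op H) ζ⟫_ℂ).re =
          (⟪(q : Op H) ζ, (a : Op H) ((q : Op H) ζ)⟫_ℂ).re +
          (⟪((1 - q : Alg M) : Op H) ζ, (a : Op H) (((1 - q : Alg M) : Op H) ζ)⟫_ℂ).re := fun ζ => by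
        have e : a = star q * (a * q) + star (1 - q) * (a * (1 - q)) := by
          rw [hq.isSelfAdjoint.star_eq, hq.one_sub.isSelfAdjoint.star_eq]
          simp only [mul_sub, sub_mul, mul_one, one_mul, ← hqa, ← mul_assoc, hqq]
          abel
        conv_lhs => rw [e]
        rw [add_app, inner_add_right, mul_app, mul_app, mul_app, mul_app, inner_star_r,
          inner_star_r, Complex.add_re]
      have hih := ih a' ((hca.smul _).sub (hcq.smul _)) (by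
        rw [ha', IsSelfAdjoint, star_sub, star_smul, star_smul, hsa.star_eq,
          hq.isSelfAdjoint.star_eq]
        simp) (fun ζ => by
        rw [hin, hsplit]
        have e1 := h1 ((q : Op H) ζ) (by rw [← mul_app, hqq])
        have e2 := h2 (((1 - q : Alg M) : Op H) ζ) (by
          rw [← mul_app, mul_sub, mul_one, hqq, sub_self, zero_app])
        have e3 := (ha ((q : Op H) ζ)).2
        have e4 := (ha (((1 - q : Alg M) : Op H) ζ)).1
        rw [← proj_pyth hq ζ]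
        constructor <;> linarith)
      rw [hin, hin] at hih
      have := mul_le_mul_of_nonneg_left (h q hq hcq) hR0
      rw [pow_succ (1 / 2 : ℝ)]
      linarith
  have hxx := fun n => key n (star x * x) ((hx.star hg).mul hx) (IsSelfAdjoint.star_mul_self x)
    fun ζ => by
      rw [← norm_app_sq, hR, ← mul_pow]
      exact ⟨sq_nonneg _, pow_le_pow_left₀ (norm_nonneg _) (norm_app_le x ζ) 2⟩
  simp only [← norm_app_sq] at hxx
  have hlim := (tendsto_pow_atTop_nhds_zero_of_lt_one (r := (1 / 2 : ℝ)) (by norm_num)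
    (by norm_num)).const_mul (R * ‖η‖ ^ 2)
  have := ge_of_tendsto' hlim hxx
  linarith

/-- unitaries of the corner -/
structure CU (g u : Alg M) : Prop where
  cor : Cor g u
  l : star u * u = g
  r : u * star u = g

lemma CU.self {g : Alg M} (hg : IsStarProjection g) : CU g g :=
  ⟨Cor.self hg, by rw [hg.isSelfAdjoint.star_eq, hg.isIdempotentElem.eq],
    by rw [hg.isSelfAdjoint.star_eq, hg.isIdempotentElem.eq]⟩

lemma CU.star {g u : Alg M} (hg : IsStarProjection g) (hu : CU g u) : CU g (star u) :=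
  ⟨hu.cor.star hg, by rw [star_star, hu.r], by rw [star_star, hu.l]⟩

lemma CU.mul {g u w : Alg M} (hu : CU g u) (hw : CU g w) : CU g (u * w) :=
  ⟨hu.cor.mul hw.cor,
    by rw [star_mul, mul_assoc, ← mul_assoc (Star.star u), hu.l, hw.cor.1, hw.l],
    by rw [star_mul, mul_assoc, ← mul_assoc w, hw.r, ← mul_assoc, hu.cor.2, hu.r]⟩

lemma CU.norm_app {g u : Alg M} (hu : CU g u) (ζ : H) : ‖(u : Op H) ζ‖ = ‖(g : Op H) ζ‖ := by
  rw [pi_norm_app (by rw [hu.r, hu.cor.1]), hu.l]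

lemma quasi_le {g : Alg M} {ξ : H} (hg : IsStarProjection g) (hξ : Quasi g ξ) {u x : Alg M}
    (hu : CU g u) (hx : Cor g x) :
    ‖((x * u : Alg M) : Op H) ξ‖ ^ 2 ≤ 2 * ‖(x : Op H) ξ‖ ^ 2 := by
  rw [mul_app]
  refine proj_to_pos hg ξ _ (fun s hs hcs => ?_) x hx
  have hss := hs.isIdempotentElem.eq
  have := hξ.inv (s * u) (hcs.mul hu.cor) (by
    rw [star_mul, hs.isSelfAdjoint.star_eq, mul_assoc s u, ← mul_assoc u, hu.r, hcs.1, hss,
      ← mul_assoc, hss])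
  rwa [star_mul, hs.isSelfAdjoint.star_eq, mul_app, mul_app, (hu.star hg).norm_app, ← mul_app g,
    hcs.1] at this

lemma quasi_ge {g : Alg M} {ξ : H} (hg : IsStarProjection g) (hξ : Quasi g ξ) {u x : Alg M}
    (hu : CU g u) (hx : Cor g x) :
    ‖(x : Op H) ξ‖ ^ 2 ≤ 2 * ‖((x * u : Alg M) : Op H) ξ‖ ^ 2 := by
  have := quasi_le hg hξ (hu.star hg) (hx.mul hu.cor)
  rwa [mul_assoc, hu.r, hx.2] at this

/-- `a ↦ g a g ξ` -/
noncomputable def ev (g : Alg M) (ξ : H) : Alg M →ₗ[ℂ] H where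
  toFun a := ((g * a * g : Alg M) : Op H) ξ
  map_add' a b := by rw [mul_add, add_mul, add_app]
  map_smul' c a := by rw [mul_smul_comm, smul_mul_assoc, smul_app]; rfl

lemma ev_cor {g a : Alg M} (ha : Cor g a) (ξ : H) : ev g ξ a = (a : Op H) ξ := by
  change ((g * a * g : Alg M) : Op H) ξ = _
  rw [ha.1, ha.2]

/-- `a ↦ u* a u` -/
noncomputable def cj (u : Alg M) : Alg M →ₗ[ℂ] Alg M where
  toFun a := star u * a * u
  map_add' a b := by rw [mul_add, add_mul]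
  map_smul' c a := by rw [mul_smul_comm, smul_mul_assoc]; rfl

lemma cj_apply (u a : Alg M) : cj u a = star u * a * u := rfl

lemma cj_mul (u w a : Alg M) : cj (u * w) a = cj w (cj u a) := by
  simp only [cj_apply, star_mul, mul_assoc]

lemma cj_cor {g u : Alg M} (hg : IsStarProjection g) (hu : Cor g u) (a : Alg M) :
    Cor g (cj u a) :=
  ⟨by rw [cj_apply, ← mul_assoc, ← mul_assoc, (hu.star hg).1], by rw [cj_apply, mul_assoc, hu.2]⟩

theorem exists_inv {g : Alg M} {ξ : H} (hg : IsStarProjection g) (hξ : Quasi g ξ) :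
    ∃ v : H, (∀ x, Cor g x → ((‖(x : Op H) ξ‖ ^ 2 / 2 : ℝ) : ℂ) ≤
        ⟪v, ((star x * x : Alg M) : Op H) ξ⟫_ℂ) ∧
      ⟪v, (g : Op H) ξ⟫_ℂ = ((‖(g : Op H) ξ‖ ^ 2 : ℝ) : ℂ) ∧
      ∀ u a, CU g u → Cor g a →
        ⟪v, ((star u * a * u : Alg M) : Op H) ξ⟫_ℂ = ⟪v, (a : Op H) ξ⟫_ℂ := by
  have hgg := hg.isIdempotentElem.eq
  have hgs := hg.isSelfAdjoint.star_eq
  have hc : ∀ {x u : Alg M}, Cor g x → CU g u → Cor g (star (x * u) * (x * u)) := fun hx hu =>
    ((hx.mul hu.cor).star hg).mul (hx.mul hu.cor)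
  obtain ⟨v, ⟨hv1, hv2⟩, hv⟩ := fixed' (ι := {u : Alg M // CU g u}) (ev g ξ) (fun u => cj u.1)
    (c := √2) (by positivity)
    (fun u a => by
      rw [ev_cor (cj_cor hg u.2.cor a)]
      have e : cj u.1 a = star u.1 * ((g * a * g) * u.1) := by
        rw [cj_apply, mul_assoc _ g, u.2.cor.1, ← mul_assoc, ← mul_assoc, (u.2.cor.star hg).2]
      rw [e, mul_app, (u.2.star hg).norm_app]
      refine (proj_norm_app_le hg _).trans ?_
      refine (pow_le_pow_iff_left₀ (norm_nonneg _) (by positivity) two_ne_zero).1 ?_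
      rw [mul_pow, Real.sq_sqrt (by norm_num)]
      exact quasi_le hg hξ u.2 (Cor.compress hg a))
    (fun u w => ⟨⟨u.1 * w.1, u.2.mul w.2⟩, fun a => cj_mul _ _ _⟩)
    (fun u w => ⟨⟨u.1 * star w.1, u.2.mul (w.2.star hg)⟩, fun a => by
      rw [← cj_mul, mul_assoc, w.2.l, u.2.cor.2]⟩)
    ⟨g, CU.self hg⟩ (fun a => by rw [ev_cor (cj_cor hg (Cor.self hg) a), cj_apply, hgs]; rfl)
    {v | (∀ x u, Cor g x → CU g u → ((‖(x : Op H) ξ‖ ^ 2 / 2 : ℝ) : ℂ) ≤
        ⟪v, ((star (x * u) * (x * u) : Alg M) : Op H) ξ⟫_ℂ) ∧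
      ⟪v, (g : Op H) ξ⟫_ℂ = ((‖(g : Op H) ξ‖ ^ 2 : ℝ) : ℂ)}
    (by
      simp only [Set.ofPred_and, Set.ofPred_forall]
      refine IsClosed.inter ?_ (isClosed_eq (by fun_prop) continuous_const)
      exact isClosed_iInter fun x => isClosed_iInter fun u => isClosed_iInter fun _ =>
        isClosed_iInter fun _ => isClosed_le continuous_const (by fun_prop))
    ⟨ξ, fun x u hx hu => by
      rw [mul_app, inner_star_r, inner_self_eq_norm_sq_to_K]
      have := quasi_ge hg hξ hu hx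
      have h2 : ‖(x : Op H) ξ‖ ^ 2 / 2 ≤ ‖((x * u : Alg M) : Op H) ξ‖ ^ 2 := by linarith
      rw [← RCLike.ofReal_pow]
      exact (RCLike.ofReal_le_ofReal (K := ℂ)).2 h2,
      by
      conv_lhs => rw [← hgg, mul_app, ← hgs, inner_star_r, hgs, inner_self_eq_norm_sq_to_K]
      norm_cast⟩
    (fun v hv v' hv' => ⟨fun x u hx hu => by
      have h1 := hv.1 x u hx hu
      have h2 := hv'.1 x u hx hu
      rw [inner_smul_left, inner_add_left]
      rw [Complex.le_def] at h1 h2 ⊢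
      simp only [map_inv₀, map_ofNat, Complex.ofReal_re, Complex.ofReal_im] at h1 h2 ⊢
      rw [show (2⁻¹ : ℂ) = ((2⁻¹ : ℝ) : ℂ) by simp, Complex.re_ofReal_mul, Complex.im_ofReal_mul,
        Complex.add_re, Complex.add_im]
      exact ⟨by linarith [h1.1, h2.1], by linarith [h1.2, h2.2]⟩,
      by
      rw [inner_smul_left, inner_add_left, hv.2, hv'.2]
      simp only [map_inv₀, map_ofNat]
      ring⟩)
    (fun w v hv v' hv' => ⟨fun x u hx hu => by
      rw [← ev_cor (hc hx hu), hv', ev_cor (cj_cor hg w.2.cor _)]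
      have := hv.1 x (u * w.1) hx (hu.mul w.2)
      convert this using 4
      simp only [cj_apply, star_mul, mul_assoc],
      by
      rw [← ev_cor (Cor.self hg), hv', ev_cor (cj_cor hg w.2.cor _), cj_apply, mul_assoc,
        w.2.cor.1, w.2.l, hv.2, ev_cor (Cor.self hg)]⟩)
  refine ⟨v, fun x hx => ?_, hv2, fun u a hu ha => ?_⟩
  · have := hv1 x g hx (CU.self hg)
    rwa [hx.2] at this
  · have := hv ⟨u, hu⟩ a
    rwa [ev_cor (cj_cor hg hu.cor a), ev_cor ha] at this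

end vn

end Quasi'

open Quasi' in
/-- a quasi-invariant state gives a trace -/
theorem quasiStmt : QuasiStmt.{u} := by
  intro H _ _ _ M g ξ hg hξ
  obtain ⟨v, h1, h2, h3⟩ := exists_inv hg hξ
  have hn : 0 < ‖(g : Op H) ξ‖ ^ 2 :=
    pow_pos (norm_pos_iff.2 fun h => hξ.ne (hξ.sep g (Cor.self hg) h)) 2
  set r : ℝ := ‖(g : Op H) ξ‖ ^ 2 with hr
  have hin : ∀ η, ⟪((r⁻¹ : ℝ) : ℂ) • v, η⟫_ℂ = ((r⁻¹ : ℝ) : ℂ) * ⟪v, η⟫_ℂ := fun η => by
    rw [inner_smul_left, Complex.conj_ofReal]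
  refine ⟨((r⁻¹ : ℝ) : ℂ) • v, ?_, fun x y hx hy => ?_, fun x hx => ?_, fun x hx h => ?_⟩
  · rw [hin, h2, ← Complex.ofReal_mul, inv_mul_cancel₀ hn.ne', Complex.ofReal_one]
  · rw [hin, hin]
    congr 1
    obtain ⟨w, c, rfl, hw⟩ := exists_four_cor hg hy ∅ (by simp) (by simp) (by simp)
    rw [Finset.mul_sum, Finset.sum_mul, sum_app, sum_app, inner_sum, inner_sum]
    refine Finset.sum_congr rfl fun i _ => ?_
    rw [mul_smul_comm, smul_mul_assoc, smul_app, smul_app, inner_smul_right, inner_smul_right,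
      ← h3 (w i) (w i * x) ⟨(hw i).1, (hw i).2.1, (hw i).2.2.1⟩ ((hw i).1.mul hx),
      ← mul_assoc, (hw i).2.1, hx.1]
  · rw [hin]
    refine mul_nonneg (Complex.zero_le_real.2 (by positivity)) (le_trans ?_ (h1 x hx))
    exact Complex.zero_le_real.2 (by positivity)
  · rw [hin, mul_eq_zero] at h
    rcases h with h | h
    · exact absurd (Complex.ofReal_eq_zero.1 h) (inv_ne_zero hn.ne')
    · have := h1 x hx
      rw [h, ← Complex.ofReal_zero, Complex.real_le_real] at this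
      refine hξ.sep x hx (norm_eq_zero.1 ?_)
      nlinarith [norm_nonneg ((x : Op H) ξ)]

end Crest.Agent.R121
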